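import Vale.Agent.Lib.P078.ProDefs
import Vale.Agent.Lib.P078.Approx
import Vale.Agent.Lib.P078.HF.A3a
import Vale.Agent.Lib.P078.HF.A3b

namespace Vale.Agent.Lib.P078

open scoped InnerProductSpace Matrix.Norms.L2Operator
open ContinuousLinearMap Filter Topology

variable {H : Type*} [NormedAddCommGroup H] [InnerProductSpace ℂ H] [CompleteSpace H]

/-! ### D : definitions of the formal calculus (complete, nothing to prove) -/

/-- The permutation matrix of `σ γ`: it maps the basis vector `m` to the basis vector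
`σ γ m`. -/
noncomputable def proPerm {Γ : Type} {d : ℕ} (σ : Γ → Fin d → Fin d) (γ : Γ) :
    Matrix (Fin d) (Fin d) ℂ :=
  Matrix.of fun k m => if k = σ γ m then 1 else 0

/-- The matrix `∑ (f, γ) ∈ l, diagonal f * proPerm σ γ` of a formal sum. -/
noncomputable def proMat {Γ : Type} {d : ℕ} (σ : Γ → Fin d → Fin d)
    (l : List ((Fin d → ℂ) × Γ)) : Matrix (Fin d) (Fin d) ℂ :=
  (l.map fun t => Matrix.diagonal t.1 * proPerm σ t.2).sum

/-- The size `∑ (f, γ) ∈ l, ‖f‖` (sup norms) of a formal sum. -/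
noncomputable def proSize {Γ : Type} {d : ℕ} (l : List ((Fin d → ℂ) × Γ)) : ℝ :=
  (l.map fun t => ‖t.1‖).sum

/-- The product of two formal sums: `(f, γ) (g, β) = (f * (g ∘ σ γ⁻¹), γ β)`. -/
noncomputable def proMul {Γ : Type} [Group Γ] {d : ℕ} (σ : Γ → Fin d → Fin d)
    (l l' : List ((Fin d → ℂ) × Γ)) : List ((Fin d → ℂ) × Γ) :=
  (l.product l').map fun t => ((fun k => t.1.1 k * t.2.1 (σ t.1.2⁻¹ k)), t.1.2 * t.2.2)

/-- Powers of a formal sum. -/
noncomputable def proPow {Γ : Type} [Group Γ] {d : ℕ} (σ : Γ → Fin d → Fin d)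
    (l : List ((Fin d → ℂ) × Γ)) : ℕ → List ((Fin d → ℂ) × Γ)
  | 0 => [((fun _ => 1), 1)]
  | (m + 1) => proMul σ l (proPow σ l m)

/-- All products of `m` elements of the list `g`. -/
def proWords {Γ : Type} [Group Γ] (g : List Γ) : ℕ → List Γ
  | 0 => [1]
  | (m + 1) => (g.product (proWords g m)).map fun t => t.1 * t.2

/-- The adjoint of a formal sum: `(f, γ)* = (conj f ∘ σ γ, γ⁻¹)`. -/
noncomputable def proStar {Γ : Type} [Group Γ] {d : ℕ} (σ : Γ → Fin d → Fin d)
    (l : List ((Fin d → ℂ) × Γ)) : List ((Fin d → ℂ) × Γ) :=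
  l.map fun t => ((fun k => starRingEnd ℂ (t.1 (σ t.2 k))), t.2⁻¹)

/-- Scalar multiple of a formal sum. -/
noncomputable def proSmul {Γ : Type} {d : ℕ} (c : ℂ)
    (l : List ((Fin d → ℂ) × Γ)) : List ((Fin d → ℂ) × Γ) :=
  l.map fun t => ((fun k => c * t.1 k), t.2)

/-- The paved formal sum: block-diagonal part along the colouring `κ`, minus the diagonal
`a`. -/
noncomputable def proPaved {Γ : Type} [Group Γ] {d r : ℕ} (σ : Γ → Fin d → Fin d)
    (κ : Fin d → Fin r) (a : Fin d → ℝ) (l : List ((Fin d → ℂ) × Γ)) :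
    List ((Fin d → ℂ) × Γ) :=
  (l.map fun t => ((fun k => if κ k = κ (σ t.2⁻¹ k) then t.1 k else 0), t.2)) ++
    [((fun k => -(a k : ℂ)), 1)]

/-- The partition `p i = ∑ k with κ k = i, e k` defined by a colouring. -/
noncomputable def proBlock {d r : ℕ} (e : Fin d → H →L[ℂ] H) (κ : Fin d → Fin r) :
    Fin r → H →L[ℂ] H :=
  fun i => ∑ k, if κ k = i then e k else 0

end Vale.Agent.Lib.P078
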