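import Vale.Agent.Lib.P078.ProDefs
import Vale.Agent.Lib.P078.Approx
import Vale.Agent.Lib.P078.HF.A3a
import Vale.Agent.Lib.P078.HF.A3b
import Vale.Agent.Lib.P078.Pro.D

namespace Vale.Agent.Lib.P078

open scoped InnerProductSpace Matrix.Norms.L2Operator
open ContinuousLinearMap Filter Topology

variable {H : Type*} [NormedAddCommGroup H] [InnerProductSpace ℂ H] [CompleteSpace H]

variable {Γ : Type} [Group Γ] {A M : VonNeumannAlgebra H} {Ω : H} {u : Γ → H →L[ℂ] H} {d : ℕ}
  {e : Fin d → H →L[ℂ] H} {σ : Γ → Fin d → Fin d}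

/-! ### F1 : basic facts on one level -/



theorem pro_e_mul (hlev : IsProLevel A Ω u e σ) (k m : Fin d) :
    e k * e m = if k = m then e k else 0 := by
  by_cases hkm : k = m
  · subst hkm
    rw [if_pos rfl]
    exact (hlev.1.1 k).2.isIdempotentElem.eq
  · rw [if_neg hkm]
    exact hlev.1.2.1 k m hkm

theorem pro_e_star (hlev : IsProLevel A Ω u e σ) (k : Fin d) : star (e k) = e k :=
  (hlev.1.1 k).2.isSelfAdjoint.star_eq

theorem pro_e_ne_zero (hlev : IsProLevel A Ω u e σ) (k : Fin d) : e k ≠ 0 := by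
  intro h0
  have h1 := hlev.2.1 k
  rw [h0] at h1
  simp only [zero_apply, inner_zero_right] at h1
  have hd : (d : ℂ) ≠ 0 := by
    have : d ≠ 0 := by
      rintro rfl
      exact k.elim0
    exact_mod_cast this
  exact (inv_ne_zero hd) h1.symm

theorem taskProF1_e_inj (hlev : IsProLevel A Ω u e σ) {k m : Fin d} (h : e k = e m) :
    k = m := by
  by_contra hkm
  have h1 := pro_e_mul hlev k m
  rw [if_neg hkm, ← h, pro_e_mul hlev k k, if_pos rfl] at h1
  exact pro_e_ne_zero hlev k h1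

theorem pro_d_pos (hlev : IsProLevel A Ω u e σ) (hΩ1 : ‖Ω‖ = 1) : 0 < d := by
  rcases Nat.eq_zero_or_pos d with h0 | hpos
  · subst h0
    have h1 : (∑ i, e i) = 1 := hlev.1.2.2
    simp only [Finset.univ_eq_empty, Finset.sum_empty] at h1
    have h2 : Ω = 0 := by
      have : (1 : H →L[ℂ] H) Ω = (0 : H →L[ℂ] H) Ω := by rw [h1]
      simpa using this
    rw [h2, norm_zero] at hΩ1
    exact absurd hΩ1 (by norm_num)
  · exact hpos

theorem pro_sigma_one (hrep : IsProRep M u) (hlev : IsProLevel A Ω u e σ) (k : Fin d) :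
    σ 1 k = k := by
  have h1 := hlev.2.2 1 k
  rw [hrep.1, star_one, one_mul, mul_one] at h1
  exact (taskProF1_e_inj hlev h1).symm

theorem pro_sigma_mul (hrep : IsProRep M u) (hlev : IsProLevel A Ω u e σ) (γ β : Γ)
    (k : Fin d) : σ (γ * β) k = σ γ (σ β k) := by
  have h1 := hlev.2.2 (γ * β) k
  have h2 := hlev.2.2 β k
  have h3 := hlev.2.2 γ (σ β k)
  rw [hrep.2.1 γ β, star_mul] at h1
  have h4 : u γ * u β * e k * (star (u β) * star (u γ))
      = u γ * (u β * e k * star (u β)) * star (u γ) := by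
    simp only [mul_assoc]
  rw [h4, h2, h3] at h1
  exact (taskProF1_e_inj hlev h1).symm

theorem pro_diag_mul (hlev : IsProLevel A Ω u e σ) (f g : Fin d → ℂ) :
    proDiag e f * proDiag e g = proDiag e (fun k => f k * g k) := by
  unfold proDiag
  rw [Finset.sum_mul_sum]
  refine Finset.sum_congr rfl (fun k _ => ?_)
  have h1 : ∀ m, f k • e k * g m • e m = if k = m then (f k * g k) • e k else 0 := by
    intro m
    rw [smul_mul_smul_comm, pro_e_mul hlev k m]
    by_cases hkm : k = m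
    · subst hkm
      simp
    · simp [hkm]
  rw [Finset.sum_congr rfl (fun m _ => h1 m)]
  simp

theorem pro_diag_one (hlev : IsProLevel A Ω u e σ) : proDiag e (fun _ => 1) = 1 := by
  unfold proDiag
  simp only [one_smul]
  exact hlev.1.2.2

theorem pro_diag_star (hlev : IsProLevel A Ω u e σ) (f : Fin d → ℂ) :
    star (proDiag e f) = proDiag e (fun k => starRingEnd ℂ (f k)) := by
  unfold proDiag
  rw [star_sum]
  refine Finset.sum_congr rfl (fun k _ => ?_)
  rw [star_smul, pro_e_star hlev k]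
  rfl

theorem pro_diag_mem (hlev : IsProLevel A Ω u e σ) (f : Fin d → ℂ) : proDiag e f ∈ A := by
  unfold proDiag
  exact sum_mem (fun k _ => A.toStarSubalgebra.smul_mem (hlev.1.1 k).1 _)

theorem pro_diag_norm_le (hlev : IsProLevel A Ω u e σ) (f : Fin d → ℂ) :
    ‖proDiag e f‖ ≤ ‖f‖ := by
  refine ContinuousLinearMap.opNorm_le_bound _ (norm_nonneg f) (fun v => ?_)
  have hp : ∀ i, IsStarProjection (e i) := fun i => (hlev.1.1 i).2
  have horth : ∀ i j, i ≠ j → e i * e j = 0 := hlev.1.2.1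
  have hidem : ∀ k (x : H), e k (e k x) = e k x := by
    intro k x
    have h := (hp k).isIdempotentElem.eq
    have h2 : (e k * e k) x = e k x := by rw [h]
    exact h2
  have h1 : proDiag e f v = ∑ k, e k (f k • e k v) := by
    unfold proDiag
    rw [sum_apply]
    refine Finset.sum_congr rfl (fun k _ => ?_)
    rw [smul_apply, map_smul, hidem]
  have h2 : ‖proDiag e f v‖ ^ 2 = ∑ k, ‖e k (f k • e k v)‖ ^ 2 := by
    rw [h1]
    exact taskB2_norm_sq_sum hp horth (fun k => f k • e k v)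
  have h3 : ‖v‖ ^ 2 = ∑ k, ‖e k v‖ ^ 2 := by
    have h4 := taskB2_norm_sq_sum hp horth (fun _ => v)
    have h5 : (∑ k, e k v) = v := by
      rw [← sum_apply, hlev.1.2.2]
      rfl
    rw [h5] at h4
    exact h4
  have h6 : ‖proDiag e f v‖ ^ 2 ≤ (‖f‖ * ‖v‖) ^ 2 := by
    rw [h2, mul_pow, h3, Finset.mul_sum]
    refine Finset.sum_le_sum (fun k _ => ?_)
    rw [map_smul, hidem, norm_smul, mul_pow]
    have h7 : ‖f k‖ ≤ ‖f‖ := norm_le_pi_norm f k
    have h8 : ‖f k‖ ^ 2 ≤ ‖f‖ ^ 2 := pow_le_pow_left₀ (norm_nonneg _) h7 2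
    exact mul_le_mul_of_nonneg_right h8 (by positivity)
  exact le_of_sq_le_sq h6 (by positivity)

theorem taskProF1_u_e (hrep : IsProRep M u) (hlev : IsProLevel A Ω u e σ) (γ : Γ)
    (k : Fin d) : u γ * e k = e (σ γ k) * u γ := by
  have h1 := hlev.2.2 γ k
  have h2 : star (u γ) * u γ = 1 := by
    rw [(hrep.2.2 γ).2, ← hrep.2.1, inv_mul_cancel, hrep.1]
  rw [← h1, mul_assoc, h2, mul_one]

theorem pro_u_diag (hrep : IsProRep M u) (hlev : IsProLevel A Ω u e σ) (γ : Γ)
    (f : Fin d → ℂ) : u γ * proDiag e f = proDiag e (fun k => f (σ γ⁻¹ k)) * u γ := by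
  have hl : ∀ k, σ γ⁻¹ (σ γ k) = k := by
    intro k
    rw [← pro_sigma_mul hrep hlev, inv_mul_cancel, pro_sigma_one hrep hlev]
  have hr : ∀ k, σ γ (σ γ⁻¹ k) = k := by
    intro k
    rw [← pro_sigma_mul hrep hlev, mul_inv_cancel, pro_sigma_one hrep hlev]
  unfold proDiag
  rw [Finset.mul_sum, Finset.sum_mul]
  have h1 : ∀ k, u γ * f k • e k = f k • e (σ γ k) * u γ := by
    intro k
    rw [mul_smul_comm, taskProF1_u_e hrep hlev, smul_mul_assoc]
  rw [Finset.sum_congr rfl (fun k _ => h1 k)]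
  refine Fintype.sum_equiv ⟨σ γ, σ γ⁻¹, hl, hr⟩ _ _ (fun k => ?_)
  simp only [Equiv.coe_fn_mk]
  rw [hl]

end Vale.Agent.Lib.P078
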