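import Vale.Agent.Lib.P078.ProDefs
import Vale.Agent.Lib.P078.Approx
import Vale.Agent.Lib.P078.HF.A3a
import Vale.Agent.Lib.P078.HF.A3b
import Vale.Agent.Lib.P078.Pro.F1

namespace Vale.Agent.Lib.P078

open scoped InnerProductSpace Matrix.Norms.L2Operator
open ContinuousLinearMap Filter Topology

variable {H : Type*} [NormedAddCommGroup H] [InnerProductSpace ℂ H] [CompleteSpace H]

variable {Γ : Type} [Group Γ] {A M : VonNeumannAlgebra H} {Ω : H} {u : Γ → H →L[ℂ] H} {d : ℕ}
  {e : Fin d → H →L[ℂ] H} {σ : Γ → Fin d → Fin d}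

/-! ### F2 : the operator of a formal sum -/

theorem pro_op_append (e : Fin d → H →L[ℂ] H) (u : Γ → H →L[ℂ] H)
    (l l' : List ((Fin d → ℂ) × Γ)) : proOp e u (l ++ l') = proOp e u l + proOp e u l' := by
  simp [proOp, List.map_append, List.sum_append]

theorem pro_op_mem (hAM : A ≤ M) (hrep : IsProRep M u) (hlev : IsProLevel A Ω u e σ)
    (l : List ((Fin d → ℂ) × Γ)) : proOp e u l ∈ M := by
  unfold proOp
  apply list_sum_mem
  intro x hx
  rw [List.mem_map] at hx
  obtain ⟨t, _, rfl⟩ := hx
  exact mul_mem (hAM (pro_diag_mem hlev t.1)) (hrep.2.2 t.2).1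

theorem taskProF2_term (hrep : IsProRep M u) (hlev : IsProLevel A Ω u e σ)
    (f g : Fin d → ℂ) (γ β : Γ) :
    proDiag e (fun k => f k * g (σ γ⁻¹ k)) * u (γ * β) =
      (proDiag e f * u γ) * (proDiag e g * u β) := by
  rw [hrep.2.1 γ β, ← pro_diag_mul hlev f (fun k => g (σ γ⁻¹ k))]
  calc proDiag e f * proDiag e (fun k => g (σ γ⁻¹ k)) * (u γ * u β)
      = proDiag e f * ((proDiag e (fun k => g (σ γ⁻¹ k)) * u γ) * u β) := by
        simp only [mul_assoc]
    _ = proDiag e f * ((u γ * proDiag e g) * u β) := by rw [pro_u_diag hrep hlev γ g]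
    _ = (proDiag e f * u γ) * (proDiag e g * u β) := by simp only [mul_assoc]

theorem taskProF2_cons (e : Fin d → H →L[ℂ] H) (u : Γ → H →L[ℂ] H)
    (a : (Fin d → ℂ) × Γ) (l : List ((Fin d → ℂ) × Γ)) :
    proOp e u (a :: l) = proDiag e a.1 * u a.2 + proOp e u l := by
  simp [proOp]

theorem pro_op_mul (hrep : IsProRep M u) (hlev : IsProLevel A Ω u e σ)
    (l l' : List ((Fin d → ℂ) × Γ)) :
    proOp e u (proMul σ l l') = proOp e u l * proOp e u l' := by
  induction l with
  | nil => simp [proMul, proOp, List.product]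
  | cons a l ih =>
    have h1 : proMul σ (a :: l) l' =
        (l'.map fun b => ((fun k => a.1 k * b.1 (σ a.2⁻¹ k)), a.2 * b.2)) ++ proMul σ l l' := by
      simp [proMul, List.product, List.map_append, List.map_map, Function.comp_def]
    have h2 : proOp e u (l'.map fun b => ((fun k => a.1 k * b.1 (σ a.2⁻¹ k)), a.2 * b.2)) =
        (proDiag e a.1 * u a.2) * proOp e u l' := by
      unfold proOp
      rw [List.map_map, ← List.sum_map_mul_left]
      congr 1
      apply List.map_congr_left
      intro b _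
      exact taskProF2_term hrep hlev a.1 b.1 a.2 b.2
    rw [h1, pro_op_append, ih, h2, taskProF2_cons, add_mul]

theorem pro_op_pow (hrep : IsProRep M u) (hlev : IsProLevel A Ω u e σ)
    (l : List ((Fin d → ℂ) × Γ)) (m : ℕ) : proOp e u (proPow σ l m) = proOp e u l ^ m := by
  induction m with
  | zero =>
    simp [proPow, proOp, pro_diag_one hlev, hrep.1]
  | succ m ih =>
    show proOp e u (proMul σ l (proPow σ l m)) = proOp e u l ^ (m + 1)
    rw [pro_op_mul hrep hlev, ih, pow_succ']

theorem pro_op_star (hrep : IsProRep M u) (hlev : IsProLevel A Ω u e σ)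
    (l : List ((Fin d → ℂ) × Γ)) : proOp e u (proStar σ l) = star (proOp e u l) := by
  induction l with
  | nil => simp [proStar, proOp]
  | cons a l ih =>
    have h1 : proOp e u (proStar σ (a :: l)) =
        proDiag e (fun k => starRingEnd ℂ (a.1 (σ a.2 k))) * u a.2⁻¹ +
          proOp e u (proStar σ l) := by
      simp [proStar, proOp]
    rw [h1, taskProF2_cons, star_add, ih, star_mul, (hrep.2.2 a.2).2, pro_diag_star hlev,
      pro_u_diag hrep hlev a.2⁻¹]
    simp only [inv_inv]

theorem pro_op_smul (e : Fin d → H →L[ℂ] H) (u : Γ → H →L[ℂ] H) (c : ℂ)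
    (l : List ((Fin d → ℂ) × Γ)) : proOp e u (proSmul c l) = c • proOp e u l := by
  have hterm : ∀ (f : Fin d → ℂ), proDiag e (fun k => c * f k) = c • proDiag e f := by
    intro f
    simp only [proDiag, Finset.smul_sum, mul_smul]
  induction l with
  | nil => simp [proSmul, proOp]
  | cons a l ih =>
    have h1 : proOp e u (proSmul c (a :: l)) =
        proDiag e (fun k => c * a.1 k) * u a.2 + proOp e u (proSmul c l) := by
      simp [proSmul, proOp]
    rw [h1, taskProF2_cons, ih, hterm, smul_add, smul_mul_assoc]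

end Vale.Agent.Lib.P078
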