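import Vale.Agent.Lib.P078.ProDefs
import Vale.Agent.Lib.P078.Approx
import Vale.Agent.Lib.P078.HF.A3a
import Vale.Agent.Lib.P078.HF.A3b
import Vale.Agent.Lib.P078.Pro.D

namespace Vale.Agent.Lib.P078

open scoped InnerProductSpace Matrix.Norms.L2Operator
open ContinuousLinearMap Filter Topology

variable {H : Type*} [NormedAddCommGroup H] [InnerProductSpace ℂ H] [CompleteSpace H]

variable {Γ : Type} [Group Γ] {A M : VonNeumannAlgebra H} {Ω : H} {u : Γ → H →L[ℂ] H} {d : ℕ}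
  {e : Fin d → H →L[ℂ] H} {σ : Γ → Fin d → Fin d}

/-! ### F3 : the matrix of a formal sum -/

theorem taskProF3_inv_apply (hσ1 : ∀ k, σ 1 k = k) (hσm : ∀ γ β k, σ (γ * β) k = σ γ (σ β k))
    (γ : Γ) (k : Fin d) : σ γ⁻¹ (σ γ k) = k := by
  rw [← hσm, inv_mul_cancel, hσ1]

theorem taskProF3_apply_inv (hσ1 : ∀ k, σ 1 k = k) (hσm : ∀ γ β k, σ (γ * β) k = σ γ (σ β k))
    (γ : Γ) (k : Fin d) : σ γ (σ γ⁻¹ k) = k := by
  rw [← hσm, mul_inv_cancel, hσ1]

theorem taskProF3_perm_one (hσ1 : ∀ k, σ 1 k = k) : proPerm σ (1 : Γ) = 1 := by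
  ext k m
  simp [proPerm, hσ1, Matrix.one_apply]

theorem taskProF3_perm_mul (hσm : ∀ γ β k, σ (γ * β) k = σ γ (σ β k)) (γ β : Γ) :
    proPerm σ γ * proPerm σ β = proPerm σ (γ * β) := by
  ext k m
  simp [proPerm, Matrix.mul_apply, hσm]

theorem taskProF3_perm_diag (hσ1 : ∀ k, σ 1 k = k)
    (hσm : ∀ γ β k, σ (γ * β) k = σ γ (σ β k)) (γ : Γ) (g : Fin d → ℂ) :
    proPerm σ γ * Matrix.diagonal g =
      Matrix.diagonal (fun k => g (σ γ⁻¹ k)) * proPerm σ γ := by
  ext k m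
  rw [Matrix.mul_diagonal, Matrix.diagonal_mul]
  by_cases h : k = σ γ m
  · subst h
    simp [proPerm, taskProF3_inv_apply hσ1 hσm, mul_comm]
  · simp [proPerm, h]

theorem taskProF3_term_mul (hσ1 : ∀ k, σ 1 k = k)
    (hσm : ∀ γ β k, σ (γ * β) k = σ γ (σ β k)) (f g : Fin d → ℂ) (γ β : Γ) :
    Matrix.diagonal (fun k => f k * g (σ γ⁻¹ k)) * proPerm σ (γ * β) =
      Matrix.diagonal f * proPerm σ γ * (Matrix.diagonal g * proPerm σ β) := by
  rw [← taskProF3_perm_mul hσm, ← Matrix.diagonal_mul_diagonal]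
  rw [Matrix.mul_assoc (Matrix.diagonal f) (proPerm σ γ), ← Matrix.mul_assoc (proPerm σ γ),
    taskProF3_perm_diag hσ1 hσm]
  simp only [Matrix.mul_assoc]

theorem pro_mat_append (σ : Γ → Fin d → Fin d) (l l' : List ((Fin d → ℂ) × Γ)) :
    proMat σ (l ++ l') = proMat σ l + proMat σ l' := by
  simp [proMat]

omit [Group Γ] in
theorem taskProF3_mat_cons (σ : Γ → Fin d → Fin d) (t : (Fin d → ℂ) × Γ)
    (l : List ((Fin d → ℂ) × Γ)) :
    proMat σ (t :: l) = Matrix.diagonal t.1 * proPerm σ t.2 + proMat σ l := by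
  simp [proMat]

omit [Group Γ] in
theorem taskProF3_mat_nil (σ : Γ → Fin d → Fin d) :
    proMat σ ([] : List ((Fin d → ℂ) × Γ)) = 0 := by
  simp [proMat]

theorem taskProF3_mat_single_mul (hσ1 : ∀ k, σ 1 k = k)
    (hσm : ∀ γ β k, σ (γ * β) k = σ γ (σ β k)) (t : (Fin d → ℂ) × Γ)
    (l' : List ((Fin d → ℂ) × Γ)) :
    proMat σ (l'.map fun s => ((fun k => t.1 k * s.1 (σ t.2⁻¹ k)), t.2 * s.2)) =
      Matrix.diagonal t.1 * proPerm σ t.2 * proMat σ l' := by
  induction l' with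
  | nil => simp [proMat]
  | cons s l' ih =>
    rw [List.map_cons, taskProF3_mat_cons, taskProF3_mat_cons, ih, mul_add,
      taskProF3_term_mul hσ1 hσm]

theorem pro_mat_mul (hσ1 : ∀ k, σ 1 k = k) (hσm : ∀ γ β k, σ (γ * β) k = σ γ (σ β k))
    (l l' : List ((Fin d → ℂ) × Γ)) :
    proMat σ (proMul σ l l') = proMat σ l * proMat σ l' := by
  induction l with
  | nil => simp [proMul, proMat, List.product]
  | cons t l ih =>
    have h : proMul σ (t :: l) l' =
        (l'.map fun s => ((fun k => t.1 k * s.1 (σ t.2⁻¹ k)), t.2 * s.2)) ++ proMul σ l l' := by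
      simp [proMul, List.product, List.map_append, List.map_map, Function.comp_def]
    rw [h, pro_mat_append, taskProF3_mat_single_mul hσ1 hσm, ih, taskProF3_mat_cons, add_mul]

theorem pro_mat_pow (hσ1 : ∀ k, σ 1 k = k) (hσm : ∀ γ β k, σ (γ * β) k = σ γ (σ β k))
    (l : List ((Fin d → ℂ) × Γ)) (m : ℕ) : proMat σ (proPow σ l m) = proMat σ l ^ m := by
  induction m with
  | zero =>
    simp only [proPow, pow_zero]
    rw [taskProF3_mat_cons, taskProF3_mat_nil, taskProF3_perm_one hσ1]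
    simp
  | succ m ih =>
    simp only [proPow]
    rw [pro_mat_mul hσ1 hσm, ih, pow_succ']

theorem taskProF3_term_star (hσ1 : ∀ k, σ 1 k = k)
    (hσm : ∀ γ β k, σ (γ * β) k = σ γ (σ β k)) (f : Fin d → ℂ) (γ : Γ) :
    Matrix.diagonal (fun k => starRingEnd ℂ (f (σ γ k))) * proPerm σ γ⁻¹ =
      (Matrix.diagonal f * proPerm σ γ).conjTranspose := by
  ext k m
  rw [Matrix.conjTranspose_apply, Matrix.diagonal_mul, Matrix.diagonal_mul]
  by_cases h : k = σ γ⁻¹ m
  · subst h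
    simp [proPerm, taskProF3_apply_inv hσ1 hσm]
  · have h' : ¬ m = σ γ k := by
      intro hm
      apply h
      rw [hm, taskProF3_inv_apply hσ1 hσm]
    simp [proPerm, h, h']

theorem pro_mat_star (hσ1 : ∀ k, σ 1 k = k) (hσm : ∀ γ β k, σ (γ * β) k = σ γ (σ β k))
    (l : List ((Fin d → ℂ) × Γ)) :
    proMat σ (proStar σ l) = (proMat σ l).conjTranspose := by
  induction l with
  | nil => simp [proStar, proMat]
  | cons t l ih =>
    have h : proStar σ (t :: l) =
        ((fun k => starRingEnd ℂ (t.1 (σ t.2 k))), t.2⁻¹) :: proStar σ l := by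
      simp [proStar]
    rw [h, taskProF3_mat_cons, taskProF3_mat_cons, ih, Matrix.conjTranspose_add,
      taskProF3_term_star hσ1 hσm]

theorem pro_mat_smul (σ : Γ → Fin d → Fin d) (c : ℂ) (l : List ((Fin d → ℂ) × Γ)) :
    proMat σ (proSmul c l) = c • proMat σ l := by
  induction l with
  | nil => simp [proSmul, proMat]
  | cons t l ih =>
    have h : proSmul c (t :: l) = ((fun k => c * t.1 k), t.2) :: proSmul c l := by
      simp [proSmul]
    rw [h, taskProF3_mat_cons, taskProF3_mat_cons, ih, smul_add]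
    congr 1
    have h2 : Matrix.diagonal (fun k => c * t.1 k) = c • Matrix.diagonal t.1 := by
      ext i j
      by_cases hij : i = j
      · subst hij; simp
      · simp [hij]
    rw [h2, Matrix.smul_mul]

theorem taskProF3_perm_norm_le (hσ1 : ∀ k, σ 1 k = k)
    (hσm : ∀ γ β k, σ (γ * β) k = σ γ (σ β k)) (γ : Γ) : ‖proPerm σ γ‖ ≤ 1 := by
  have h1 : (proPerm σ γ).conjTranspose * proPerm σ γ = 1 := by
    have h2 : (proPerm σ γ).conjTranspose = proPerm σ γ⁻¹ := by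
      have h3 := taskProF3_term_star hσ1 hσm (fun _ => (1 : ℂ)) γ
      simpa [Matrix.diagonal_one] using h3.symm
    rw [h2, taskProF3_perm_mul hσm, inv_mul_cancel, taskProF3_perm_one hσ1]
  have h4 : ‖proPerm σ γ‖ * ‖proPerm σ γ‖ = ‖(1 : Matrix (Fin d) (Fin d) ℂ)‖ := by
    rw [← Matrix.l2_opNorm_conjTranspose_mul_self, h1]
  have h5 : ‖(1 : Matrix (Fin d) (Fin d) ℂ)‖ ≤ 1 := by
    rw [← Matrix.diagonal_one, Matrix.l2_opNorm_diagonal]
    exact (pi_norm_const_le (1 : ℂ)).trans (by simp)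
  nlinarith [norm_nonneg (proPerm σ γ)]

theorem pro_mat_norm_le (hσ1 : ∀ k, σ 1 k = k) (hσm : ∀ γ β k, σ (γ * β) k = σ γ (σ β k))
    (l : List ((Fin d → ℂ) × Γ)) : ‖proMat σ l‖ ≤ proSize l := by
  induction l with
  | nil => simp [proMat, proSize]
  | cons t l ih =>
    have hs : proSize (t :: l) = ‖t.1‖ + proSize l := by
      simp [proSize]
    rw [taskProF3_mat_cons, hs]
    have h1 : ‖Matrix.diagonal t.1 * proPerm σ t.2‖ ≤ ‖t.1‖ := by
      calc ‖Matrix.diagonal t.1 * proPerm σ t.2‖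
          ≤ ‖Matrix.diagonal t.1‖ * ‖proPerm σ t.2‖ := Matrix.l2_opNorm_mul _ _
        _ ≤ ‖t.1‖ * 1 := by
            rw [Matrix.l2_opNorm_diagonal]
            exact mul_le_mul_of_nonneg_left (taskProF3_perm_norm_le hσ1 hσm t.2) (norm_nonneg _)
        _ = ‖t.1‖ := mul_one _
    exact (norm_add_le _ _).trans (add_le_add h1 ih)

end Vale.Agent.Lib.P078
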