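import Vale.Agent.Lib.P078.ProDefs
import Vale.Agent.Lib.P078.Approx
import Vale.Agent.Lib.P078.HF.A3a
import Vale.Agent.Lib.P078.HF.A3b
import Vale.Agent.Lib.P078.Pro.D

namespace Vale.Agent.Lib.P078

open scoped InnerProductSpace Matrix.Norms.L2Operator
open ContinuousLinearMap Filter Topology

variable {H : Type*} [NormedAddCommGroup H] [InnerProductSpace ℂ H] [CompleteSpace H]

variable {Γ : Type} [Group Γ] {A M : VonNeumannAlgebra H} {Ω : H} {u : Γ → H →L[ℂ] H} {d : ℕ}
  {e : Fin d → H →L[ℂ] H} {σ : Γ → Fin d → Fin d}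

/-! ### F4 : sizes and supports of formal sums -/

theorem taskProF4_size_nil : proSize ([] : List ((Fin d → ℂ) × Γ)) = 0 := by
  simp [proSize]

theorem taskProF4_size_cons (t : (Fin d → ℂ) × Γ) (l : List ((Fin d → ℂ) × Γ)) :
    proSize (t :: l) = ‖t.1‖ + proSize l := by
  simp [proSize]

theorem taskProF4_product_nil {α β : Type} (l' : List β) :
    ([] : List α).product l' = [] := rfl

theorem taskProF4_product_cons {α β : Type} (a : α) (l : List α) (l' : List β) :
    (a :: l).product l' = (l'.map fun b => (a, b)) ++ l.product l' :=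
  List.product_cons a l l'

theorem taskProF4_norm_mul_le (f g : Fin d → ℂ) (s : Fin d → Fin d) :
    ‖fun k => f k * g (s k)‖ ≤ ‖f‖ * ‖g‖ := by
  rw [pi_norm_le_iff_of_nonneg (mul_nonneg (norm_nonneg _) (norm_nonneg _))]
  intro k
  rw [norm_mul]
  exact mul_le_mul (norm_le_pi_norm f k) (norm_le_pi_norm g (s k)) (norm_nonneg _)
    (norm_nonneg _)

theorem pro_size_nonneg (l : List ((Fin d → ℂ) × Γ)) : 0 ≤ proSize l := by
  unfold proSize
  apply List.sum_nonneg
  intro x hx
  rw [List.mem_map] at hx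
  obtain ⟨t, -, rfl⟩ := hx
  exact norm_nonneg _

theorem pro_size_append (l l' : List ((Fin d → ℂ) × Γ)) :
    proSize (l ++ l') = proSize l + proSize l' := by
  simp [proSize, List.map_append, List.sum_append]

theorem taskProF4_size_map_le (σ : Γ → Fin d → Fin d) (t : (Fin d → ℂ) × Γ)
    (l' : List ((Fin d → ℂ) × Γ)) :
    proSize (l'.map fun s => ((fun k => t.1 k * s.1 (σ t.2⁻¹ k)), t.2 * s.2)) ≤
      ‖t.1‖ * proSize l' := by
  induction l' with
  | nil => simp [proSize]
  | cons s l' ih =>
    rw [List.map_cons, taskProF4_size_cons, taskProF4_size_cons, mul_add]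
    exact add_le_add (taskProF4_norm_mul_le t.1 s.1 (σ t.2⁻¹)) ih

theorem taskProF4_mul_cons (σ : Γ → Fin d → Fin d) (t : (Fin d → ℂ) × Γ)
    (l l' : List ((Fin d → ℂ) × Γ)) :
    proMul σ (t :: l) l' =
      (l'.map fun s => ((fun k => t.1 k * s.1 (σ t.2⁻¹ k)), t.2 * s.2)) ++ proMul σ l l' := by
  unfold proMul
  rw [taskProF4_product_cons, List.map_append, List.map_map]
  rfl

theorem pro_size_mul_le (σ : Γ → Fin d → Fin d) (l l' : List ((Fin d → ℂ) × Γ)) :
    proSize (proMul σ l l') ≤ proSize l * proSize l' := by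
  induction l with
  | nil => simp [proMul, proSize, taskProF4_product_nil]
  | cons t l ih =>
    rw [taskProF4_mul_cons, pro_size_append, taskProF4_size_cons, add_mul]
    exact add_le_add (taskProF4_size_map_le σ t l') ih

theorem pro_size_pow_le (σ : Γ → Fin d → Fin d) (l : List ((Fin d → ℂ) × Γ)) (m : ℕ) :
    proSize (proPow σ l m) ≤ proSize l ^ m := by
  induction m with
  | zero =>
    have h1 : ‖fun _ : Fin d => (1 : ℂ)‖ ≤ 1 := by
      rw [pi_norm_le_iff_of_nonneg zero_le_one]
      intro k
      simp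
    have h2 : proSize (proPow σ l 0) = ‖fun _ : Fin d => (1 : ℂ)‖ := by
      simp [proPow, proSize]
    rw [h2, pow_zero]
    exact h1
  | succ m ih =>
    have h1 : proPow σ l (m + 1) = proMul σ l (proPow σ l m) := rfl
    rw [h1, pow_succ']
    exact (pro_size_mul_le σ l _).trans (mul_le_mul_of_nonneg_left ih (pro_size_nonneg l))

theorem taskProF4_snd_mul (σ : Γ → Fin d → Fin d) (l l' : List ((Fin d → ℂ) × Γ)) :
    (proMul σ l l').map Prod.snd =
      ((l.map Prod.snd).product (l'.map Prod.snd)).map fun t => t.1 * t.2 := by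
  induction l with
  | nil => simp [proMul, taskProF4_product_nil]
  | cons t l ih =>
    rw [taskProF4_mul_cons, List.map_append, ih, List.map_cons, taskProF4_product_cons,
      List.map_append, List.map_map, List.map_map, List.map_map]
    rfl

theorem pro_snd_pow (σ : Γ → Fin d → Fin d) (l : List ((Fin d → ℂ) × Γ)) (m : ℕ) :
    (proPow σ l m).map Prod.snd = proWords (l.map Prod.snd) m := by
  induction m with
  | zero => rfl
  | succ m ih =>
    have h1 : proPow σ l (m + 1) = proMul σ l (proPow σ l m) := rfl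
    have h2 : proWords (l.map Prod.snd) (m + 1) =
        ((l.map Prod.snd).product (proWords (l.map Prod.snd) m)).map fun t => t.1 * t.2 := rfl
    rw [h1, h2, taskProF4_snd_mul, ih]

theorem pro_size_star_le (σ : Γ → Fin d → Fin d) (l : List ((Fin d → ℂ) × Γ)) :
    proSize (proStar σ l) ≤ proSize l := by
  induction l with
  | nil => simp [proStar, proSize]
  | cons t l ih =>
    have h1 : proStar σ (t :: l) =
        ((fun k => starRingEnd ℂ (t.1 (σ t.2 k))), t.2⁻¹) :: proStar σ l := rfl
    rw [h1, taskProF4_size_cons, taskProF4_size_cons]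
    refine add_le_add ?_ ih
    rw [pi_norm_le_iff_of_nonneg (norm_nonneg _)]
    intro k
    rw [RCLike.norm_conj]
    exact norm_le_pi_norm t.1 (σ t.2 k)

theorem pro_snd_star (σ : Γ → Fin d → Fin d) (l : List ((Fin d → ℂ) × Γ)) :
    (proStar σ l).map Prod.snd = (l.map Prod.snd).map fun γ => γ⁻¹ := by
  unfold proStar
  rw [List.map_map, List.map_map]
  rfl

theorem pro_size_smul (c : ℂ) (l : List ((Fin d → ℂ) × Γ)) :
    proSize (proSmul c l) = ‖c‖ * proSize l := by
  induction l with
  | nil => simp [proSmul, proSize]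
  | cons t l ih =>
    have h1 : proSmul c (t :: l) = ((fun k => c * t.1 k), t.2) :: proSmul c l := rfl
    have h2 : ‖fun k => c * t.1 k‖ = ‖c‖ * ‖t.1‖ := norm_smul c t.1
    rw [h1, taskProF4_size_cons, taskProF4_size_cons, ih, mul_add, h2]

theorem pro_snd_smul (c : ℂ) (l : List ((Fin d → ℂ) × Γ)) :
    (proSmul c l).map Prod.snd = l.map Prod.snd := by
  unfold proSmul
  rw [List.map_map]
  rfl

end Vale.Agent.Lib.P078
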