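import Vale.Agent.Lib.P078.ProDefs
import Vale.Agent.Lib.P078.Approx
import Vale.Agent.Lib.P078.HF.A3a
import Vale.Agent.Lib.P078.HF.A3b
import Vale.Agent.Lib.P078.Pro.F1
import Vale.Agent.Lib.P078.Pro.F2
import Vale.Agent.Lib.P078.Pro.F3
import Vale.Agent.Lib.P078.Pro.F4

namespace Vale.Agent.Lib.P078

open scoped InnerProductSpace Matrix.Norms.L2Operator
open ContinuousLinearMap Filter Topology

variable {H : Type*} [NormedAddCommGroup H] [InnerProductSpace ℂ H] [CompleteSpace H]

variable {Γ : Type} [Group Γ] {A M : VonNeumannAlgebra H} {Ω : H} {u : Γ → H →L[ℂ] H} {d : ℕ}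
  {e : Fin d → H →L[ℂ] H} {σ : Γ → Fin d → Fin d}

/-! ### F5 : the paved formal sum -/

omit [CompleteSpace H] in
theorem taskProF5_block_eq (e : Fin d → H →L[ℂ] H) {r : ℕ} (κ : Fin d → Fin r) (i : Fin r) :
    proBlock e κ i = proDiag e (fun k => if κ k = i then (1 : ℂ) else 0) := by
  unfold proBlock proDiag
  refine Finset.sum_congr rfl (fun k _ => ?_)
  beta_reduce
  split_ifs
  · rw [one_smul]
  · rw [zero_smul]

omit [CompleteSpace H] in
theorem taskProF5_diag_sum (e : Fin d → H →L[ℂ] H) {ι : Type*} (s : Finset ι)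
    (g : ι → Fin d → ℂ) :
    ∑ i ∈ s, proDiag e (g i) = proDiag e (fun k => ∑ i ∈ s, g i k) := by
  unfold proDiag
  rw [Finset.sum_comm]
  refine Finset.sum_congr rfl (fun k _ => ?_)
  rw [Finset.sum_smul]

theorem taskProF5_term (hrep : IsProRep M u) (hlev : IsProLevel A Ω u e σ) {r : ℕ}
    (κ : Fin d → Fin r) (f : Fin d → ℂ) (γ : Γ) :
    pinching (proBlock e κ) (proDiag e f * u γ) =
      proDiag e (fun k => if κ k = κ (σ γ⁻¹ k) then f k else 0) * u γ := by
  unfold pinching
  have h1 : ∀ i : Fin r, proBlock e κ i * (proDiag e f * u γ) * proBlock e κ i =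
      proDiag e (fun k => (if κ k = i then (1 : ℂ) else 0) * f k *
        (if κ (σ γ⁻¹ k) = i then (1 : ℂ) else 0)) * u γ := by
    intro i
    rw [taskProF5_block_eq e κ i, mul_assoc, mul_assoc, pro_u_diag hrep hlev γ, ← mul_assoc,
      ← mul_assoc, pro_diag_mul hlev, pro_diag_mul hlev]
  rw [Finset.sum_congr rfl (fun i _ => h1 i), ← Finset.sum_mul, taskProF5_diag_sum]
  congr 2
  funext k
  rw [Finset.sum_eq_single (κ k)]
  · by_cases h : κ k = κ (σ γ⁻¹ k)
    · rw [if_pos rfl, if_pos h.symm, if_pos h, one_mul, mul_one]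
    · rw [if_pos rfl, if_neg (fun h' => h h'.symm), if_neg h, mul_zero]
  · intro i _ hi
    rw [if_neg (fun h => hi h.symm), zero_mul, zero_mul]
  · intro h
    exact absurd (Finset.mem_univ _) h

omit [CompleteSpace H] in
theorem taskProF5_pinching_add {r : ℕ} (p : Fin r → H →L[ℂ] H) (x y : H →L[ℂ] H) :
    pinching p (x + y) = pinching p x + pinching p y := by
  unfold pinching
  rw [← Finset.sum_add_distrib]
  refine Finset.sum_congr rfl (fun i _ => ?_)
  rw [mul_add, add_mul]

omit [CompleteSpace H] in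
theorem taskProF5_pinching_zero {r : ℕ} (p : Fin r → H →L[ℂ] H) :
    pinching p (0 : H →L[ℂ] H) = 0 := by
  unfold pinching
  simp

theorem taskProF5_op_block (hrep : IsProRep M u) (hlev : IsProLevel A Ω u e σ) {r : ℕ}
    (κ : Fin d → Fin r) (l : List ((Fin d → ℂ) × Γ)) :
    proOp e u (l.map fun t => ((fun k => if κ k = κ (σ t.2⁻¹ k) then t.1 k else 0), t.2)) =
      pinching (proBlock e κ) (proOp e u l) := by
  induction l with
  | nil =>
    have h0 : proOp e u ([] : List ((Fin d → ℂ) × Γ)) = 0 := by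
      unfold proOp
      rw [List.map_nil, List.sum_nil]
    rw [List.map_nil, h0, taskProF5_pinching_zero]
  | cons t l ih =>
    have h1 : proOp e u (t :: l) = proDiag e t.1 * u t.2 + proOp e u l := by
      unfold proOp
      rw [List.map_cons, List.sum_cons]
    rw [h1, taskProF5_pinching_add, taskProF5_term hrep hlev κ t.1 t.2, ← ih]
    unfold proOp
    rw [List.map_cons, List.map_cons, List.sum_cons]

theorem taskProF5_mat_term (hσ1 : ∀ k, σ 1 k = k)
    (hσm : ∀ γ β k, σ (γ * β) k = σ γ (σ β k)) {r : ℕ} (κ : Fin d → Fin r)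
    (f : Fin d → ℂ) (γ : Γ) (j k : Fin d) :
    (Matrix.diagonal (fun k => if κ k = κ (σ γ⁻¹ k) then f k else 0) * proPerm σ γ) j k =
      if κ j = κ k then (Matrix.diagonal f * proPerm σ γ) j k else 0 := by
  rw [Matrix.diagonal_mul, Matrix.diagonal_mul]
  unfold proPerm
  rw [Matrix.of_apply]
  by_cases hjk : j = σ γ k
  · have hk : σ γ⁻¹ j = k := by
      rw [hjk, ← hσm, inv_mul_cancel, hσ1]
    rw [if_pos hjk, hk, mul_one, mul_one]
  · rw [if_neg hjk, mul_zero, mul_zero, ite_self]

theorem taskProF5_mat_block (hσ1 : ∀ k, σ 1 k = k)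
    (hσm : ∀ γ β k, σ (γ * β) k = σ γ (σ β k)) {r : ℕ} (κ : Fin d → Fin r)
    (l : List ((Fin d → ℂ) × Γ)) (j k : Fin d) :
    proMat σ (l.map fun t => ((fun k => if κ k = κ (σ t.2⁻¹ k) then t.1 k else 0), t.2)) j k =
      if κ j = κ k then proMat σ l j k else 0 := by
  induction l with
  | nil =>
    have h0 : proMat σ ([] : List ((Fin d → ℂ) × Γ)) = 0 := by
      unfold proMat
      rw [List.map_nil, List.sum_nil]
    rw [List.map_nil, h0, Matrix.zero_apply, ite_self]
  | cons t l ih =>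
    have h1 : proMat σ (t :: l) = Matrix.diagonal t.1 * proPerm σ t.2 + proMat σ l := by
      unfold proMat
      rw [List.map_cons, List.sum_cons]
    have h2 : proMat σ ((t :: l).map fun t =>
          ((fun k => if κ k = κ (σ t.2⁻¹ k) then t.1 k else 0), t.2)) =
        Matrix.diagonal (fun k => if κ k = κ (σ t.2⁻¹ k) then t.1 k else 0) * proPerm σ t.2 +
          proMat σ (l.map fun t =>
            ((fun k => if κ k = κ (σ t.2⁻¹ k) then t.1 k else 0), t.2)) := by
      unfold proMat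
      rw [List.map_cons, List.map_cons, List.sum_cons]
    rw [h1, h2, Matrix.add_apply, Matrix.add_apply, ih,
      taskProF5_mat_term hσ1 hσm κ t.1 t.2 j k]
    split_ifs
    · rfl
    · rw [add_zero]

theorem taskProF5_size_block (σ : Γ → Fin d → Fin d) {r : ℕ} (κ : Fin d → Fin r)
    (l : List ((Fin d → ℂ) × Γ)) :
    proSize (l.map fun t => ((fun k => if κ k = κ (σ t.2⁻¹ k) then t.1 k else 0), t.2)) ≤
      proSize l := by
  induction l with
  | nil => rw [List.map_nil]
  | cons t l ih =>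
    unfold proSize at ih ⊢
    simp only [List.map_cons, List.sum_cons]
    refine add_le_add ?_ ih
    refine (pi_norm_le_iff_of_nonneg (norm_nonneg _)).mpr (fun k => ?_)
    split_ifs
    · exact norm_le_pi_norm t.1 k
    · rw [norm_zero]
      exact norm_nonneg _

theorem pro_block_partition (hlev : IsProLevel A Ω u e σ) {r : ℕ} (κ : Fin d → Fin r) :
    IsPartitionIn A (proBlock e κ) := by
  unfold proBlock
  exact isPartitionIn_of_coloring A e (fun j => (hlev.1.1 j).1) (fun j => (hlev.1.1 j).2)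
    hlev.1.2.1 hlev.1.2.2 κ

theorem pro_op_paved (hrep : IsProRep M u) (hlev : IsProLevel A Ω u e σ) {r : ℕ}
    (κ : Fin d → Fin r) (a : Fin d → ℝ) (l : List ((Fin d → ℂ) × Γ)) :
    proOp e u (proPaved σ κ a l) =
      pinching (proBlock e κ) (proOp e u l) - proDiag e (fun k => (a k : ℂ)) := by
  unfold proPaved
  rw [pro_op_append, taskProF5_op_block hrep hlev κ l, sub_eq_add_neg]
  congr 1
  unfold proOp
  simp only [List.map_cons, List.map_nil, List.sum_cons, List.sum_nil, add_zero]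
  rw [hrep.1, mul_one]
  unfold proDiag
  rw [← Finset.sum_neg_distrib]
  refine Finset.sum_congr rfl (fun k _ => ?_)
  rw [neg_smul]

theorem pro_mat_paved (hσ1 : ∀ k, σ 1 k = k) (hσm : ∀ γ β k, σ (γ * β) k = σ γ (σ β k))
    {r : ℕ} (κ : Fin d → Fin r) (a : Fin d → ℝ) (l : List ((Fin d → ℂ) × Γ)) :
    proMat σ (proPaved σ κ a l) = pavedMatrix (proMat σ l) κ a := by
  unfold proPaved
  rw [pro_mat_append]
  ext j k
  rw [Matrix.add_apply, taskProF5_mat_block hσ1 hσm κ l j k]
  unfold pavedMatrix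
  rw [Matrix.of_apply, sub_eq_add_neg]
  congr 1
  unfold proMat
  simp only [List.map_cons, List.map_nil, List.sum_cons, List.sum_nil, add_zero]
  rw [Matrix.diagonal_mul]
  unfold proPerm
  rw [Matrix.of_apply, hσ1]
  split_ifs
  · rw [mul_one]
  · rw [mul_zero, neg_zero]

theorem pro_size_paved_le (σ : Γ → Fin d → Fin d) {r : ℕ} (κ : Fin d → Fin r) (a : Fin d → ℝ)
    {c : ℝ} (hc : 0 ≤ c) (ha : ∀ k, |a k| ≤ c) (l : List ((Fin d → ℂ) × Γ)) :
    proSize (proPaved σ κ a l) ≤ proSize l + c := by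
  unfold proPaved
  rw [pro_size_append]
  refine add_le_add (taskProF5_size_block σ κ l) ?_
  unfold proSize
  simp only [List.map_cons, List.map_nil, List.sum_cons, List.sum_nil, add_zero]
  refine (pi_norm_le_iff_of_nonneg hc).mpr (fun k => ?_)
  rw [norm_neg, Complex.norm_real, Real.norm_eq_abs]
  exact ha k

theorem pro_snd_paved (σ : Γ → Fin d → Fin d) {r : ℕ} (κ : Fin d → Fin r) (a : Fin d → ℝ)
    (l : List ((Fin d → ℂ) × Γ)) :
    (proPaved σ κ a l).map Prod.snd = l.map Prod.snd ++ [1] := by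
  unfold proPaved
  rw [List.map_append, List.map_map]
  rfl

theorem pro_diag_real (hlev : IsProLevel A Ω u e σ) (a : Fin d → ℝ) {c : ℝ} (hc : 0 ≤ c)
    (ha : ∀ k, |a k| ≤ c) :
    IsSelfAdjoint (proDiag e (fun k => (a k : ℂ))) ∧ ‖proDiag e (fun k => (a k : ℂ))‖ ≤ c := by
  constructor
  · rw [isSelfAdjoint_iff, pro_diag_star hlev]
    congr 1
    funext k
    exact Complex.conj_ofReal (a k)
  · refine (pro_diag_norm_le hlev _).trans ?_
    refine (pi_norm_le_iff_of_nonneg hc).mpr (fun k => ?_)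
    rw [Complex.norm_real, Real.norm_eq_abs]
    exact ha k

end Vale.Agent.Lib.P078
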