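import Vale.Agent.Lib.P078.ProDefs
import Vale.Agent.Lib.P078.Approx
import Vale.Agent.Lib.P078.HF.A3a
import Vale.Agent.Lib.P078.HF.A3b
import Vale.Agent.Lib.P078.Pro.F1
import Vale.Agent.Lib.P078.Pro.F2
import Vale.Agent.Lib.P078.Pro.F3
import Vale.Agent.Lib.P078.Pro.F4

namespace Vale.Agent.Lib.P078

open scoped InnerProductSpace Matrix.Norms.L2Operator
open ContinuousLinearMap Filter Topology

variable {H : Type*} [NormedAddCommGroup H] [InnerProductSpace ℂ H] [CompleteSpace H]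

variable {Γ : Type} [Group Γ] {A M : VonNeumannAlgebra H} {Ω : H} {u : Γ → H →L[ℂ] H} {d : ℕ}
  {e : Fin d → H →L[ℂ] H} {σ : Γ → Fin d → Fin d}

/-! ### F6 : comparison of the trace and of the moments -/

theorem taskProF6_unitary (hrep : IsProRep M u) (γ : Γ) : star (u γ) * u γ = 1 := by
  obtain ⟨hu1, humul, hu⟩ := hrep
  rw [(hu γ).2, ← humul, inv_mul_cancel, hu1]

theorem taskProF6_norm_u (hrep : IsProRep M u) (γ : Γ) (v : H) : ‖u γ v‖ = ‖v‖ := by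
  have h := taskProF6_unitary hrep γ
  have h1 : ⟪u γ v, u γ v⟫_ℂ = ⟪v, v⟫_ℂ := by
    rw [← ContinuousLinearMap.adjoint_inner_right (u γ) v (u γ v),
      ← ContinuousLinearMap.star_eq_adjoint, ← mul_apply_eq_comp, h,
      one_apply_eq_self]
  have h2 := congrArg RCLike.re h1
  rw [inner_self_eq_norm_sq, inner_self_eq_norm_sq] at h2
  exact (sq_eq_sq₀ (norm_nonneg _) (norm_nonneg _)).mp h2

theorem taskProF6_norm_e (hlev : IsProLevel A Ω u e σ) (k : Fin d) :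
    ‖e k Ω‖ ^ 2 = ((d : ℝ))⁻¹ := by
  have hmul := pro_e_mul hlev k k
  rw [if_pos rfl] at hmul
  have hstar := pro_e_star hlev k
  have h1 : ⟪e k Ω, e k Ω⟫_ℂ = ((d : ℂ))⁻¹ := by
    rw [← ContinuousLinearMap.adjoint_inner_right (e k) Ω (e k Ω),
      ← ContinuousLinearMap.star_eq_adjoint, hstar, ← mul_apply_eq_comp, hmul]
    exact hlev.2.1 k
  have h2 := congrArg RCLike.re h1
  rw [inner_self_eq_norm_sq] at h2
  rw [h2]
  have h3 : ((d : ℂ))⁻¹ = ((((d : ℝ))⁻¹ : ℝ) : ℂ) := by push_cast; rfl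
  rw [h3]
  exact Complex.ofReal_re _

theorem taskProF6_comm (hrep : IsProRep M u) (hlev : IsProLevel A Ω u e σ) (γ : Γ)
    (k : Fin d) : u γ * e k = e (σ γ k) * u γ := by
  have h := taskProF6_unitary hrep γ
  rw [← hlev.2.2 γ k, mul_assoc, h, mul_one]

theorem taskProF6_tau (hAM : A ≤ M) (hΩ : IsTraceVector M Ω) (hrep : IsProRep M u)
    (hlev : IsProLevel A Ω u e σ) (γ : Γ) (k : Fin d) :
    ⟪Ω, e k (u γ Ω)⟫_ℂ = ⟪Ω, e k (u γ (e k Ω))⟫_ℂ := by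
  have hmul := pro_e_mul hlev k k
  rw [if_pos rfl] at hmul
  have hek : e k ∈ M := hAM (hlev.1.1 k).1
  have huM : u γ ∈ M := (hrep.2.2 γ).1
  have h1 : e k ((e k * u γ) Ω) = (e k * e k) (u γ Ω) := rfl
  have h2 : e k (u γ Ω) = e k ((e k * u γ) Ω) := by rw [h1, hmul]
  rw [h2, hΩ.2 (e k) hek (e k * u γ) (mul_mem hek huM)]
  rfl

theorem taskProF6_tau_zero (hAM : A ≤ M) (hΩ : IsTraceVector M Ω) (hrep : IsProRep M u)
    (hlev : IsProLevel A Ω u e σ) (γ : Γ) (k : Fin d) (hk : k ≠ σ γ k) :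
    ⟪Ω, e k (u γ Ω)⟫_ℂ = 0 := by
  rw [taskProF6_tau hAM hΩ hrep hlev γ k]
  have h2 : u γ (e k Ω) = (u γ * e k) Ω := rfl
  have h1 : e k (u γ (e k Ω)) = (e k * e (σ γ k)) (u γ Ω) := by
    rw [h2, taskProF6_comm hrep hlev γ k]
    rfl
  rw [h1, pro_e_mul hlev k (σ γ k), if_neg hk]
  simp

theorem taskProF6_tau_le (hAM : A ≤ M) (hΩ : IsTraceVector M Ω) (hrep : IsProRep M u)
    (hlev : IsProLevel A Ω u e σ) (γ : Γ) (k : Fin d) :
    ‖⟪Ω, e k (u γ Ω)⟫_ℂ‖ ≤ ((d : ℝ))⁻¹ := by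
  rw [taskProF6_tau hAM hΩ hrep hlev γ k]
  have hstar := pro_e_star hlev k
  have h1 : ⟪Ω, e k (u γ (e k Ω))⟫_ℂ = ⟪e k Ω, u γ (e k Ω)⟫_ℂ := by
    rw [← ContinuousLinearMap.adjoint_inner_left (e k) (u γ (e k Ω)) Ω,
      ← ContinuousLinearMap.star_eq_adjoint, hstar]
  rw [h1]
  calc ‖⟪e k Ω, u γ (e k Ω)⟫_ℂ‖ ≤ ‖e k Ω‖ * ‖u γ (e k Ω)‖ := norm_inner_le_norm _ _
    _ = ‖e k Ω‖ ^ 2 := by rw [taskProF6_norm_u hrep γ (e k Ω)]; ring
    _ = ((d : ℝ))⁻¹ := taskProF6_norm_e hlev k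

theorem taskProF6_term (hAM : A ≤ M) (hΩ : IsTraceVector M Ω) (hrep : IsProRep M u)
    (hlev : IsProLevel A Ω u e σ) (f : Fin d → ℂ) (γ : Γ) {δ : ℝ} (hδ : 0 ≤ δ)
    (hfix : γ = 1 ∨ (proFix σ γ : ℝ) ≤ δ * d) :
    ‖⟪Ω, (proDiag e f * u γ) Ω⟫_ℂ -
        ((d : ℂ))⁻¹ * Matrix.trace (Matrix.diagonal f * proPerm σ γ)‖ ≤ 2 * δ * ‖f‖ := by
  have hd : 0 < d := pro_d_pos hlev hΩ.1
  have hdR : (0 : ℝ) < d := by exact_mod_cast hd
  have hop : ⟪Ω, (proDiag e f * u γ) Ω⟫_ℂ = ∑ k, f k * ⟪Ω, e k (u γ Ω)⟫_ℂ := by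
    rw [mul_apply_eq_comp, proDiag, _root_.sum_apply, inner_sum]
    refine Finset.sum_congr rfl fun k _ => ?_
    rw [_root_.smul_apply, inner_smul_right]
  have hmat : Matrix.trace (Matrix.diagonal f * proPerm σ γ) =
      ∑ k, f k * (if k = σ γ k then 1 else 0) := by
    rw [Matrix.trace]
    refine Finset.sum_congr rfl fun k _ => ?_
    rw [Matrix.diag_apply, Matrix.diagonal_mul]
    rfl
  rw [hop, hmat]
  rcases hfix with h1 | hfix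
  · subst h1
    have hz : ∑ k, f k * ⟪Ω, e k (u 1 Ω)⟫_ℂ -
        ((d : ℂ))⁻¹ * ∑ k, f k * (if k = σ 1 k then 1 else 0) = 0 := by
      rw [Finset.mul_sum, ← Finset.sum_sub_distrib]
      refine Finset.sum_eq_zero fun k _ => ?_
      rw [hrep.1, one_apply_eq_self, hlev.2.1 k, if_pos (pro_sigma_one hrep hlev k).symm]
      ring
    rw [hz, norm_zero]
    positivity
  · have hA : ‖∑ k, f k * ⟪Ω, e k (u γ Ω)⟫_ℂ‖ ≤ δ * ‖f‖ := by
      calc ‖∑ k, f k * ⟪Ω, e k (u γ Ω)⟫_ℂ‖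
          ≤ ∑ k, ‖f k * ⟪Ω, e k (u γ Ω)⟫_ℂ‖ := norm_sum_le _ _
        _ ≤ ∑ k, (if σ γ k = k then ‖f‖ * ((d : ℝ))⁻¹ else 0) := by
            refine Finset.sum_le_sum fun k _ => ?_
            split_ifs with hk
            · rw [norm_mul]
              exact mul_le_mul (norm_le_pi_norm f k)
                (taskProF6_tau_le hAM hΩ hrep hlev γ k) (norm_nonneg _) (norm_nonneg _)
            · rw [taskProF6_tau_zero hAM hΩ hrep hlev γ k (fun h => hk h.symm), mul_zero,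
                norm_zero]
        _ = (proFix σ γ : ℝ) * (‖f‖ * ((d : ℝ))⁻¹) := by
            rw [← Finset.sum_filter, Finset.sum_const, nsmul_eq_mul]
            rfl
        _ ≤ δ * d * (‖f‖ * ((d : ℝ))⁻¹) := by gcongr
        _ = δ * ‖f‖ := by field_simp
    have hB : ‖((d : ℂ))⁻¹ * ∑ k, f k * (if k = σ γ k then 1 else 0)‖ ≤ δ * ‖f‖ := by
      rw [norm_mul, norm_inv, Complex.norm_natCast]
      calc ((d : ℝ))⁻¹ * ‖∑ k, f k * (if k = σ γ k then (1 : ℂ) else 0)‖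
          ≤ ((d : ℝ))⁻¹ * ∑ k, (if σ γ k = k then ‖f‖ else 0) := by
            gcongr
            refine (norm_sum_le _ _).trans (Finset.sum_le_sum fun k _ => ?_)
            by_cases hk : σ γ k = k
            · rw [if_pos hk, if_pos hk.symm, mul_one]
              exact norm_le_pi_norm f k
            · rw [if_neg hk, if_neg (fun h => hk h.symm), mul_zero, norm_zero]
        _ = ((d : ℝ))⁻¹ * ((proFix σ γ : ℝ) * ‖f‖) := by
            rw [← Finset.sum_filter, Finset.sum_const, nsmul_eq_mul]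
            rfl
        _ ≤ ((d : ℝ))⁻¹ * (δ * d * ‖f‖) := by gcongr
        _ = δ * ‖f‖ := by field_simp
    calc ‖∑ k, f k * ⟪Ω, e k (u γ Ω)⟫_ℂ -
          ((d : ℂ))⁻¹ * ∑ k, f k * (if k = σ γ k then 1 else 0)‖
        ≤ ‖∑ k, f k * ⟪Ω, e k (u γ Ω)⟫_ℂ‖ +
          ‖((d : ℂ))⁻¹ * ∑ k, f k * (if k = σ γ k then 1 else 0)‖ := norm_sub_le _ _
      _ ≤ δ * ‖f‖ + δ * ‖f‖ := add_le_add hA hB
      _ = 2 * δ * ‖f‖ := by ring

theorem pro_trace_compare (hAM : A ≤ M) (hΩ : IsTraceVector M Ω) (hrep : IsProRep M u)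
    (hlev : IsProLevel A Ω u e σ) (l : List ((Fin d → ℂ) × Γ)) {δ : ℝ} (hδ : 0 ≤ δ)
    (hfix : ∀ γ ∈ l.map Prod.snd, γ = 1 ∨ (proFix σ γ : ℝ) ≤ δ * d) :
    ‖⟪Ω, proOp e u l Ω⟫_ℂ - ((d : ℂ))⁻¹ * Matrix.trace (proMat σ l)‖ ≤ 2 * δ * proSize l := by
  induction l with
  | nil => simp [proOp, proMat, proSize]
  | cons t l ih =>
    have hfix1 : t.2 = 1 ∨ (proFix σ t.2 : ℝ) ≤ δ * d := hfix t.2 (by simp)
    have hfix2 : ∀ γ ∈ l.map Prod.snd, γ = 1 ∨ (proFix σ γ : ℝ) ≤ δ * d :=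
      fun γ hγ => hfix γ (by rw [List.map_cons]; exact List.mem_cons_of_mem _ hγ)
    have h1 := taskProF6_term hAM hΩ hrep hlev t.1 t.2 hδ hfix1
    have h2 := ih hfix2
    have e1 : proOp e u (t :: l) = proDiag e t.1 * u t.2 + proOp e u l := by simp [proOp]
    have e2 : proMat σ (t :: l) = Matrix.diagonal t.1 * proPerm σ t.2 + proMat σ l := by
      simp [proMat]
    have e3 : proSize (t :: l) = ‖t.1‖ + proSize l := by simp [proSize]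
    rw [e1, e2, e3, _root_.add_apply, inner_add_right, Matrix.trace_add, mul_add]
    have e4 : ⟪Ω, (proDiag e t.1 * u t.2) Ω⟫_ℂ + ⟪Ω, proOp e u l Ω⟫_ℂ -
        (((d : ℂ))⁻¹ * Matrix.trace (Matrix.diagonal t.1 * proPerm σ t.2) +
          ((d : ℂ))⁻¹ * Matrix.trace (proMat σ l)) =
        (⟪Ω, (proDiag e t.1 * u t.2) Ω⟫_ℂ -
          ((d : ℂ))⁻¹ * Matrix.trace (Matrix.diagonal t.1 * proPerm σ t.2)) +
        (⟪Ω, proOp e u l Ω⟫_ℂ - ((d : ℂ))⁻¹ * Matrix.trace (proMat σ l)) := by ring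
    rw [e4]
    exact (norm_add_le _ _).trans (by linarith)

theorem pro_moment_compare (hAM : A ≤ M) (hΩ : IsTraceVector M Ω) (hrep : IsProRep M u)
    (hlev : IsProLevel A Ω u e σ) (l : List ((Fin d → ℂ) × Γ)) (m : ℕ) {δ : ℝ} (hδ : 0 ≤ δ)
    (hfix : ∀ γ ∈ proWords (l.map Prod.snd) m, γ = 1 ∨ (proFix σ γ : ℝ) ≤ δ * d) :
    ‖⟪Ω, (proOp e u l ^ m) Ω⟫_ℂ - ((d : ℂ))⁻¹ * Matrix.trace (proMat σ l ^ m)‖ ≤
      2 * δ * proSize l ^ m := by
  have hσ1 : ∀ k, σ 1 k = k := pro_sigma_one hrep hlev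
  have hσm : ∀ γ β k, σ (γ * β) k = σ γ (σ β k) := pro_sigma_mul hrep hlev
  have h := pro_trace_compare hAM hΩ hrep hlev (proPow σ l m) hδ
    (by rw [pro_snd_pow]; exact hfix)
  rw [pro_op_pow hrep hlev, pro_mat_pow hσ1 hσm] at h
  exact h.trans (mul_le_mul_of_nonneg_left (pro_size_pow_le σ l m) (by positivity))

end Vale.Agent.Lib.P078
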