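import Vale.Agent.Lib.P078.ProDefs
import Vale.Agent.Lib.P078.Approx
import Vale.Agent.Lib.P078.HF.A3a
import Vale.Agent.Lib.P078.HF.A3b

namespace Vale.Agent.Lib.P078

open scoped InnerProductSpace Matrix.Norms.L2Operator
open ContinuousLinearMap Filter Topology

variable {H : Type*} [NormedAddCommGroup H] [InnerProductSpace ℂ H] [CompleteSpace H]

/-! ### G : from pavings measured at Ω to so-paving -/

theorem pro_soPavable_of_omega_pavings {ε1 ε' : ℝ} {r : ℕ} (hε1 : 0 ≤ ε1) (hε1ε' : ε1 < ε')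
    (A M : VonNeumannAlgebra H) (hAM : A ≤ M) {Ω : H} (hcen : IsCentralizing A M Ω)
    (hsep : IsSeparating M Ω) (x : H →L[ℂ] H) (hxM : x ∈ M) (hx : IsSelfAdjoint x)
    (hx0 : x ≠ 0)
    (hpav : ∀ η : ℝ, 0 < η → ∃ (x' : H →L[ℂ] H) (p : Fin r → H →L[ℂ] H) (a q : H →L[ℂ] H),
      x' ∈ M ∧ IsSelfAdjoint x' ∧ ‖x'‖ ≤ ‖x‖ ∧ ‖(x - x') Ω‖ ≤ η ∧ IsPartitionIn A p ∧ a ∈ A ∧
      IsSelfAdjoint a ∧ ‖a‖ ≤ ‖x‖ ∧ q ∈ M ∧ IsStarProjection q ∧ ‖(1 - q) Ω‖ ≤ η ∧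
      ‖q * (pinching p x' - a) * q‖ ≤ ε1 * ‖x‖) :
    SoPavable A M x ε' r := by
  classical
  have _hε1 := hε1
  intro F δ hδ
  have hX : 0 < ‖x‖ := norm_pos_iff.mpr hx0
  have hr : 0 ≤ (r : ℝ) := Nat.cast_nonneg r
  obtain ⟨t, ht⟩ : ∃ t : ℝ, t = (ε' - ε1) * ‖x‖ := ⟨_, rfl⟩
  have htpos : 0 < t := by rw [ht]; exact mul_pos (by linarith) hX
  -- (1) approximation of the vectors of F by commutant elements applied to Ω
  have hδ4 : 0 < δ / 4 := by positivity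
  choose y hyM hyΩ using fun ξ : H => exists_commutant_approx M hsep ξ hδ4
  obtain ⟨C, hC⟩ : ∃ C : ℝ, C = 1 + ∑ ξ ∈ F, ‖y ξ‖ := ⟨_, rfl⟩
  have hC1 : 1 ≤ C := by
    have h0 : 0 ≤ ∑ ξ ∈ F, ‖y ξ‖ := Finset.sum_nonneg (fun ξ _ => norm_nonneg _)
    rw [hC]
    linarith
  have hCy : ∀ ξ ∈ F, ‖y ξ‖ ≤ C := by
    intro ξ hξ
    have h0 := Finset.single_le_sum (f := fun ξ => ‖y ξ‖) (fun ξ _ => norm_nonneg _) hξ
    rw [hC]
    linarith
  have hCpos : 0 < C := lt_of_lt_of_le one_pos hC1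
  -- (2) the tolerance
  obtain ⟨K, hK⟩ : ∃ K : ℝ, K = 1 + 2 * r * ‖x‖ := ⟨_, rfl⟩
  have hKpos : 0 < K := by
    have h0 : 0 ≤ 2 * (r : ℝ) * ‖x‖ := mul_nonneg (mul_nonneg (by norm_num) hr) hX.le
    rw [hK]
    linarith
  obtain ⟨η, hη⟩ : ∃ η : ℝ, η = min (δ / (4 * C)) (t * δ / (4 * C * K)) := ⟨_, rfl⟩
  have hηpos : 0 < η := by
    rw [hη]
    exact lt_min (by positivity) (by positivity)
  have hη1 : η ≤ δ / (4 * C) := by rw [hη]; exact min_le_left _ _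
  have hη2 : η ≤ t * δ / (4 * C * K) := by rw [hη]; exact min_le_right _ _
  have hCη : C * η ≤ δ / 4 := by
    have h4 : C * (δ / (4 * C)) = δ / 4 := by
      field_simp
    calc C * η ≤ C * (δ / (4 * C)) := mul_le_mul_of_nonneg_left hη1 hCpos.le
      _ = δ / 4 := h4
  have hkey : η * K ≤ t * δ / (4 * C) := by
    have h4 : t * δ / (4 * C * K) * K = t * δ / (4 * C) := by
      field_simp
    calc η * K ≤ t * δ / (4 * C * K) * K := mul_le_mul_of_nonneg_right hη2 hKpos.le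
      _ = t * δ / (4 * C) := h4
  -- (3) the paving at the tolerance η
  obtain ⟨x', p, a, q1, hx'M, hx'sa, hx'norm, hx'Ω, hp, haA, hasa, hanorm, hq1M, hq1p, hq1Ω,
    hq1norm⟩ := hpav η hηpos
  have hpM : ∀ i, p i ∈ M := fun i => hAM (hp.1 i).1
  have hpp : ∀ i, IsStarProjection (p i) := fun i => (hp.1 i).2
  -- (4) the error term
  obtain ⟨z, hz⟩ : ∃ z : H →L[ℂ] H, z = x - x' := ⟨_, rfl⟩
  have hzM : z ∈ M := by rw [hz]; exact sub_mem hxM hx'M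
  have hzsa : IsSelfAdjoint z := by rw [hz]; exact hx.sub hx'sa
  have hznorm : ‖z‖ ≤ 2 * ‖x‖ := by
    rw [hz]
    calc ‖x - x'‖ ≤ ‖x‖ + ‖x'‖ := norm_sub_le _ _
      _ ≤ 2 * ‖x‖ := by linarith
  have hxz : x = x' + z := by rw [hz]; abel
  obtain ⟨Pz, hPz⟩ : ∃ Pz : H →L[ℂ] H, Pz = pinching p z := ⟨_, rfl⟩
  have hpin : pinching p x = pinching p x' + Pz := by
    rw [hPz, ← taskB4_pinching_add, ← hxz]
  have hPzM : Pz ∈ M := by rw [hPz]; exact taskB4_pinching_mem M hpM hzM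
  have hPzsa : IsSelfAdjoint Pz := by
    rw [hPz]
    exact isSelfAdjoint_pinching p (fun i => (hpp i).isSelfAdjoint) hzsa
  have hPznorm : ‖Pz‖ ≤ r * ‖z‖ := by rw [hPz]; exact taskT2_norm_pinching_le p hpp z
  obtain ⟨y1, hy1⟩ : ∃ y1 : H →L[ℂ] H, y1 = q1 * Pz * q1 := ⟨_, rfl⟩
  have hy1M : y1 ∈ M := by rw [hy1]; exact mul_mem (mul_mem hq1M hPzM) hq1M
  have hy1sa : IsSelfAdjoint y1 := by
    rw [hy1]
    unfold IsSelfAdjoint
    rw [star_mul, star_mul, hq1p.isSelfAdjoint.star_eq, hPzsa.star_eq, mul_assoc]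
  have hq1y1 : q1 * y1 = y1 := by
    rw [hy1, ← mul_assoc, ← mul_assoc, hq1p.isIdempotentElem.eq]
  have hy1q1 : y1 * q1 = y1 := by
    rw [hy1, mul_assoc, hq1p.isIdempotentElem.eq]
  have hy1Ω : ‖y1 Ω‖ ≤ t * δ / (4 * C) := by
    have h2 : ‖Pz Ω‖ ≤ ‖z Ω‖ := by
      rw [hPz]
      exact norm_pinching_apply_le_of_centralizing A M hAM hcen hp hzM
    have h3 : ‖z Ω‖ ≤ η := by rw [hz]; exact hx'Ω
    have h4 : y1 Ω = q1 (Pz Ω - Pz ((1 - q1) Ω)) := by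
      rw [hy1]
      simp only [mul_apply_eq_comp, _root_.sub_apply,
        one_apply_eq_self, map_sub]
      rw [sub_sub_cancel]
    have h6 : ‖Pz ((1 - q1) Ω)‖ ≤ r * ‖z‖ * η := by
      calc ‖Pz ((1 - q1) Ω)‖ ≤ ‖Pz‖ * ‖(1 - q1) Ω‖ := Pz.le_opNorm _
        _ ≤ (r * ‖z‖) * η := mul_le_mul hPznorm hq1Ω (norm_nonneg _) (by positivity)
    have h7 : r * ‖z‖ * η ≤ 2 * r * ‖x‖ * η := by
      have h8 : (r : ℝ) * ‖z‖ ≤ 2 * r * ‖x‖ := by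
        nlinarith [mul_le_mul_of_nonneg_left hznorm hr]
      exact mul_le_mul_of_nonneg_right h8 hηpos.le
    have h9 : η + 2 * r * ‖x‖ * η = η * K := by rw [hK]; ring
    rw [h4]
    calc ‖q1 (Pz Ω - Pz ((1 - q1) Ω))‖ ≤ ‖Pz Ω - Pz ((1 - q1) Ω)‖ :=
          taskB4_proj_apply_le hq1p _
      _ ≤ ‖Pz Ω‖ + ‖Pz ((1 - q1) Ω)‖ := norm_sub_le _ _
      _ ≤ η + 2 * r * ‖x‖ * η := by linarith
      _ = η * K := h9
      _ ≤ t * δ / (4 * C) := hkey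
  -- (5) the level projection of the error term
  obtain ⟨g, hgM, hgp, hgcomm, hgnorm, hgv⟩ := exists_level_projection_abs M hy1M hy1sa htpos
  have hq1g : q1 * g = g * q1 := hgcomm q1 (by rw [hq1y1, hy1q1])
  have hyg : ∀ ξ, y ξ * g = g * y ξ := by
    intro ξ
    refine hgcomm (y ξ) ?_
    exact ((VonNeumannAlgebra.mem_commutant_iff).mp (hyM ξ) y1 hy1M).symm
  have hyq1 : ∀ ξ, y ξ * q1 = q1 * y ξ := by
    intro ξ
    exact ((VonNeumannAlgebra.mem_commutant_iff).mp (hyM ξ) q1 hq1M).symm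
  -- (6) the final projection
  obtain ⟨G, hG⟩ : ∃ G : H →L[ℂ] H, G = 1 - g := ⟨_, rfl⟩
  have hGp : IsStarProjection G := by rw [hG]; exact hgp.one_sub
  have hGM : G ∈ M := by rw [hG]; exact sub_mem (one_mem M) hgM
  have hq1G : q1 * G = G * q1 := by
    rw [hG, mul_sub, sub_mul, mul_one, one_mul, hq1g]
  have hqp : IsStarProjection (q1 * G) := hq1p.mul hGp hq1G
  have hgΩ : C * ‖g Ω‖ ≤ δ / 4 := by
    have h1 : t * ‖g Ω‖ ≤ t * δ / (4 * C) := (hgv Ω).trans hy1Ω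
    have h2 : t * δ / (4 * C) = t * (δ / (4 * C)) := by ring
    rw [h2] at h1
    have h3 : ‖g Ω‖ ≤ δ / (4 * C) := le_of_mul_le_mul_left h1 htpos
    have h4 : C * (δ / (4 * C)) = δ / 4 := by
      field_simp
    calc C * ‖g Ω‖ ≤ C * (δ / (4 * C)) := mul_le_mul_of_nonneg_left h3 hCpos.le
      _ = δ / 4 := h4
  refine ⟨p, a, q1 * G, hp, haA, hasa, hanorm, mul_mem hq1M hGM, hqp, ?_, ?_⟩
  · intro ξ hξ
    have h1 : ‖(1 - q1) ξ‖ < δ / 4 + δ / 4 := by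
      have hc : q1 (y ξ Ω) = y ξ (q1 Ω) := by
        rw [← mul_apply_eq_comp, ← mul_apply_eq_comp, hyq1 ξ]
      have h0 : (1 - q1) ξ = (1 - q1) (ξ - y ξ Ω) + y ξ ((1 - q1) Ω) := by
        simp only [_root_.sub_apply, one_apply_eq_self, map_sub]
        rw [hc]
        abel
      have h0a : ‖(1 - q1) (ξ - y ξ Ω)‖ < δ / 4 :=
        lt_of_le_of_lt (taskB4_proj_apply_le hq1p.one_sub _) (hyΩ ξ)
      have h0b : ‖y ξ ((1 - q1) Ω)‖ ≤ δ / 4 := by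
        calc ‖y ξ ((1 - q1) Ω)‖ ≤ ‖y ξ‖ * ‖(1 - q1) Ω‖ := (y ξ).le_opNorm _
          _ ≤ C * η := mul_le_mul (hCy ξ hξ) hq1Ω (norm_nonneg _) hCpos.le
          _ ≤ δ / 4 := hCη
      rw [h0]
      calc ‖(1 - q1) (ξ - y ξ Ω) + y ξ ((1 - q1) Ω)‖
          ≤ ‖(1 - q1) (ξ - y ξ Ω)‖ + ‖y ξ ((1 - q1) Ω)‖ := norm_add_le _ _
        _ < δ / 4 + δ / 4 := by linarith
    have h2 : (1 - q1 * G) ξ = (1 - q1) ξ + q1 (g ξ) := by
      rw [hG]
      simp only [mul_apply_eq_comp, _root_.sub_apply,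
        one_apply_eq_self, map_sub]
      abel
    have h3 : g ξ = g (ξ - y ξ Ω) + y ξ (g Ω) := by
      have h0 : g (y ξ Ω) = y ξ (g Ω) := by
        rw [← mul_apply_eq_comp, ← mul_apply_eq_comp, hyg ξ]
      rw [map_sub, h0]
      abel
    have h4 : ‖g (ξ - y ξ Ω)‖ < δ / 4 :=
      lt_of_le_of_lt (taskB4_proj_apply_le hgp _) (hyΩ ξ)
    have h5 : ‖y ξ (g Ω)‖ ≤ δ / 4 := by
      calc ‖y ξ (g Ω)‖ ≤ ‖y ξ‖ * ‖g Ω‖ := (y ξ).le_opNorm _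
        _ ≤ C * ‖g Ω‖ := mul_le_mul_of_nonneg_right (hCy ξ hξ) (norm_nonneg _)
        _ ≤ δ / 4 := hgΩ
    have h6 : ‖g ξ‖ < δ / 4 + δ / 4 := by
      rw [h3]
      calc ‖g (ξ - y ξ Ω) + y ξ (g Ω)‖ ≤ ‖g (ξ - y ξ Ω)‖ + ‖y ξ (g Ω)‖ := norm_add_le _ _
        _ < δ / 4 + δ / 4 := by linarith
    rw [h2]
    calc ‖(1 - q1) ξ + q1 (g ξ)‖ ≤ ‖(1 - q1) ξ‖ + ‖q1 (g ξ)‖ := norm_add_le _ _
      _ ≤ ‖(1 - q1) ξ‖ + ‖g ξ‖ := by
          have h7 := taskB4_proj_apply_le hq1p (g ξ)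
          linarith
      _ < δ := by linarith
  · have h1 : q1 * G * (pinching p x - a) * (q1 * G)
        = G * (q1 * (pinching p x' - a) * q1) * G + G * y1 * G := by
      have h0 : pinching p x - a = (pinching p x' - a) + Pz := by
        rw [hpin]
        abel
      rw [h0, hy1]
      calc q1 * G * (pinching p x' - a + Pz) * (q1 * G)
          = G * q1 * (pinching p x' - a + Pz) * (q1 * G) := by rw [hq1G]
        _ = G * (q1 * (pinching p x' - a + Pz) * q1) * G := by simp only [mul_assoc]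
        _ = G * (q1 * (pinching p x' - a) * q1) * G + G * (q1 * Pz * q1) * G := by
            rw [mul_add, add_mul, mul_add, add_mul]
    have h2 : ‖G * (q1 * (pinching p x' - a) * q1) * G‖ ≤ ε1 * ‖x‖ := by
      calc ‖G * (q1 * (pinching p x' - a) * q1) * G‖
          ≤ ‖q1 * (pinching p x' - a) * q1‖ := taskB4_compress_norm_le hGp _
        _ ≤ ε1 * ‖x‖ := hq1norm
    have h3 : ‖G * y1 * G‖ ≤ t := by rw [hG]; exact hgnorm
    rw [h1]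
    calc ‖G * (q1 * (pinching p x' - a) * q1) * G + G * y1 * G‖
        ≤ ‖G * (q1 * (pinching p x' - a) * q1) * G‖ + ‖G * y1 * G‖ := norm_add_le _ _
      _ ≤ ε1 * ‖x‖ + t := by linarith
      _ = ε' * ‖x‖ := by rw [ht]; ring

end Vale.Agent.Lib.P078
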