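import Vale.Agent.Lib.P078.ProDefs
import Vale.Agent.Lib.P078.Approx
import Vale.Agent.Lib.P078.HF.A3a
import Vale.Agent.Lib.P078.HF.A3b

namespace Vale.Agent.Lib.P078

open scoped InnerProductSpace Matrix.Norms.L2Operator
open ContinuousLinearMap Filter Topology

variable {H : Type*} [NormedAddCommGroup H] [InnerProductSpace ℂ H] [CompleteSpace H]

/-! ### K : Kaplansky density for the trace seminorm -/

lemma taskProK_ring {A : Type*} [Ring A] (y b Ry Rb Gy Gb : A) (h1 : Ry * y = Gy)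
    (h2 : b * Rb = Gb) (h3 : b * Gb = 1 - Rb) (h4 : Gy * y = 1 - Ry) :
    Gy - Gb = Ry * (y - b) * Rb + Gy * (b - y) * Gb := by
  have e : Ry * (y - b) * Rb + Gy * (b - y) * Gb
      = (Ry * y) * Rb - Ry * (b * Rb) + Gy * (b * Gb) - (Gy * y) * Gb := by noncomm_ring
  rw [e, h1, h2, h3, h4]
  noncomm_ring

lemma taskProK_cont_R : Continuous (fun t : ℝ => (1 + t ^ 2)⁻¹) :=
  Continuous.inv₀ (continuous_const.add (continuous_pow 2)) (fun t => by positivity)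

lemma taskProK_cont_G : Continuous (fun t : ℝ => t * (1 + t ^ 2)⁻¹) :=
  continuous_id.mul taskProK_cont_R

lemma taskProK_abs_R (t : ℝ) : ‖(1 + t ^ 2)⁻¹‖ ≤ 1 := by
  have h : (1 : ℝ) ≤ 1 + t ^ 2 := by nlinarith [sq_nonneg t]
  rw [Real.norm_eq_abs, abs_of_nonneg (by positivity)]
  exact inv_le_one_of_one_le₀ h

lemma taskProK_abs_G (t : ℝ) : ‖t * (1 + t ^ 2)⁻¹‖ ≤ 1 / 2 := by
  have hpos : (0 : ℝ) < 1 + t ^ 2 := by positivity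
  rw [Real.norm_eq_abs, abs_mul, abs_of_nonneg (inv_nonneg.mpr hpos.le), ← div_eq_mul_inv,
    div_le_iff₀ hpos]
  nlinarith [sq_nonneg (|t| - 1), sq_abs t]

lemma taskProK_comp (s : ℝ) (hs : |s| ≤ 1 / 2) :
    2 * s * (1 + Real.sqrt (1 - 4 * s ^ 2))⁻¹ *
      (1 + (2 * s * (1 + Real.sqrt (1 - 4 * s ^ 2))⁻¹) ^ 2)⁻¹ = s := by
  obtain ⟨h1, h2⟩ := abs_le.mp hs
  have h0 : (0 : ℝ) ≤ 1 - 4 * s ^ 2 := by nlinarith
  obtain ⟨c, hcdef⟩ : ∃ c : ℝ, c = Real.sqrt (1 - 4 * s ^ 2) := ⟨_, rfl⟩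
  have hc0 : 0 ≤ c := by rw [hcdef]; exact Real.sqrt_nonneg _
  have hc2 : c ^ 2 = 1 - 4 * s ^ 2 := by rw [hcdef]; exact Real.sq_sqrt h0
  rw [← hcdef]
  have hD : (0 : ℝ) < 1 + c := by linarith
  have key : 1 + (2 * s * (1 + c)⁻¹) ^ 2 = 2 * (1 + c)⁻¹ := by
    field_simp
    nlinarith
  rw [key]
  field_simp

lemma taskProK_cfc (a : H →L[ℂ] H) (ha : IsSelfAdjoint a) :
    cfc (fun t : ℝ => (1 + t ^ 2)⁻¹) a * a = cfc (fun t : ℝ => t * (1 + t ^ 2)⁻¹) a ∧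
    a * cfc (fun t : ℝ => (1 + t ^ 2)⁻¹) a = cfc (fun t : ℝ => t * (1 + t ^ 2)⁻¹) a ∧
    a * cfc (fun t : ℝ => t * (1 + t ^ 2)⁻¹) a = 1 - cfc (fun t : ℝ => (1 + t ^ 2)⁻¹) a ∧
    cfc (fun t : ℝ => t * (1 + t ^ 2)⁻¹) a * a = 1 - cfc (fun t : ℝ => (1 + t ^ 2)⁻¹) a := by
  have hR : ContinuousOn (fun t : ℝ => (1 + t ^ 2)⁻¹) (spectrum ℝ a) :=
    taskProK_cont_R.continuousOn
  have hG : ContinuousOn (fun t : ℝ => t * (1 + t ^ 2)⁻¹) (spectrum ℝ a) :=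
    taskProK_cont_G.continuousOn
  have hid : ContinuousOn (fun t : ℝ => t) (spectrum ℝ a) := continuous_id.continuousOn
  have e2 : a * cfc (fun t : ℝ => (1 + t ^ 2)⁻¹) a = cfc (fun t : ℝ => t * (1 + t ^ 2)⁻¹) a := by
    rw [cfc_mul (fun t : ℝ => t) (fun t : ℝ => (1 + t ^ 2)⁻¹) a hid hR, cfc_id' ℝ a ha]
  have e1 : cfc (fun t : ℝ => (1 + t ^ 2)⁻¹) a * a = cfc (fun t : ℝ => t * (1 + t ^ 2)⁻¹) a := by
    have h0 : cfc (fun t : ℝ => t * (1 + t ^ 2)⁻¹) a = cfc (fun t : ℝ => (1 + t ^ 2)⁻¹ * t) a :=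
      cfc_congr (fun t _ => mul_comm _ _)
    rw [h0, cfc_mul (fun t : ℝ => (1 + t ^ 2)⁻¹) (fun t : ℝ => t) a hR hid, cfc_id' ℝ a ha]
  have e3 : a * cfc (fun t : ℝ => t * (1 + t ^ 2)⁻¹) a
      = 1 - cfc (fun t : ℝ => (1 + t ^ 2)⁻¹) a := by
    have h1 : cfc (fun t : ℝ => t * (t * (1 + t ^ 2)⁻¹) + (1 + t ^ 2)⁻¹) a
        = a * cfc (fun t : ℝ => t * (1 + t ^ 2)⁻¹) a + cfc (fun t : ℝ => (1 + t ^ 2)⁻¹) a := by
      rw [cfc_add a (fun t : ℝ => t * (t * (1 + t ^ 2)⁻¹)) (fun t : ℝ => (1 + t ^ 2)⁻¹)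
        (hid.mul hG) hR, cfc_mul (fun t : ℝ => t) (fun t : ℝ => t * (1 + t ^ 2)⁻¹) a hid hG,
        cfc_id' ℝ a ha]
    have h2 : cfc (fun t : ℝ => t * (t * (1 + t ^ 2)⁻¹) + (1 + t ^ 2)⁻¹) a
        = cfc (fun _ : ℝ => (1 : ℝ)) a := by
      apply cfc_congr
      intro t _
      show t * (t * (1 + t ^ 2)⁻¹) + (1 + t ^ 2)⁻¹ = 1
      have hpos : (0 : ℝ) < 1 + t ^ 2 := by positivity
      field_simp
      ring
    rw [h2, cfc_const_one ℝ a ha] at h1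
    exact eq_sub_of_add_eq h1.symm
  have e4 : cfc (fun t : ℝ => t * (1 + t ^ 2)⁻¹) a * a
      = 1 - cfc (fun t : ℝ => (1 + t ^ 2)⁻¹) a := by
    have h1 : cfc (fun t : ℝ => t * (1 + t ^ 2)⁻¹ * t + (1 + t ^ 2)⁻¹) a
        = cfc (fun t : ℝ => t * (1 + t ^ 2)⁻¹) a * a + cfc (fun t : ℝ => (1 + t ^ 2)⁻¹) a := by
      rw [cfc_add a (fun t : ℝ => t * (1 + t ^ 2)⁻¹ * t) (fun t : ℝ => (1 + t ^ 2)⁻¹)
        (hG.mul hid) hR, cfc_mul (fun t : ℝ => t * (1 + t ^ 2)⁻¹) (fun t : ℝ => t) a hG hid,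
        cfc_id' ℝ a ha]
    have h2 : cfc (fun t : ℝ => t * (1 + t ^ 2)⁻¹ * t + (1 + t ^ 2)⁻¹) a
        = cfc (fun _ : ℝ => (1 : ℝ)) a := by
      apply cfc_congr
      intro t _
      show t * (1 + t ^ 2)⁻¹ * t + (1 + t ^ 2)⁻¹ = 1
      have hpos : (0 : ℝ) < 1 + t ^ 2 := by positivity
      field_simp
      ring
    rw [h2, cfc_const_one ℝ a ha] at h1
    exact eq_sub_of_add_eq h1.symm
  exact ⟨e1, e2, e3, e4⟩

lemma taskProK_cfc_mem (M : VonNeumannAlgebra H) (f : ℝ → ℝ) {a : H →L[ℂ] H} (ha : a ∈ M) :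
    cfc f a ∈ M := by
  have hcl : IsClosed ((M.toStarSubalgebra : StarSubalgebra ℂ (H →L[ℂ] H)) : Set (H →L[ℂ] H)) :=
    taskI1_isClosed M
  have h : cfc f a ∈ M.toStarSubalgebra :=
    cfc_mem (𝕜 := ℝ) (𝕜' := ℂ) (s := M.toStarSubalgebra) f ha
  exact h

/-- The resolvent estimate: the function `t / (1 + t ^ 2)` of self-adjoint elements is
Lipschitz for the seminorm `z ↦ ‖z Ω‖` of a trace vector. -/
lemma taskProK_core (M : VonNeumannAlgebra H) {Ω : H} (hΩ : IsTraceVector M Ω)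
    {y b : H →L[ℂ] H} (hyM : y ∈ M) (hbM : b ∈ M) (hy : IsSelfAdjoint y)
    (hb : IsSelfAdjoint b) :
    ‖(cfc (fun t : ℝ => t * (1 + t ^ 2)⁻¹) y - cfc (fun t : ℝ => t * (1 + t ^ 2)⁻¹) b) Ω‖
      ≤ 5 / 4 * ‖(y - b) Ω‖ := by
  obtain ⟨Ry, hRy⟩ : ∃ Ry : H →L[ℂ] H, Ry = cfc (fun t : ℝ => (1 + t ^ 2)⁻¹) y := ⟨_, rfl⟩
  obtain ⟨Rb, hRb⟩ : ∃ Rb : H →L[ℂ] H, Rb = cfc (fun t : ℝ => (1 + t ^ 2)⁻¹) b := ⟨_, rfl⟩
  obtain ⟨Gy, hGy⟩ : ∃ Gy : H →L[ℂ] H, Gy = cfc (fun t : ℝ => t * (1 + t ^ 2)⁻¹) y :=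
    ⟨_, rfl⟩
  obtain ⟨Gb, hGb⟩ : ∃ Gb : H →L[ℂ] H, Gb = cfc (fun t : ℝ => t * (1 + t ^ 2)⁻¹) b :=
    ⟨_, rfl⟩
  obtain ⟨y1, -, -, y4⟩ := taskProK_cfc y hy
  obtain ⟨-, b2, b3, -⟩ := taskProK_cfc b hb
  rw [← hRy, ← hGy] at y1 y4
  rw [← hRb, ← hGb] at b2 b3
  have hid : Gy - Gb = Ry * (y - b) * Rb + Gy * (b - y) * Gb :=
    taskProK_ring y b Ry Rb Gy Gb y1 b2 b3 y4
  have hRyM : Ry ∈ M := by rw [hRy]; exact taskProK_cfc_mem M _ hyM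
  have hRbM : Rb ∈ M := by rw [hRb]; exact taskProK_cfc_mem M _ hbM
  have hGyM : Gy ∈ M := by rw [hGy]; exact taskProK_cfc_mem M _ hyM
  have hGbM : Gb ∈ M := by rw [hGb]; exact taskProK_cfc_mem M _ hbM
  have nRy : ‖Ry‖ ≤ 1 := by
    rw [hRy]; exact norm_cfc_le zero_le_one (fun t _ => taskProK_abs_R t)
  have nRb : ‖Rb‖ ≤ 1 := by
    rw [hRb]; exact norm_cfc_le zero_le_one (fun t _ => taskProK_abs_R t)
  have nGy : ‖Gy‖ ≤ 1 / 2 := by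
    rw [hGy]; exact norm_cfc_le (by norm_num) (fun t _ => taskProK_abs_G t)
  have nGb : ‖Gb‖ ≤ 1 / 2 := by
    rw [hGb]; exact norm_cfc_le (by norm_num) (fun t _ => taskProK_abs_G t)
  have hybM : y - b ∈ M := sub_mem hyM hbM
  have hbyM : b - y ∈ M := sub_mem hbM hyM
  have hd0 : 0 ≤ ‖(y - b) Ω‖ := norm_nonneg _
  have hrev : ‖(b - y) Ω‖ = ‖(y - b) Ω‖ := by
    have e : (b - y) Ω = -((y - b) Ω) := by
      rw [← neg_sub y b]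
      rfl
    rw [e, norm_neg]
  have t1 : ‖(Ry * (y - b)) (Rb Ω)‖ ≤ ‖(y - b) Ω‖ := by
    have h1 := trace_norm_mul_le M hΩ (mul_mem hRyM hybM) hRbM
    have h2 : ‖(Ry * (y - b)) Ω‖ ≤ ‖Ry‖ * ‖(y - b) Ω‖ := Ry.le_opNorm _
    have h3 : ‖Ry‖ * ‖(y - b) Ω‖ ≤ 1 * ‖(y - b) Ω‖ := mul_le_mul_of_nonneg_right nRy hd0
    have h4 : ‖Rb‖ * ‖(Ry * (y - b)) Ω‖ ≤ 1 * ‖(Ry * (y - b)) Ω‖ :=
      mul_le_mul_of_nonneg_right nRb (norm_nonneg _)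
    linarith
  have t2 : ‖(Gy * (b - y)) (Gb Ω)‖ ≤ 1 / 4 * ‖(y - b) Ω‖ := by
    have h1 := trace_norm_mul_le M hΩ (mul_mem hGyM hbyM) hGbM
    have h2 : ‖(Gy * (b - y)) Ω‖ ≤ ‖Gy‖ * ‖(b - y) Ω‖ := Gy.le_opNorm _
    rw [hrev] at h2
    have h3 : ‖Gy‖ * ‖(y - b) Ω‖ ≤ 1 / 2 * ‖(y - b) Ω‖ := mul_le_mul_of_nonneg_right nGy hd0
    have h4 : ‖Gb‖ * ‖(Gy * (b - y)) Ω‖ ≤ 1 / 2 * ‖(Gy * (b - y)) Ω‖ :=
      mul_le_mul_of_nonneg_right nGb (norm_nonneg _)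
    linarith
  have hsplit : (Gy - Gb) Ω = (Ry * (y - b)) (Rb Ω) + (Gy * (b - y)) (Gb Ω) := by
    rw [hid]
    rfl
  rw [← hGy, ← hGb, hsplit]
  have h5 := norm_add_le ((Ry * (y - b)) (Rb Ω)) ((Gy * (b - y)) (Gb Ω))
  linarith

/-- A self-adjoint element of norm at most `1 / 2` is the image of a self-adjoint element
under the function `t / (1 + t ^ 2)`. -/
lemma taskProK_lift (M : VonNeumannAlgebra H) {x2 : H →L[ℂ] H} (hx2M : x2 ∈ M)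
    (hsa : IsSelfAdjoint x2) (hn : ‖x2‖ ≤ 1 / 2) :
    ∃ y ∈ M, IsSelfAdjoint y ∧ cfc (fun t : ℝ => t * (1 + t ^ 2)⁻¹) y = x2 := by
  obtain ⟨g, hgdef⟩ : ∃ g : ℝ → ℝ,
      g = fun s => 2 * s * (1 + Real.sqrt (1 - 4 * s ^ 2))⁻¹ := ⟨_, rfl⟩
  have hg : Continuous g := by
    rw [hgdef]
    exact (continuous_const.mul continuous_id).mul
      (Continuous.inv₀ (continuous_const.add (Real.continuous_sqrt.comp
        (continuous_const.sub (continuous_const.mul (continuous_pow 2)))))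
        (fun s => ne_of_gt (add_pos_of_pos_of_nonneg one_pos (Real.sqrt_nonneg _))))
  refine ⟨cfc g x2, taskProK_cfc_mem M g hx2M, cfc_predicate g x2, ?_⟩
  have h1 := cfc_comp (fun t : ℝ => t * (1 + t ^ 2)⁻¹) g x2 hsa taskProK_cont_G.continuousOn
    hg.continuousOn
  rw [← h1]
  have h2 : cfc ((fun t : ℝ => t * (1 + t ^ 2)⁻¹) ∘ g) x2 = cfc (fun t : ℝ => t) x2 := by
    apply cfc_congr
    intro t ht
    have hle : ‖t‖ ≤ ‖x2‖ := by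
      have h3 := norm_apply_le_norm_cfc (fun t : ℝ => t) x2 ht continuous_id.continuousOn hsa
      rwa [cfc_id' ℝ x2 hsa] at h3
    show g t * (1 + g t ^ 2)⁻¹ = t
    rw [hgdef]
    exact taskProK_comp t (by rw [← Real.norm_eq_abs]; exact hle.trans hn)
  rw [h2, cfc_id' ℝ x2 hsa]

lemma taskProK_sa_smul {a : H →L[ℂ] H} (ha : IsSelfAdjoint a) (r : ℝ) :
    IsSelfAdjoint ((r : ℂ) • a) := by
  rw [IsSelfAdjoint, star_smul, ha.star_eq]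
  congr 1
  exact Complex.conj_ofReal r

lemma taskProK_half_sa (z : H →L[ℂ] H) : IsSelfAdjoint ((1 / 2 : ℂ) • (z + star z)) := by
  have h : IsSelfAdjoint (z + star z) := by
    rw [IsSelfAdjoint, star_add, star_star, add_comm]
  have h2 := taskProK_sa_smul h (1 / 2)
  have e : ((1 / 2 : ℝ) : ℂ) = 1 / 2 := by norm_num
  rw [e] at h2
  exact h2

lemma taskProK_half_sub {y z : H →L[ℂ] H} (hy : IsSelfAdjoint y) :
    y - (1 / 2 : ℂ) • (z + star z) = (1 / 2 : ℂ) • ((y - z) + star (y - z)) := by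
  rw [star_sub, hy.star_eq]
  module

lemma taskProK_half_norm (u : H →L[ℂ] H) : ‖(1 / 2 : ℂ) • (u + star u)‖ ≤ ‖u‖ := by
  have h2 : ‖(1 / 2 : ℂ)‖ = 1 / 2 := by norm_num
  have h3 := norm_add_le u (star u)
  rw [norm_star] at h3
  rw [norm_smul, h2]
  linarith

lemma taskProK_half_omega (M : VonNeumannAlgebra H) {Ω : H} (hΩ : IsTraceVector M Ω)
    {u : H →L[ℂ] H} (hu : u ∈ M) : ‖((1 / 2 : ℂ) • (u + star u)) Ω‖ ≤ ‖u Ω‖ := by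
  have h1 : ((1 / 2 : ℂ) • (u + star u)) Ω = (1 / 2 : ℂ) • (u Ω + (star u) Ω) := rfl
  have h2 : ‖(1 / 2 : ℂ)‖ = 1 / 2 := by norm_num
  have h3 := norm_add_le (u Ω) ((star u) Ω)
  rw [trace_norm_star M hΩ hu] at h3
  rw [h1, norm_smul, h2]
  linarith

theorem pro_kaplansky (M : VonNeumannAlgebra H) {Ω : H} (hΩ : IsTraceVector M Ω)
    (B : StarSubalgebra ℂ (H →L[ℂ] H)) (hBM : ∀ b ∈ B, b ∈ M)
    (hdense : ∀ x ∈ M, ∀ η : ℝ, 0 < η → ∃ b ∈ B, ‖(x - b) Ω‖ ≤ η)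
    {x : H →L[ℂ] H} (hxM : x ∈ M) (hx : IsSelfAdjoint x) (hx0 : x ≠ 0) {η : ℝ} (hη : 0 < η) :
    ∃ b ∈ B, IsSelfAdjoint b ∧ ‖b‖ < ‖x‖ ∧ ‖(x - b) Ω‖ ≤ η := by
  obtain ⟨N, hNdef⟩ : ∃ N : ℝ, N = ‖x‖ := ⟨_, rfl⟩
  have hN : 0 < N := by
    rw [hNdef]
    exact norm_pos_iff.mpr hx0
  rw [← hNdef]
  -- the constants
  obtain ⟨s, hsdef⟩ : ∃ s : ℝ, s = min (1 / 2) (η / (4 * N)) := ⟨_, rfl⟩
  have hs0 : 0 < s := by
    rw [hsdef]
    exact lt_min (by norm_num) (by positivity)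
  have hs1 : s ≤ 1 / 2 := by
    rw [hsdef]
    exact min_le_left _ _
  have hs2 : N * s ≤ η / 4 := by
    have h : s ≤ η / (4 * N) := by
      rw [hsdef]
      exact min_le_right _ _
    calc N * s ≤ N * (η / (4 * N)) := mul_le_mul_of_nonneg_left h hN.le
      _ = η / 4 := by field_simp
  obtain ⟨θ, hθdef⟩ : ∃ θ : ℝ, θ = η / (5 * N) := ⟨_, rfl⟩
  have hθ : 0 < θ := by
    rw [hθdef]
    positivity
  have hNθ : N * θ = η / 5 := by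
    rw [hθdef]
    field_simp
  -- the rescaled element, of norm one half
  obtain ⟨x2, hx2def⟩ : ∃ x2 : H →L[ℂ] H, x2 = (((2 * N)⁻¹ : ℝ) : ℂ) • x := ⟨_, rfl⟩
  have hx2sa : IsSelfAdjoint x2 := by
    rw [hx2def]
    exact taskProK_sa_smul hx _
  have hx2M : x2 ∈ M := by
    rw [hx2def]
    exact M.toStarSubalgebra.smul_mem hxM _
  have hx2n : ‖x2‖ ≤ 1 / 2 := by
    rw [hx2def, norm_smul, Complex.norm_real, Real.norm_eq_abs,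
      abs_of_nonneg (by positivity), ← hNdef]
    apply le_of_eq
    field_simp
  have hxx2 : x = ((2 * N : ℝ) : ℂ) • x2 := by
    rw [hx2def, smul_smul, ← Complex.ofReal_mul,
      mul_inv_cancel₀ (by positivity : (2 * N) ≠ 0), Complex.ofReal_one, one_smul]
  obtain ⟨y, hyM, hysa, hGy⟩ := taskProK_lift M hx2M hx2sa hx2n
  -- approximation of `y` by a self-adjoint element of `B`
  obtain ⟨b0, hb0B, hb0⟩ := hdense y hyM θ hθ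
  obtain ⟨b1, hb1def⟩ : ∃ b1 : H →L[ℂ] H, b1 = (1 / 2 : ℂ) • (b0 + star b0) := ⟨_, rfl⟩
  have hb1B : b1 ∈ B := by
    rw [hb1def]
    exact B.smul_mem (add_mem hb0B (star_mem hb0B)) _
  have hb1sa : IsSelfAdjoint b1 := by
    rw [hb1def]
    exact taskProK_half_sa b0
  have hb1M : b1 ∈ M := hBM b1 hb1B
  have hyb1 : ‖(y - b1) Ω‖ ≤ θ := by
    rw [hb1def, taskProK_half_sub hysa]
    exact (taskProK_half_omega M hΩ (sub_mem hyM (hBM b0 hb0B))).trans hb0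
  -- the function of `b1`
  obtain ⟨w, hwdef⟩ : ∃ w : H →L[ℂ] H, w = cfc (fun t : ℝ => t * (1 + t ^ 2)⁻¹) b1 :=
    ⟨_, rfl⟩
  have hwsa : IsSelfAdjoint w := by
    rw [hwdef]
    exact cfc_predicate _ b1
  have hwn : ‖w‖ ≤ 1 / 2 := by
    rw [hwdef]
    exact norm_cfc_le (by norm_num) (fun t _ => taskProK_abs_G t)
  have hxw : ‖(x2 - w) Ω‖ ≤ 5 / 4 * θ := by
    rw [← hGy, hwdef]
    exact (taskProK_core M hΩ hyM hb1M hysa hb1sa).trans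
      (mul_le_mul_of_nonneg_left hyb1 (by norm_num))
  have hwcl : w ∈ closure ((B : StarSubalgebra ℂ (H →L[ℂ] H)) : Set (H →L[ℂ] H)) := by
    have hcl : IsClosed ((B.topologicalClosure : StarSubalgebra ℂ (H →L[ℂ] H)) :
        Set (H →L[ℂ] H)) := B.isClosed_topologicalClosure
    have h : w ∈ B.topologicalClosure := by
      rw [hwdef]
      exact cfc_mem (𝕜 := ℝ) (𝕜' := ℂ) (s := B.topologicalClosure) _
        (B.le_topologicalClosure hb1B)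
    rw [← StarSubalgebra.topologicalClosure_coe]
    exact h
  obtain ⟨c0, hc0B, hc0⟩ := Metric.mem_closure_iff.mp hwcl (s / 4) (by positivity)
  obtain ⟨b2, hb2def⟩ : ∃ b2 : H →L[ℂ] H, b2 = (1 / 2 : ℂ) • (c0 + star c0) := ⟨_, rfl⟩
  have hb2B : b2 ∈ B := by
    rw [hb2def]
    exact B.smul_mem (add_mem hc0B (star_mem hc0B)) _
  have hb2sa : IsSelfAdjoint b2 := by
    rw [hb2def]
    exact taskProK_half_sa c0
  have hwb2 : ‖w - b2‖ ≤ s / 4 := by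
    rw [hb2def, taskProK_half_sub hwsa]
    refine (taskProK_half_norm (w - c0)).trans ?_
    rw [← dist_eq_norm]
    exact hc0.le
  have hb2n : ‖b2‖ ≤ 1 / 2 + s / 4 := by
    have e : b2 = w - (w - b2) := (sub_sub_cancel w b2).symm
    calc ‖b2‖ = ‖w - (w - b2)‖ := by rw [← e]
      _ ≤ ‖w‖ + ‖w - b2‖ := norm_sub_le _ _
      _ ≤ 1 / 2 + s / 4 := add_le_add hwn hwb2
  have h1s : 0 ≤ 1 - s := by linarith
  have hcoef : 0 ≤ 2 * N * (1 - s) := by positivity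
  refine ⟨((2 * N * (1 - s) : ℝ) : ℂ) • b2, B.smul_mem hb2B _, taskProK_sa_smul hb2sa _,
    ?_, ?_⟩
  · rw [norm_smul, Complex.norm_real, Real.norm_eq_abs, abs_of_nonneg hcoef]
    have h1 : 2 * N * (1 - s) * ‖b2‖ ≤ 2 * N * (1 - s) * (1 / 2 + s / 4) :=
      mul_le_mul_of_nonneg_left hb2n hcoef
    have h2 : 0 < N * s := mul_pos hN hs0
    have h3 : 0 < N * s * s := mul_pos h2 hs0
    nlinarith
  · have e : x - ((2 * N * (1 - s) : ℝ) : ℂ) • b2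
        = ((2 * N : ℝ) : ℂ) • ((x2 - w) + (w - b2) + ((s : ℝ) : ℂ) • b2) := by
      rw [hxx2]
      push_cast
      module
    rw [e]
    have e2 : (((2 * N : ℝ) : ℂ) • ((x2 - w) + (w - b2) + ((s : ℝ) : ℂ) • b2)) Ω
        = ((2 * N : ℝ) : ℂ) • ((x2 - w) Ω + (w - b2) Ω + ((s : ℝ) : ℂ) • (b2 Ω)) := rfl
    rw [e2, norm_smul, Complex.norm_real, Real.norm_eq_abs,
      abs_of_nonneg (by positivity : (0 : ℝ) ≤ 2 * N)]
    have n1 : ‖(w - b2) Ω‖ ≤ s / 4 := by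
      have h := (w - b2).le_opNorm Ω
      rw [hΩ.1, mul_one] at h
      exact h.trans hwb2
    have n2 : ‖((s : ℝ) : ℂ) • (b2 Ω)‖ ≤ s * (1 / 2 + s / 4) := by
      rw [norm_smul, Complex.norm_real, Real.norm_eq_abs, abs_of_nonneg hs0.le]
      have h := b2.le_opNorm Ω
      rw [hΩ.1, mul_one] at h
      exact mul_le_mul_of_nonneg_left (h.trans hb2n) hs0.le
    have n3 := norm_add_le ((x2 - w) Ω + (w - b2) Ω) (((s : ℝ) : ℂ) • (b2 Ω))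
    have n4 := norm_add_le ((x2 - w) Ω) ((w - b2) Ω)
    have n5 : ‖(x2 - w) Ω + (w - b2) Ω + ((s : ℝ) : ℂ) • (b2 Ω)‖
        ≤ 5 / 4 * θ + s / 4 + s * (1 / 2 + s / 4) := by linarith
    have n6 : 2 * N * ‖(x2 - w) Ω + (w - b2) Ω + ((s : ℝ) : ℂ) • (b2 Ω)‖
        ≤ 2 * N * (5 / 4 * θ + s / 4 + s * (1 / 2 + s / 4)) :=
      mul_le_mul_of_nonneg_left n5 (by positivity)
    have n7 : N * s * s ≤ N * s * (1 / 2) :=
      mul_le_mul_of_nonneg_left hs1 (mul_nonneg hN.le hs0.le)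
    nlinarith

end Vale.Agent.Lib.P078
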