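import Vale.Agent.Lib.P078.ProDefs
import Vale.Agent.Lib.P078.Approx
import Vale.Agent.Lib.P078.HF.A3a
import Vale.Agent.Lib.P078.HF.A3b
import Vale.Agent.Lib.P078.Pro.F1

namespace Vale.Agent.Lib.P078

open scoped InnerProductSpace Matrix.Norms.L2Operator
open ContinuousLinearMap Filter Topology

variable {H : Type*} [NormedAddCommGroup H] [InnerProductSpace ℂ H] [CompleteSpace H]

variable {Γ : Type} [Group Γ] {A M : VonNeumannAlgebra H} {Ω : H} {u : Γ → H →L[ℂ] H} {d : ℕ}
  {e : Fin d → H →L[ℂ] H} {σ : Γ → Fin d → Fin d}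

variable {d' : ℕ} {e' : Fin d' → H →L[ℂ] H} {σ' : Γ → Fin d' → Fin d'}

/-! ### L1 : lifting a formal sum to a finer level -/


theorem taskProL1_mul_cases (hlev : IsProLevel A Ω u e σ) (hlev' : IsProLevel A Ω u e' σ')
    (href : ∀ k, e k ∈ Submodule.span ℂ (Set.range e')) (m : Fin d') (k : Fin d) :
    e' m * e k = 0 ∨ e' m * e k = e' m := by
  obtain ⟨c, hc⟩ := (Submodule.mem_span_range_iff_exists_fun ℂ).mp (href k)
  have h1 : e' m * e k = c m • e' m := by
    rw [← hc, Finset.mul_sum, Finset.sum_eq_single m]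
    · rw [mul_smul_comm, pro_e_mul hlev' m m, if_pos rfl]
    · intro b _ hb
      rw [mul_smul_comm, pro_e_mul hlev' m b, if_neg (Ne.symm hb), smul_zero]
    · intro h
      exact absurd (Finset.mem_univ m) h
  have h2 : e k * e k = e k := by rw [pro_e_mul hlev k k, if_pos rfl]
  have h3 : (c m * c m - c m) • e' m = 0 := by
    have h : e' m * e k * e k = e' m * e k := by rw [mul_assoc, h2]
    rw [h1, smul_mul_assoc, h1, smul_smul] at h
    rw [sub_smul, h, sub_self]
  rcases smul_eq_zero.mp h3 with h4 | h4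
  · have h5 : c m * (c m - 1) = 0 := by
      rw [mul_sub, mul_one]
      exact h4
    rcases mul_eq_zero.mp h5 with h6 | h6
    · left
      rw [h1, h6, zero_smul]
    · right
      rw [h1, sub_eq_zero.mp h6, one_smul]
  · exact absurd h4 (pro_e_ne_zero hlev' m)

theorem pro_exists_parent (hlev : IsProLevel A Ω u e σ) (hlev' : IsProLevel A Ω u e' σ')
    (href : ∀ k, e k ∈ Submodule.span ℂ (Set.range e')) :
    ∃ π : Fin d' → Fin d, ∀ m k, e' m * e k = if π m = k then e' m else 0 := by
  have hex : ∀ m, ∃ k, e' m * e k = e' m := by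
    intro m
    by_contra hcon
    push Not at hcon
    have h0 : ∀ k, e' m * e k = 0 := fun k =>
      (taskProL1_mul_cases hlev hlev' href m k).resolve_right (hcon k)
    have h1 : e' m = 0 := by
      have hs : ∑ k, e k = 1 := hlev.1.2.2
      calc e' m = e' m * ∑ k, e k := by rw [hs, mul_one]
        _ = ∑ k, e' m * e k := Finset.mul_sum _ _ _
        _ = 0 := Finset.sum_eq_zero fun k _ => h0 k
    exact pro_e_ne_zero hlev' m h1
  choose π hπ using hex
  refine ⟨π, fun m k => ?_⟩
  by_cases h : π m = k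
  · rw [if_pos h, ← h, hπ m]
  · rw [if_neg h]
    calc e' m * e k = e' m * e (π m) * e k := by rw [hπ m]
      _ = e' m * (e (π m) * e k) := mul_assoc _ _ _
      _ = 0 := by rw [pro_e_mul hlev (π m) k, if_neg h, mul_zero]

theorem pro_lift (hlev : IsProLevel A Ω u e σ) (hlev' : IsProLevel A Ω u e' σ')
    (href : ∀ k, e k ∈ Submodule.span ℂ (Set.range e')) (l : List ((Fin d → ℂ) × Γ)) :
    ∃ l' : List ((Fin d' → ℂ) × Γ), proOp e' u l' = proOp e u l ∧
      l'.map Prod.snd = l.map Prod.snd ∧ proSize l' ≤ proSize l := by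
  obtain ⟨π, hπ⟩ := pro_exists_parent hlev hlev' href
  have hdiag : ∀ f : Fin d → ℂ, proDiag e' (fun m => f (π m)) = proDiag e f := by
    intro f
    have hs' : ∑ m, e' m = 1 := hlev'.1.2.2
    unfold proDiag
    calc ∑ m, f (π m) • e' m = ∑ m, ∑ k, f k • (e' m * e k) := by
          refine Finset.sum_congr rfl fun m _ => ?_
          rw [Finset.sum_eq_single (π m)]
          · rw [hπ m (π m), if_pos rfl]
          · intro b _ hb
            rw [hπ m b, if_neg (Ne.symm hb), smul_zero]
          · intro h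
            exact absurd (Finset.mem_univ _) h
      _ = ∑ m, e' m * ∑ k, f k • e k := by
          refine Finset.sum_congr rfl fun m _ => ?_
          rw [Finset.mul_sum]
          refine Finset.sum_congr rfl fun k _ => ?_
          rw [mul_smul_comm]
      _ = (∑ m, e' m) * ∑ k, f k • e k := (Finset.sum_mul _ _ _).symm
      _ = ∑ k, f k • e k := by rw [hs', one_mul]
  refine ⟨l.map fun t => ((fun m => t.1 (π m)), t.2), ?_, ?_, ?_⟩
  · unfold proOp
    rw [List.map_map]
    congr 1
    refine List.map_congr_left fun t _ => ?_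
    show proDiag e' (fun m => t.1 (π m)) * u t.2 = proDiag e t.1 * u t.2
    rw [hdiag]
  · rw [List.map_map]
    rfl
  · unfold proSize
    rw [List.map_map]
    refine List.sum_le_sum fun t _ => ?_
    show ‖fun m => t.1 (π m)‖ ≤ ‖t.1‖
    exact (pi_norm_le_iff_of_nonneg (norm_nonneg _)).mpr fun m => norm_le_pi_norm t.1 (π m)

end Vale.Agent.Lib.P078
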