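import Vale.Agent.Lib.P078.ProDefs
import Vale.Agent.Lib.P078.Approx
import Vale.Agent.Lib.P078.HF.A3a
import Vale.Agent.Lib.P078.HF.A3b
import Vale.Agent.Lib.P078.Pro.F1
import Vale.Agent.Lib.P078.Pro.L1

namespace Vale.Agent.Lib.P078

open scoped InnerProductSpace Matrix.Norms.L2Operator
open ContinuousLinearMap Filter Topology

variable {H : Type*} [NormedAddCommGroup H] [InnerProductSpace ℂ H] [CompleteSpace H]

variable {Γ : Type} [Group Γ] {A M : VonNeumannAlgebra H} {Ω : H} {u : Γ → H →L[ℂ] H} {d : ℕ}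
  {e : Fin d → H →L[ℂ] H} {σ : Γ → Fin d → Fin d}

variable {d' : ℕ} {e' : Fin d' → H →L[ℂ] H} {σ' : Γ → Fin d' → Fin d'}

/-! ### L2 : fixed points at a finer level -/

theorem taskProL2_fibre_card (hΩ1 : ‖Ω‖ = 1) (hlev : IsProLevel A Ω u e σ)
    (hlev' : IsProLevel A Ω u e' σ') (π : Fin d' → Fin d)
    (hπ : ∀ m k, e' m * e k = if π m = k then e' m else 0) (k : Fin d) :
    ((Finset.univ.filter fun m => π m = k).card : ℝ) * d = d' := by
  have hd : 0 < d := pro_d_pos hlev hΩ1
  have hd' : 0 < d' := pro_d_pos hlev' hΩ1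
  have hsum : e k = ∑ m, if π m = k then e' m else 0 := by
    have h1 : (∑ m, e' m) * e k = e k := by rw [hlev'.1.2.2, one_mul]
    rw [← h1, Finset.sum_mul]
    exact Finset.sum_congr rfl fun m _ => hπ m k
  have hτ : ⟪Ω, e k Ω⟫_ℂ = ∑ m, if π m = k then ((d' : ℂ))⁻¹ else 0 := by
    conv_lhs => rw [hsum]
    rw [sum_apply, inner_sum]
    refine Finset.sum_congr rfl fun m _ => ?_
    split_ifs with h
    · exact hlev'.2.1 m
    · simp
  rw [hlev.2.1 k, Finset.sum_ite, Finset.sum_const_zero, add_zero, Finset.sum_const,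
    nsmul_eq_mul] at hτ
  have hdc : (d : ℂ) ≠ 0 := by exact_mod_cast hd.ne'
  have hdc' : (d' : ℂ) ≠ 0 := by exact_mod_cast hd'.ne'
  have h2 : ((Finset.univ.filter fun m => π m = k).card : ℂ) * d = d' := by
    have h3 : ((Finset.univ.filter fun m => π m = k).card : ℂ) * d =
        ((Finset.univ.filter fun m => π m = k).card : ℂ) * ((d' : ℂ))⁻¹ * d * d' := by
      field_simp
    rw [h3, ← hτ]
    field_simp
  exact_mod_cast h2

theorem pro_fix_mono (hΩ1 : ‖Ω‖ = 1) (hrep : IsProRep M u) (hlev : IsProLevel A Ω u e σ)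
    (hlev' : IsProLevel A Ω u e' σ') (href : ∀ k, e k ∈ Submodule.span ℂ (Set.range e'))
    (γ : Γ) : (proFix σ' γ : ℝ) * d ≤ proFix σ γ * d' := by
  obtain ⟨π, hπ⟩ := pro_exists_parent hlev hlev' href
  have hfix : ∀ m, σ' γ m = m → σ γ (π m) = π m := by
    intro m hm
    have huu : star (u γ) * u γ = 1 := by
      rw [(hrep.2.2 γ).2, ← hrep.2.1, inv_mul_cancel, hrep.1]
    have h1 : e' m * e (π m) = e' m := by rw [hπ, if_pos rfl]
    have h2 : e' m * e (σ γ (π m)) = e' m := by
      have h3 : u γ * (e' m * e (π m)) * star (u γ) =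
          (u γ * e' m * star (u γ)) * (u γ * e (π m) * star (u γ)) := by
        calc u γ * (e' m * e (π m)) * star (u γ)
            = u γ * e' m * 1 * e (π m) * star (u γ) := by simp only [mul_assoc, one_mul]
          _ = u γ * e' m * (star (u γ) * u γ) * e (π m) * star (u γ) := by rw [huu]
          _ = (u γ * e' m * star (u γ)) * (u γ * e (π m) * star (u γ)) := by
              simp only [mul_assoc]
      rw [h1, hlev'.2.2, hlev.2.2, hm] at h3
      exact h3.symm
    rw [hπ] at h2
    by_contra hne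
    rw [if_neg fun h => hne h.symm] at h2
    exact pro_e_ne_zero hlev' m h2.symm
  have hsub : (Finset.univ.filter fun m => σ' γ m = m) ⊆
      (Finset.univ.filter fun k => σ γ k = k).biUnion
        (fun k => Finset.univ.filter fun m => π m = k) := by
    intro m hm
    rw [Finset.mem_filter] at hm
    rw [Finset.mem_biUnion]
    exact ⟨π m, by simp [hfix m hm.2], by simp⟩
  have hcard : (proFix σ' γ : ℝ) ≤ ∑ k ∈ Finset.univ.filter (fun k => σ γ k = k),
      ((Finset.univ.filter fun m => π m = k).card : ℝ) := by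
    unfold proFix
    have h4 := (Finset.card_le_card hsub).trans Finset.card_biUnion_le
    exact_mod_cast h4
  calc (proFix σ' γ : ℝ) * d
      ≤ (∑ k ∈ Finset.univ.filter (fun k => σ γ k = k),
          ((Finset.univ.filter fun m => π m = k).card : ℝ)) * d :=
        mul_le_mul_of_nonneg_right hcard (Nat.cast_nonneg d)
    _ = ∑ k ∈ Finset.univ.filter (fun k => σ γ k = k), (d' : ℝ) := by
        rw [Finset.sum_mul]
        exact Finset.sum_congr rfl fun k _ => taskProL2_fibre_card hΩ1 hlev hlev' π hπ k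
    _ = proFix σ γ * d' := by
        rw [Finset.sum_const, nsmul_eq_mul]
        rfl

end Vale.Agent.Lib.P078
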