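import Vale.Agent.Lib.P078.ProDefs
import Vale.Agent.Lib.P078.Approx
import Vale.Agent.Lib.P078.HF.A3a
import Vale.Agent.Lib.P078.HF.A3b
import Vale.Agent.Lib.P078.Pro.L2

namespace Vale.Agent.Lib.P078

open scoped InnerProductSpace Matrix.Norms.L2Operator
open ContinuousLinearMap Filter Topology

variable {H : Type*} [NormedAddCommGroup H] [InnerProductSpace ℂ H] [CompleteSpace H]

variable {Γ : Type} [Group Γ] {A M : VonNeumannAlgebra H} {Ω : H} {u : Γ → H →L[ℂ] H}
  {I : Type} {d : I → ℕ} {e : (i : I) → Fin (d i) → H →L[ℂ] H}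
  {σ : (i : I) → Γ → Fin (d i) → Fin (d i)}

/-! ### L3 : levels at which finitely many group elements have few fixed points -/



theorem pro_exists_level (hΩ1 : ‖Ω‖ = 1) (hsys : IsProSystem Γ A M Ω u d e σ) (W : List Γ)
    {δ : ℝ} (hδ : 0 < δ) (i₀ : I) :
    ∃ j, (∀ k, e i₀ k ∈ Submodule.span ℂ (Set.range (e j))) ∧
      ∀ γ ∈ W, γ = 1 ∨ (proFix (σ j) γ : ℝ) ≤ δ * d j := by
  obtain ⟨-, hrep, hlev, hdir, hfree⟩ := hsys
  -- a bound on the proportion of fixed points passes to every finer level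
  have key : ∀ (j j' : I) (γ : Γ), (∀ k, e j k ∈ Submodule.span ℂ (Set.range (e j'))) →
      (proFix (σ j) γ : ℝ) ≤ δ * d j → (proFix (σ j') γ : ℝ) ≤ δ * d j' := by
    intro j j' γ href hb
    have hmono := pro_fix_mono hΩ1 hrep (hlev j) (hlev j') href γ
    have hdj : (0 : ℝ) < d j := by exact_mod_cast pro_d_pos (hlev j) hΩ1
    have hdj' : (0 : ℝ) ≤ d j' := by positivity
    have h2 : (proFix (σ j') γ : ℝ) * d j ≤ (δ * d j') * d j := by
      calc (proFix (σ j') γ : ℝ) * d j ≤ proFix (σ j) γ * d j' := hmono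
        _ ≤ (δ * d j) * d j' := mul_le_mul_of_nonneg_right hb hdj'
        _ = (δ * d j') * d j := by ring
    exact le_of_mul_le_mul_right h2 hdj
  induction W with
  | nil => exact ⟨i₀, fun k => Submodule.subset_span ⟨k, rfl⟩, by simp⟩
  | cons γ W ih =>
    obtain ⟨j, hj0, hjW⟩ := ih
    by_cases hγ : γ = 1
    · refine ⟨j, hj0, ?_⟩
      intro β hβ
      rcases List.mem_cons.mp hβ with rfl | hβ
      · exact Or.inl hγ
      · exact hjW β hβ
    · obtain ⟨iγ, hiγ⟩ := hfree γ hγ δ hδ
      obtain ⟨j', hjj', hiγj'⟩ := hdir j iγ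
      refine ⟨j', ?_, ?_⟩
      · intro k
        have hle : Submodule.span ℂ (Set.range (e j)) ≤
            Submodule.span ℂ (Set.range (e j')) := by
          rw [Submodule.span_le]
          rintro _ ⟨m, rfl⟩
          exact hjj' m
        exact hle (hj0 k)
      · intro β hβ
        rcases List.mem_cons.mp hβ with rfl | hβ
        · exact Or.inr (key iγ j' β hiγj' hiγ)
        · rcases hjW β hβ with h1 | hb
          · exact Or.inl h1
          · exact Or.inr (key j j' β hjj' hb)

end Vale.Agent.Lib.P078
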