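import Vale.Agent.Lib.P078.ProDefs
import Vale.Agent.Lib.P078.Approx
import Vale.Agent.Lib.P078.HF.A3a
import Vale.Agent.Lib.P078.HF.A3b

namespace Vale.Agent.Lib.P078

open scoped InnerProductSpace Matrix.Norms.L2Operator
open ContinuousLinearMap Filter Topology

variable {H : Type*} [NormedAddCommGroup H] [InnerProductSpace ℂ H] [CompleteSpace H]

/-! ### R1 : spectral clamp of a Hermitian matrix -/

theorem taskProR1_trace_conj {n : ℕ} (U : unitary (Matrix (Fin n) (Fin n) ℂ))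
    (X : Matrix (Fin n) (Fin n) ℂ) :
    Matrix.trace (Unitary.conjStarAlgAut ℂ _ U X) = Matrix.trace X := by
  rw [Unitary.conjStarAlgAut_apply, Matrix.trace_mul_cycle, Unitary.coe_star_mul_self, one_mul]

theorem taskProR1_norm_conj {n : ℕ} (U : unitary (Matrix (Fin n) (Fin n) ℂ))
    (X : Matrix (Fin n) (Fin n) ℂ) :
    ‖Unitary.conjStarAlgAut ℂ _ U X‖ = ‖X‖ := by
  rw [Unitary.conjStarAlgAut_apply]
  have h1 : ‖(U : Matrix (Fin n) (Fin n) ℂ) * X * star (U : Matrix (Fin n) (Fin n) ℂ)‖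
      = ‖(U : Matrix (Fin n) (Fin n) ℂ) * X‖ :=
    CStarRing.norm_mul_coe_unitary _ (star U)
  rw [h1, CStarRing.norm_coe_unitary_mul]

theorem taskProR1_rank_conj_le {n : ℕ} (U : unitary (Matrix (Fin n) (Fin n) ℂ))
    (X : Matrix (Fin n) (Fin n) ℂ) :
    (Unitary.conjStarAlgAut ℂ _ U X).rank ≤ X.rank := by
  rw [Unitary.conjStarAlgAut_apply]
  exact (Matrix.rank_mul_le_left _ _).trans (Matrix.rank_mul_le_right _ _)

theorem pro_matrix_clamp {n : ℕ} (T : Matrix (Fin n) (Fin n) ℂ) (hT : T.IsHermitian) {c : ℝ}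
    (hc : 0 < c) (m : ℕ) :
    ∃ T₀ : Matrix (Fin n) (Fin n) ℂ, T₀.IsHermitian ∧ ‖T₀‖ ≤ c ∧
      ((T - T₀).rank : ℝ) * c ^ (2 * m) ≤ (Matrix.trace (T ^ (2 * m))).re := by
  classical
  obtain ⟨U, hU⟩ : ∃ U : unitary (Matrix (Fin n) (Fin n) ℂ), U = hT.eigenvectorUnitary :=
    ⟨_, rfl⟩
  obtain ⟨ev, hev⟩ : ∃ ev : Fin n → ℝ, ev = hT.eigenvalues := ⟨_, rfl⟩
  have hspec : T = Unitary.conjStarAlgAut ℂ _ U
      (Matrix.diagonal (fun k => ((ev k : ℝ) : ℂ))) := by
    rw [hU, hev]
    exact hT.spectral_theorem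
  obtain ⟨μ, hμ⟩ : ∃ μ : Fin n → ℝ, μ = fun k => max (-c) (min c (ev k)) := ⟨_, rfl⟩
  have hμabs : ∀ k, |μ k| ≤ c := by
    intro k
    rw [hμ, abs_le]
    exact ⟨le_max_left _ _, max_le (by linarith) (min_le_left _ _)⟩
  have hμeq : ∀ k, |ev k| ≤ c → μ k = ev k := by
    intro k hk
    rw [hμ]
    obtain ⟨h1, h2⟩ := abs_le.mp hk
    show max (-c) (min c (ev k)) = ev k
    rw [min_eq_right h2, max_eq_right h1]
  refine ⟨Unitary.conjStarAlgAut ℂ _ U (Matrix.diagonal (fun k => ((μ k : ℝ) : ℂ))),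
    ?_, ?_, ?_⟩
  · have hD : (Matrix.diagonal (fun k => ((μ k : ℝ) : ℂ))).IsHermitian := by
      rw [Matrix.IsHermitian, Matrix.diagonal_conjTranspose]
      congr 1
      funext k
      simp
    rw [Matrix.IsHermitian, ← Matrix.star_eq_conjTranspose, ← map_star,
      Matrix.star_eq_conjTranspose, hD.eq]
  · rw [taskProR1_norm_conj, Matrix.l2_opNorm_diagonal, pi_norm_le_iff_of_nonneg hc.le]
    intro k
    rw [Complex.norm_real, Real.norm_eq_abs]
    exact hμabs k
  · have hsub : T - Unitary.conjStarAlgAut ℂ _ U (Matrix.diagonal (fun k => ((μ k : ℝ) : ℂ)))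
        = Unitary.conjStarAlgAut ℂ _ U
          (Matrix.diagonal (fun k => ((ev k - μ k : ℝ) : ℂ))) := by
      conv_lhs => rw [hspec]
      rw [← map_sub, Matrix.diagonal_sub]
      congr 2
      funext k
      push_cast
      rfl
    have hrank : (T - Unitary.conjStarAlgAut ℂ _ U
        (Matrix.diagonal (fun k => ((μ k : ℝ) : ℂ)))).rank
        ≤ (Finset.univ.filter (fun k => c < |ev k|)).card := by
      rw [hsub]
      refine (taskProR1_rank_conj_le U _).trans ?_
      rw [Matrix.rank_diagonal, Fintype.card_subtype]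
      refine Finset.card_le_card ?_
      intro k hk
      rw [Finset.mem_filter] at hk ⊢
      refine ⟨Finset.mem_univ k, ?_⟩
      by_contra hcon
      push Not at hcon
      apply hk.2
      rw [hμeq k hcon, sub_self, Complex.ofReal_zero]
    have htrace : (Matrix.trace (T ^ (2 * m))).re = ∑ k, ev k ^ (2 * m) := by
      conv_lhs => rw [hspec]
      rw [← map_pow, taskProR1_trace_conj, Matrix.diagonal_pow, Matrix.trace_diagonal,
        Complex.re_sum]
      refine Finset.sum_congr rfl (fun k _ => ?_)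
      rw [Pi.pow_apply, ← Complex.ofReal_pow, Complex.ofReal_re]
    rw [htrace]
    have hnn : ∀ k, 0 ≤ ev k ^ (2 * m) := fun k => (even_two_mul m).pow_nonneg _
    calc ((T - Unitary.conjStarAlgAut ℂ _ U
          (Matrix.diagonal (fun k => ((μ k : ℝ) : ℂ)))).rank : ℝ) * c ^ (2 * m)
        ≤ ((Finset.univ.filter (fun k => c < |ev k|)).card : ℝ) * c ^ (2 * m) := by
          refine mul_le_mul_of_nonneg_right ?_ (by positivity)
          exact_mod_cast hrank
      _ = ∑ k ∈ Finset.univ.filter (fun k => c < |ev k|), c ^ (2 * m) := by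
          rw [Finset.sum_const, nsmul_eq_mul]
      _ ≤ ∑ k ∈ Finset.univ.filter (fun k => c < |ev k|), ev k ^ (2 * m) := by
          refine Finset.sum_le_sum (fun k hk => ?_)
          have hk' : c < |ev k| := (Finset.mem_filter.mp hk).2
          have h1 : c ^ (2 * m) ≤ |ev k| ^ (2 * m) := pow_le_pow_left₀ hc.le hk'.le _
          rwa [(even_two_mul m).pow_abs] at h1
      _ ≤ ∑ k, ev k ^ (2 * m) :=
          Finset.sum_le_sum_of_subset_of_nonneg (Finset.filter_subset _ _)
            (fun k _ _ => hnn k)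

end Vale.Agent.Lib.P078
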