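import Vale.Agent.Lib.P078.ProDefs
import Vale.Agent.Lib.P078.Approx
import Vale.Agent.Lib.P078.HF.A3a
import Vale.Agent.Lib.P078.HF.A3b

namespace Vale.Agent.Lib.P078

open scoped InnerProductSpace Matrix.Norms.L2Operator
open ContinuousLinearMap Filter Topology

variable {H : Type*} [NormedAddCommGroup H] [InnerProductSpace ℂ H] [CompleteSpace H]

/-! ### R2 : rank of the block-diagonal part -/

lemma taskProR2_paved_eq {n r : ℕ} (X : Matrix (Fin n) (Fin n) ℂ) (κ : Fin n → Fin r)
    (a : Fin n → ℝ) :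
    pavedMatrix X κ a = ∑ i : Fin r,
        Matrix.diagonal (fun j => if κ j = i then (1 : ℂ) else 0) * X
          * Matrix.diagonal (fun j => if κ j = i then (1 : ℂ) else 0)
      - Matrix.diagonal (fun j => (a j : ℂ)) := by
  ext j k
  rw [Matrix.sub_apply, Matrix.sum_apply, Matrix.diagonal_apply]
  have h1 : ∀ i : Fin r, (Matrix.diagonal (fun j => if κ j = i then (1 : ℂ) else 0) * X
      * Matrix.diagonal (fun j => if κ j = i then (1 : ℂ) else 0)) j k
      = (if κ j = i then (1 : ℂ) else 0) * X j k * (if κ k = i then (1 : ℂ) else 0) := by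
    intro i
    rw [Matrix.mul_diagonal, Matrix.diagonal_mul]
  rw [Finset.sum_congr rfl (fun i _ => h1 i), Finset.sum_eq_single (κ j)]
  · show (if κ j = κ k then X j k else 0) - (if j = k then (a j : ℂ) else 0) = _
    rw [if_pos (rfl : κ j = κ j), one_mul]
    by_cases hjk : κ j = κ k
    · rw [if_pos hjk, if_pos hjk.symm, mul_one]
    · rw [if_neg hjk, if_neg (fun h : κ k = κ j => hjk h.symm), mul_zero]
  · intro i _ hi
    rw [if_neg (fun h : κ j = i => hi h.symm), zero_mul, zero_mul]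
  · intro h
    exact absurd (Finset.mem_univ _) h

lemma taskProR2_rank_add_le {n : ℕ} (A B : Matrix (Fin n) (Fin n) ℂ) :
    (A + B).rank ≤ A.rank + B.rank := by
  unfold Matrix.rank
  rw [Matrix.mulVecLin_add]
  have h1 : LinearMap.range (A.mulVecLin + B.mulVecLin)
      ≤ LinearMap.range A.mulVecLin ⊔ LinearMap.range B.mulVecLin := by
    rintro _ ⟨v, rfl⟩
    rw [LinearMap.add_apply]
    exact Submodule.add_mem_sup (LinearMap.mem_range_self _ v) (LinearMap.mem_range_self _ v)
  exact le_trans (Submodule.finrank_mono h1) (Submodule.finrank_add_le_finrank_add_finrank _ _)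

lemma taskProR2_norm_D {n r : ℕ} (κ : Fin n → Fin r) (i : Fin r) :
    ‖(Matrix.diagonal (fun j => if κ j = i then (1 : ℂ) else 0) : Matrix (Fin n) (Fin n) ℂ)‖
      ≤ 1 := by
  rw [Matrix.l2_opNorm_diagonal, pi_norm_le_iff_of_nonneg zero_le_one]
  intro j
  split_ifs
  · simp
  · simp

theorem pro_rank_block_le {n r : ℕ} (X : Matrix (Fin n) (Fin n) ℂ) (κ : Fin n → Fin r) :
    (pavedMatrix X κ 0).rank ≤ r * X.rank := by
  rw [taskProR2_paved_eq X κ 0]
  have h0 : Matrix.diagonal (fun j : Fin n => (((0 : Fin n → ℝ) j : ℝ) : ℂ))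
      = (0 : Matrix (Fin n) (Fin n) ℂ) := by
    ext j k
    rw [Matrix.diagonal_apply]
    simp
  rw [h0, sub_zero]
  have h1 := Finset.le_sum_of_subadditive (fun M : Matrix (Fin n) (Fin n) ℂ => M.rank)
    Matrix.rank_zero.le (fun A B => taskProR2_rank_add_le A B) Finset.univ
    (fun i : Fin r => Matrix.diagonal (fun j => if κ j = i then (1 : ℂ) else 0) * X
      * Matrix.diagonal (fun j => if κ j = i then (1 : ℂ) else 0))
  refine le_trans h1 ?_
  have h2 : ∀ i ∈ (Finset.univ : Finset (Fin r)),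
      (Matrix.diagonal (fun j => if κ j = i then (1 : ℂ) else 0) * X
        * Matrix.diagonal (fun j => if κ j = i then (1 : ℂ) else 0)).rank ≤ X.rank := by
    intro i _
    exact le_trans (Matrix.rank_mul_le_left _ _) (Matrix.rank_mul_le_right _ _)
  have h3 := Finset.sum_le_sum h2
  rw [Finset.sum_const, Finset.card_univ, Fintype.card_fin, smul_eq_mul] at h3
  exact h3

theorem pro_norm_paved_le {n r : ℕ} (T : Matrix (Fin n) (Fin n) ℂ) (κ : Fin n → Fin r)
    (a : Fin n → ℝ) {c : ℝ} (hc : 0 ≤ c) (ha : ∀ j, |a j| ≤ c) :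
    ‖pavedMatrix T κ a‖ ≤ r * ‖T‖ + c := by
  rw [taskProR2_paved_eq T κ a]
  have hdiag : ‖(Matrix.diagonal (fun j => (a j : ℂ)) : Matrix (Fin n) (Fin n) ℂ)‖ ≤ c := by
    rw [Matrix.l2_opNorm_diagonal, pi_norm_le_iff_of_nonneg hc]
    intro j
    rw [Complex.norm_real, Real.norm_eq_abs]
    exact ha j
  have hsum : ‖∑ i : Fin r, Matrix.diagonal (fun j => if κ j = i then (1 : ℂ) else 0) * T
      * Matrix.diagonal (fun j => if κ j = i then (1 : ℂ) else 0)‖ ≤ r * ‖T‖ := by
    refine le_trans (norm_sum_le _ _) ?_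
    have h2 : ∀ i ∈ (Finset.univ : Finset (Fin r)),
        ‖Matrix.diagonal (fun j => if κ j = i then (1 : ℂ) else 0) * T
          * Matrix.diagonal (fun j => if κ j = i then (1 : ℂ) else 0)‖ ≤ ‖T‖ := by
      intro i _
      have hD := taskProR2_norm_D (n := n) κ i
      have hT0 : 0 ≤ ‖T‖ := norm_nonneg T
      have e1 := norm_mul_le
        (Matrix.diagonal (fun j => if κ j = i then (1 : ℂ) else 0) * T)
        (Matrix.diagonal (fun j => if κ j = i then (1 : ℂ) else 0) : Matrix (Fin n) (Fin n) ℂ)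
      have e2 := norm_mul_le
        (Matrix.diagonal (fun j => if κ j = i then (1 : ℂ) else 0) : Matrix (Fin n) (Fin n) ℂ) T
      have e3 : ‖(Matrix.diagonal (fun j => if κ j = i then (1 : ℂ) else 0) :
          Matrix (Fin n) (Fin n) ℂ)‖ * ‖T‖ ≤ 1 * ‖T‖ := mul_le_mul_of_nonneg_right hD hT0
      have e4 : ‖Matrix.diagonal (fun j => if κ j = i then (1 : ℂ) else 0) * T‖ ≤ ‖T‖ := by
        linarith
      have e5 : ‖Matrix.diagonal (fun j => if κ j = i then (1 : ℂ) else 0) * T‖
          * ‖(Matrix.diagonal (fun j => if κ j = i then (1 : ℂ) else 0) :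
            Matrix (Fin n) (Fin n) ℂ)‖ ≤ ‖T‖ * 1 :=
        mul_le_mul e4 hD (norm_nonneg _) hT0
      linarith
    have h3 := Finset.sum_le_sum h2
    rw [Finset.sum_const, Finset.card_univ, Fintype.card_fin, nsmul_eq_mul] at h3
    exact h3
  exact le_trans (norm_sub_le _ _) (add_le_add hsum hdiag)

end Vale.Agent.Lib.P078
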