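import Vale.Agent.Lib.P078.ProDefs
import Vale.Agent.Lib.P078.Approx
import Vale.Agent.Lib.P078.HF.A3a
import Vale.Agent.Lib.P078.HF.A3b

namespace Vale.Agent.Lib.P078

open scoped InnerProductSpace Matrix.Norms.L2Operator
open ContinuousLinearMap Filter Topology

variable {H : Type*} [NormedAddCommGroup H] [InnerProductSpace ℂ H] [CompleteSpace H]

/-! ### R3 : traces of powers under a perturbation of small rank -/

theorem taskProR3_card_le {n : ℕ} (d : Fin n → ℝ) (Z : Matrix (Fin n) (Fin n) ℂ) {θ : ℝ}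
    (hZ : ‖Z‖ ≤ θ) (S : Finset (Fin n)) (hS : ∀ k ∈ S, θ < |d k|) :
    S.card ≤ (Matrix.diagonal (fun k => (d k : ℂ)) - Z).rank := by
  classical
  obtain ⟨M, hM⟩ : ∃ M, M = Matrix.diagonal (fun k => (d k : ℂ)) - Z := ⟨_, rfl⟩
  rw [← hM]
  have hθ : 0 ≤ θ := le_trans (norm_nonneg Z) hZ
  -- extension by zero
  let Φ : (S → ℂ) →ₗ[ℂ] (Fin n → ℂ) :=
    { toFun := fun c k => if h : k ∈ S then c ⟨k, h⟩ else 0
      map_add' := by
        intro c c'
        funext k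
        by_cases h : k ∈ S <;> simp [h]
      map_smul' := by
        intro a c
        funext k
        by_cases h : k ∈ S <;> simp [h] }
  have hΦin : ∀ (c : S → ℂ) (k : Fin n) (h : k ∈ S), Φ c k = c ⟨k, h⟩ := by
    intro c k h
    show (if h : k ∈ S then c ⟨k, h⟩ else 0) = c ⟨k, h⟩
    rw [dif_pos h]
  have hΦout : ∀ (c : S → ℂ) (k : Fin n), k ∉ S → Φ c k = 0 := by
    intro c k h
    show (if h : k ∈ S then c ⟨k, h⟩ else 0) = 0
    rw [dif_neg h]
  have hinj : Function.Injective (M.mulVecLin ∘ₗ Φ) := by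
    rw [← LinearMap.ker_eq_bot, LinearMap.ker_eq_bot']
    intro c hc
    have hc' : M.mulVec (Φ c) = 0 := hc
    obtain ⟨w, hw⟩ : ∃ w, w = Φ c := ⟨_, rfl⟩
    rw [← hw] at hc'
    have hDZ : ∀ k, (d k : ℂ) * w k = Z.mulVec w k := by
      intro k
      have h1 := congrFun hc' k
      rw [hM, Matrix.sub_mulVec, Pi.sub_apply, Matrix.mulVec_diagonal, Pi.zero_apply,
        sub_eq_zero] at h1
      exact h1
    have hnorm := Matrix.l2_opNorm_mulVec Z (WithLp.toLp 2 w)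
    have hnorm2 : ‖(EuclideanSpace.equiv (Fin n) ℂ).symm (Z.mulVec w)‖ ^ 2
        ≤ θ ^ 2 * ‖(WithLp.toLp 2 w : EuclideanSpace ℂ (Fin n))‖ ^ 2 := by
      have h2 : ‖(EuclideanSpace.equiv (Fin n) ℂ).symm (Z.mulVec w)‖
          ≤ θ * ‖(WithLp.toLp 2 w : EuclideanSpace ℂ (Fin n))‖ :=
        le_trans hnorm (mul_le_mul_of_nonneg_right hZ (norm_nonneg _))
      have h3 := pow_le_pow_left₀ (norm_nonneg _) h2 2
      rwa [mul_pow] at h3
    rw [EuclideanSpace.norm_sq_eq, EuclideanSpace.norm_sq_eq] at hnorm2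
    have hsum : ∑ k, (d k ^ 2 - θ ^ 2) * ‖w k‖ ^ 2 ≤ 0 := by
      have h4 : ∑ k, ‖((EuclideanSpace.equiv (Fin n) ℂ).symm (Z.mulVec w)) k‖ ^ 2
          = ∑ k, d k ^ 2 * ‖w k‖ ^ 2 := by
        refine Finset.sum_congr rfl (fun k _ => ?_)
        have h5 : ((EuclideanSpace.equiv (Fin n) ℂ).symm (Z.mulVec w)) k = Z.mulVec w k := rfl
        rw [h5, ← hDZ k, norm_mul, mul_pow, Complex.norm_real, Real.norm_eq_abs, sq_abs]
      have h6 : ∑ k, ‖(WithLp.toLp 2 w : EuclideanSpace ℂ (Fin n)) k‖ ^ 2 = ∑ k, ‖w k‖ ^ 2 := rfl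
      rw [h4, h6, Finset.mul_sum] at hnorm2
      have h7 : ∑ k, (d k ^ 2 - θ ^ 2) * ‖w k‖ ^ 2
          = ∑ k, d k ^ 2 * ‖w k‖ ^ 2 - ∑ k, θ ^ 2 * ‖w k‖ ^ 2 := by
        rw [← Finset.sum_sub_distrib]
        refine Finset.sum_congr rfl (fun k _ => ?_)
        ring
      rw [h7]
      linarith
    have hterm : ∀ k, 0 ≤ (d k ^ 2 - θ ^ 2) * ‖w k‖ ^ 2 := by
      intro k
      by_cases hk : k ∈ S
      · have h8 : θ ^ 2 < d k ^ 2 := by
          have h9 := hS k hk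
          have h10 : θ ^ 2 < |d k| ^ 2 := pow_lt_pow_left₀ h9 hθ (by norm_num)
          rwa [sq_abs] at h10
        exact mul_nonneg (by linarith) (sq_nonneg _)
      · rw [hw, hΦout c k hk, norm_zero]
        simp
    have hzero : ∀ k, (d k ^ 2 - θ ^ 2) * ‖w k‖ ^ 2 = 0 := by
      intro k
      have h11 := (Finset.sum_eq_zero_iff_of_nonneg (fun k _ => hterm k)).mp
        (le_antisymm hsum (Finset.sum_nonneg (fun k _ => hterm k)))
      exact h11 k (Finset.mem_univ k)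
    funext ⟨k, hk⟩
    have h12 := hzero k
    have h8 : θ ^ 2 < d k ^ 2 := by
      have h9 := hS k hk
      have h10 : θ ^ 2 < |d k| ^ 2 := pow_lt_pow_left₀ h9 hθ (by norm_num)
      rwa [sq_abs] at h10
    have h13 : ‖w k‖ ^ 2 = 0 := by
      rcases mul_eq_zero.mp h12 with h | h
      · linarith
      · exact h
    have h14 : w k = 0 := by
      have := pow_eq_zero_iff (n := 2) (by norm_num) |>.mp h13
      exact norm_eq_zero.mp this
    rw [hw, hΦin c k hk] at h14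
    exact h14
  have h1 : Module.finrank ℂ (LinearMap.range (M.mulVecLin ∘ₗ Φ)) = S.card := by
    rw [LinearMap.finrank_range_of_inj hinj, Module.finrank_fintype_fun_eq_card,
      Fintype.card_coe]
  have h2 : Module.finrank ℂ (LinearMap.range (M.mulVecLin ∘ₗ Φ))
      ≤ Module.finrank ℂ (LinearMap.range M.mulVecLin) :=
    Submodule.finrank_mono (LinearMap.range_comp_le_range Φ M.mulVecLin)
  rw [h1] at h2
  exact h2

theorem pro_trace_pow_le_of_rank {n : ℕ} (Y Y₀ : Matrix (Fin n) (Fin n) ℂ) (hY : Y.IsHermitian)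
    (hY₀ : Y₀.IsHermitian) {θ K : ℝ} (hθ : 0 ≤ θ) (hY₀n : ‖Y₀‖ ≤ θ) (hYn : ‖Y‖ ≤ K) (L : ℕ) :
    (Matrix.trace (Y ^ (2 * L))).re ≤
      n * θ ^ (2 * L) + 2 * ((Y - Y₀).rank : ℝ) * K ^ (2 * L) := by
  classical
  have _hY₀ := hY₀
  obtain ⟨U, hU⟩ : ∃ U : Matrix.unitaryGroup (Fin n) ℂ, U = hY.eigenvectorUnitary := ⟨_, rfl⟩
  obtain ⟨lam, hlam⟩ : ∃ lam : Fin n → ℝ, lam = hY.eigenvalues := ⟨_, rfl⟩
  obtain ⟨Dg, hDg⟩ : ∃ Dg : Matrix (Fin n) (Fin n) ℂ,
      Dg = Matrix.diagonal (fun k => (lam k : ℂ)) := ⟨_, rfl⟩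
  have hUU : star (U : Matrix (Fin n) (Fin n) ℂ) * (U : Matrix (Fin n) (Fin n) ℂ) = 1 :=
    Unitary.coe_star_mul_self U
  have hUU' : (U : Matrix (Fin n) (Fin n) ℂ) * star (U : Matrix (Fin n) (Fin n) ℂ) = 1 :=
    Unitary.coe_mul_star_self U
  have hspec : Y = (U : Matrix (Fin n) (Fin n) ℂ) * Dg * star (U : Matrix (Fin n) (Fin n) ℂ) := by
    have h := hY.spectral_theorem
    rw [Unitary.conjStarAlgAut_apply] at h
    rw [hU, hDg, hlam]
    exact h
  have hK : 0 ≤ K := le_trans (norm_nonneg Y) hYn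
  -- the norm of the diagonal part
  have hDnorm : ‖Dg‖ = ‖Y‖ := by
    rw [hspec]
    have h1 := CStarRing.norm_mul_coe_unitary ((U : Matrix (Fin n) (Fin n) ℂ) * Dg) (star U)
    have h2 := CStarRing.norm_coe_unitary_mul U Dg
    rw [Unitary.coe_star] at h1
    rw [h1, h2]
  have hlamK : ∀ k, |lam k| ≤ K := by
    intro k
    have h1 : ‖Dg‖ = ‖fun k => (lam k : ℂ)‖ := by
      rw [hDg]
      exact Matrix.l2_opNorm_diagonal _
    have h2 : ‖(lam k : ℂ)‖ ≤ ‖fun k => (lam k : ℂ)‖ := norm_le_pi_norm (fun k => (lam k : ℂ)) k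
    rw [Complex.norm_real, Real.norm_eq_abs] at h2
    rw [← h1, hDnorm] at h2
    exact le_trans h2 hYn
  -- the conjugated perturbation
  obtain ⟨Z, hZ⟩ : ∃ Z : Matrix (Fin n) (Fin n) ℂ,
      Z = star (U : Matrix (Fin n) (Fin n) ℂ) * Y₀ * (U : Matrix (Fin n) (Fin n) ℂ) := ⟨_, rfl⟩
  have hZnorm : ‖Z‖ ≤ θ := by
    have h1 := CStarRing.norm_mul_coe_unitary (star (U : Matrix (Fin n) (Fin n) ℂ) * Y₀) U
    have h2 := CStarRing.norm_coe_unitary_mul (star U) Y₀
    rw [Unitary.coe_star] at h2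
    rw [hZ, h1, h2]
    exact hY₀n
  have hDZ : Dg - Z = star (U : Matrix (Fin n) (Fin n) ℂ) * (Y - Y₀)
      * (U : Matrix (Fin n) (Fin n) ℂ) := by
    rw [hZ, Matrix.mul_sub, Matrix.sub_mul]
    congr 1
    rw [hspec]
    calc Dg = (star (U : Matrix (Fin n) (Fin n) ℂ) * (U : Matrix (Fin n) (Fin n) ℂ)) * Dg
          * (star (U : Matrix (Fin n) (Fin n) ℂ) * (U : Matrix (Fin n) (Fin n) ℂ)) := by
          rw [hUU, one_mul, mul_one]
      _ = star (U : Matrix (Fin n) (Fin n) ℂ) * ((U : Matrix (Fin n) (Fin n) ℂ) * Dg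
          * star (U : Matrix (Fin n) (Fin n) ℂ)) * (U : Matrix (Fin n) (Fin n) ℂ) := by
          simp only [mul_assoc]
  have hrank : (Dg - Z).rank ≤ (Y - Y₀).rank := by
    rw [hDZ]
    exact le_trans (Matrix.rank_mul_le_left _ _) (Matrix.rank_mul_le_right _ _)
  obtain ⟨S, hSdef⟩ : ∃ S : Finset (Fin n), S = Finset.univ.filter (fun k => θ < |lam k|) :=
    ⟨_, rfl⟩
  have hScard : S.card ≤ (Y - Y₀).rank := by
    have h1 := taskProR3_card_le lam Z hZnorm S (by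
      intro k hk
      rw [hSdef] at hk
      exact (Finset.mem_filter.mp hk).2)
    rw [← hDg] at h1
    exact le_trans h1 hrank
  -- the trace of the power
  have htrace : Matrix.trace (Y ^ (2 * L)) = ∑ k, (lam k : ℂ) ^ (2 * L) := by
    have hpow : ∀ m : ℕ, Y ^ m = (U : Matrix (Fin n) (Fin n) ℂ) * Dg ^ m
        * star (U : Matrix (Fin n) (Fin n) ℂ) := by
      intro m
      induction m with
      | zero => rw [pow_zero, pow_zero, mul_one, hUU']
      | succ m ih =>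
        rw [pow_succ, ih, pow_succ]
        conv_lhs => rw [hspec]
        calc (U : Matrix (Fin n) (Fin n) ℂ) * Dg ^ m * star (U : Matrix (Fin n) (Fin n) ℂ)
              * ((U : Matrix (Fin n) (Fin n) ℂ) * Dg * star (U : Matrix (Fin n) (Fin n) ℂ))
            = (U : Matrix (Fin n) (Fin n) ℂ) * Dg ^ m
              * (star (U : Matrix (Fin n) (Fin n) ℂ) * (U : Matrix (Fin n) (Fin n) ℂ)) * Dg
              * star (U : Matrix (Fin n) (Fin n) ℂ) := by
              simp only [mul_assoc]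
          _ = (U : Matrix (Fin n) (Fin n) ℂ) * (Dg ^ m * Dg)
              * star (U : Matrix (Fin n) (Fin n) ℂ) := by
              rw [hUU, mul_one]
              simp only [mul_assoc]
    rw [hpow, Matrix.trace_mul_cycle, hUU, one_mul, hDg, Matrix.diagonal_pow,
      Matrix.trace_diagonal]
    rfl
  have hre : (Matrix.trace (Y ^ (2 * L))).re = ∑ k, lam k ^ (2 * L) := by
    rw [htrace, Complex.re_sum]
    refine Finset.sum_congr rfl (fun k _ => ?_)
    rw [← Complex.ofReal_pow, Complex.ofReal_re]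
  rw [hre]
  have hterm : ∀ k, lam k ^ (2 * L) ≤ θ ^ (2 * L) + (if k ∈ S then K ^ (2 * L) else 0) := by
    intro k
    have habs : lam k ^ (2 * L) = |lam k| ^ (2 * L) := by
      rw [pow_mul, pow_mul, sq_abs]
    rw [habs]
    by_cases hk : k ∈ S
    · rw [if_pos hk]
      have h1 : |lam k| ^ (2 * L) ≤ K ^ (2 * L) :=
        pow_le_pow_left₀ (abs_nonneg _) (hlamK k) _
      have h2 : 0 ≤ θ ^ (2 * L) := pow_nonneg hθ _
      linarith
    · rw [if_neg hk, add_zero]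
      have h3 : |lam k| ≤ θ := by
        by_contra hcon
        apply hk
        rw [hSdef]
        exact Finset.mem_filter.mpr ⟨Finset.mem_univ k, lt_of_not_ge hcon⟩
      exact pow_le_pow_left₀ (abs_nonneg _) h3 _
  have hsum : ∑ k, lam k ^ (2 * L)
      ≤ ∑ k : Fin n, (θ ^ (2 * L) + (if k ∈ S then K ^ (2 * L) else 0)) :=
    Finset.sum_le_sum (fun k _ => hterm k)
  have hsum2 : ∑ k : Fin n, (θ ^ (2 * L) + (if k ∈ S then K ^ (2 * L) else 0))
      = n * θ ^ (2 * L) + (S.card : ℝ) * K ^ (2 * L) := by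
    rw [Finset.sum_add_distrib, Finset.sum_const, Finset.card_univ, Fintype.card_fin,
      nsmul_eq_mul, Finset.sum_ite_mem, Finset.univ_inter, Finset.sum_const, nsmul_eq_mul]
  rw [hsum2] at hsum
  have hK2 : 0 ≤ K ^ (2 * L) := pow_nonneg hK _
  have hScard' : (S.card : ℝ) ≤ ((Y - Y₀).rank : ℝ) := by exact_mod_cast hScard
  have hrk : 0 ≤ ((Y - Y₀).rank : ℝ) := Nat.cast_nonneg _
  have hfin : (S.card : ℝ) * K ^ (2 * L) ≤ 2 * ((Y - Y₀).rank : ℝ) * K ^ (2 * L) := by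
    apply mul_le_mul_of_nonneg_right _ hK2
    linarith
  linarith

end Vale.Agent.Lib.P078
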