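import Vale.Agent.Lib.P078.ProDefs
import Vale.Agent.Lib.P078.Approx
import Vale.Agent.Lib.P078.HF.A3a
import Vale.Agent.Lib.P078.HF.A3b
import Vale.Agent.Lib.P078.Pro.R1
import Vale.Agent.Lib.P078.Pro.R2
import Vale.Agent.Lib.P078.Pro.R3

namespace Vale.Agent.Lib.P078

open scoped InnerProductSpace Matrix.Norms.L2Operator
open ContinuousLinearMap Filter Topology

variable {H : Type*} [NormedAddCommGroup H] [InnerProductSpace ℂ H] [CompleteSpace H]

/-! ### R4 : paving a Hermitian matrix with a bound on a high moment -/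

/-- The paved matrix of a Hermitian matrix with a real diagonal correction is Hermitian. -/
lemma taskProR4_paved_hermitian {n r : ℕ} (T : Matrix (Fin n) (Fin n) ℂ) (hT : T.IsHermitian)
    (κ : Fin n → Fin r) (a : Fin n → ℝ) : (pavedMatrix T κ a).IsHermitian := by
  apply Matrix.IsHermitian.ext
  intro i j
  have h1 : star (T j i) = T i j := hT.apply i j
  have h2 : star ((a j : ℝ) : ℂ) = ((a j : ℝ) : ℂ) := Complex.conj_ofReal (a j)
  simp only [pavedMatrix, Matrix.of_apply, star_sub]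
  congr 1
  · by_cases hc : κ j = κ i
    · rw [if_pos hc, if_pos hc.symm, h1]
    · rw [if_neg hc, if_neg (fun h => hc h.symm), star_zero]
  · by_cases hij : j = i
    · subst hij
      rw [if_pos rfl, h2]
    · rw [if_neg hij, if_neg (fun h => hij h.symm), star_zero]

/-- The difference of two paved matrices with the same colouring and diagonal. -/
lemma taskProR4_paved_sub {n r : ℕ} (T T₀ : Matrix (Fin n) (Fin n) ℂ) (κ : Fin n → Fin r)
    (a : Fin n → ℝ) : pavedMatrix T κ a - pavedMatrix T₀ κ a = pavedMatrix (T - T₀) κ 0 := by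
  ext j k
  simp only [pavedMatrix, Matrix.sub_apply, Matrix.of_apply, Pi.zero_apply, Complex.ofReal_zero,
    ite_self, sub_zero]
  by_cases hc : κ j = κ k
  · rw [if_pos hc, if_pos hc, if_pos hc]
    ring
  · rw [if_neg hc, if_neg hc, if_neg hc]
    ring

theorem pro_matrix_paving {ε : ℝ} {r : ℕ} (hmp : MatrixPavable ε r) {n : ℕ}
    (T : Matrix (Fin n) (Fin n) ℂ) (hT : T.IsHermitian) {c : ℝ} (hc : 0 < c) (m L : ℕ) :
    ∃ (κ : Fin n → Fin r) (a : Fin n → ℝ), (∀ j, |a j| ≤ c) ∧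
      (Matrix.trace (pavedMatrix T κ a ^ (2 * L))).re ≤
        n * (ε * c) ^ (2 * L) +
          2 * r * ((Matrix.trace (T ^ (2 * m))).re / c ^ (2 * m)) * (r * ‖T‖ + c) ^ (2 * L) := by
  obtain ⟨hε, -⟩ := matrixPavable_nonneg hmp
  obtain ⟨T₀, hT₀, hT₀n, hrank⟩ := pro_matrix_clamp T hT hc m
  obtain ⟨κ, a, ha, hpav⟩ := hmp n T₀ hT₀
  have ha' : ∀ j, |a j| ≤ c := fun j => (ha j).trans hT₀n
  refine ⟨κ, a, ha', ?_⟩
  have hY : (pavedMatrix T κ a).IsHermitian := taskProR4_paved_hermitian T hT κ a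
  have hY₀ : (pavedMatrix T₀ κ a).IsHermitian := taskProR4_paved_hermitian T₀ hT₀ κ a
  have hθ : 0 ≤ ε * c := mul_nonneg hε hc.le
  have hY₀n : ‖pavedMatrix T₀ κ a‖ ≤ ε * c :=
    hpav.trans (mul_le_mul_of_nonneg_left hT₀n hε)
  have hYn : ‖pavedMatrix T κ a‖ ≤ r * ‖T‖ + c := pro_norm_paved_le T κ a hc.le ha'
  have hmain := pro_trace_pow_le_of_rank (pavedMatrix T κ a) (pavedMatrix T₀ κ a) hY hY₀ hθ
    hY₀n hYn L
  rw [taskProR4_paved_sub] at hmain
  have hr1 : ((pavedMatrix (T - T₀) κ 0).rank : ℝ) ≤ (r : ℝ) * ((T - T₀).rank : ℝ) := by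
    have h := pro_rank_block_le (T - T₀) κ
    exact_mod_cast h
  have hcpow : (0 : ℝ) < c ^ (2 * m) := pow_pos hc _
  have hr2 : ((T - T₀).rank : ℝ) ≤ (Matrix.trace (T ^ (2 * m))).re / c ^ (2 * m) :=
    (le_div_iff₀ hcpow).2 hrank
  have hr3 : ((pavedMatrix (T - T₀) κ 0).rank : ℝ)
      ≤ (r : ℝ) * ((Matrix.trace (T ^ (2 * m))).re / c ^ (2 * m)) :=
    hr1.trans (mul_le_mul_of_nonneg_left hr2 (Nat.cast_nonneg r))
  have hK : (0 : ℝ) ≤ (r * ‖T‖ + c) ^ (2 * L) :=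
    pow_nonneg (add_nonneg (mul_nonneg (Nat.cast_nonneg r) (norm_nonneg T)) hc.le) _
  have hfin : 2 * ((pavedMatrix (T - T₀) κ 0).rank : ℝ) * (r * ‖T‖ + c) ^ (2 * L)
      ≤ 2 * r * ((Matrix.trace (T ^ (2 * m))).re / c ^ (2 * m)) * (r * ‖T‖ + c) ^ (2 * L) := by
    have h := mul_le_mul_of_nonneg_right hr3 hK
    linarith
  linarith

end Vale.Agent.Lib.P078
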