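import Vale.Agent.Lib.P078.ProDefs
import Vale.Agent.Lib.P078.Approx
import Vale.Agent.Lib.P078.HF.A3a
import Vale.Agent.Lib.P078.HF.A3b
import Vale.Agent.Lib.P078.Pro.F1
import Vale.Agent.Lib.P078.Pro.F2
import Vale.Agent.Lib.P078.Pro.F3
import Vale.Agent.Lib.P078.Pro.F4

namespace Vale.Agent.Lib.P078

open scoped InnerProductSpace Matrix.Norms.L2Operator
open ContinuousLinearMap Filter Topology

variable {H : Type*} [NormedAddCommGroup H] [InnerProductSpace ℂ H] [CompleteSpace H]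

variable {Γ : Type} [Group Γ] {A M : VonNeumannAlgebra H} {Ω : H} {u : Γ → H →L[ℂ] H} {d : ℕ}
  {e : Fin d → H →L[ℂ] H} {σ : Γ → Fin d → Fin d}

/-! ### S1 : symmetrization of a formal sum -/

theorem pro_symm (hrep : IsProRep M u) (hlev : IsProLevel A Ω u e σ)
    (l : List ((Fin d → ℂ) × Γ)) :
    ∃ l' : List ((Fin d → ℂ) × Γ),
      proOp e u l' = (1 / 2 : ℂ) • (proOp e u l + star (proOp e u l)) ∧
      (proMat σ l').IsHermitian ∧
      l'.map Prod.snd = l.map Prod.snd ++ (l.map Prod.snd).map (fun γ => γ⁻¹) ∧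
      proSize l' ≤ proSize l := by
  have hσ1 : ∀ k, σ 1 k = k := fun k => pro_sigma_one hrep hlev k
  have hσm : ∀ γ β k, σ (γ * β) k = σ γ (σ β k) := fun γ β k => pro_sigma_mul hrep hlev γ β k
  refine ⟨proSmul (1 / 2 : ℂ) (l ++ proStar σ l), ?_, ?_, ?_, ?_⟩
  · rw [pro_op_smul, pro_op_append, pro_op_star hrep hlev]
  · rw [pro_mat_smul, pro_mat_append, pro_mat_star hσ1 hσm]
    unfold Matrix.IsHermitian
    rw [Matrix.conjTranspose_smul, Matrix.conjTranspose_add, Matrix.conjTranspose_conjTranspose,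
      add_comm]
    congr 1
    simp
  · rw [pro_snd_smul, List.map_append, pro_snd_star]
  · rw [pro_size_smul, pro_size_append]
    have h1 := pro_size_star_le σ l
    have h2 : ‖(1 / 2 : ℂ)‖ = 1 / 2 := by
      rw [norm_div, norm_one]
      simp
    rw [h2]
    linarith

end Vale.Agent.Lib.P078
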