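import Vale.Agent.Lib.P078.ProDefs
import Vale.Agent.Lib.P078.Approx
import Vale.Agent.Lib.P078.HF.A3a
import Vale.Agent.Lib.P078.HF.A3b
import Vale.Agent.Lib.P078.Pro.F2
import Vale.Agent.Lib.P078.Pro.L1

namespace Vale.Agent.Lib.P078

open scoped InnerProductSpace Matrix.Norms.L2Operator
open ContinuousLinearMap Filter Topology

variable {H : Type*} [NormedAddCommGroup H] [InnerProductSpace ℂ H] [CompleteSpace H]

variable {Γ : Type} [Group Γ] {A M : VonNeumannAlgebra H} {Ω : H} {u : Γ → H →L[ℂ] H}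
  {I : Type} {d : I → ℕ} {e : (i : I) → Fin (d i) → H →L[ℂ] H}
  {σ : (i : I) → Γ → Fin (d i) → Fin (d i)}

/-! ### S2 : the star algebra of all formal sums -/

theorem taskProS2_one (hrep : IsProRep M u) {d₀ : ℕ} {e₀ : Fin d₀ → H →L[ℂ] H}
    {σ₀ : Γ → Fin d₀ → Fin d₀} (hlev : IsProLevel A Ω u e₀ σ₀) :
    proOp e₀ u [((fun _ => (1 : ℂ)), (1 : Γ))] = 1 := by
  unfold proOp
  rw [List.map_cons, List.map_nil, List.sum_cons, List.sum_nil, add_zero]
  show proDiag e₀ (fun _ => 1) * u 1 = 1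
  rw [pro_diag_one hlev, hrep.1, one_mul]

theorem pro_exists_algebra (hAM : A ≤ M) (hsys : IsProSystem Γ A M Ω u d e σ) :
    ∃ B : StarSubalgebra ℂ (H →L[ℂ] H), (∀ b ∈ B, b ∈ M) ∧
      (∀ i (l : List ((Fin (d i) → ℂ) × Γ)), proOp (e i) u l ∈ B) ∧
      ∀ b ∈ B, ∃ i, ∃ l : List ((Fin (d i) → ℂ) × Γ), b = proOp (e i) u l := by
  obtain ⟨hI, hrep, hlev, href, -⟩ := hsys
  obtain ⟨i₀⟩ := hI
  have hadd : ∀ a b : H →L[ℂ] H,
      (∃ i, ∃ l : List ((Fin (d i) → ℂ) × Γ), a = proOp (e i) u l) →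
      (∃ i, ∃ l : List ((Fin (d i) → ℂ) × Γ), b = proOp (e i) u l) →
      ∃ i, ∃ l : List ((Fin (d i) → ℂ) × Γ), a + b = proOp (e i) u l := by
    rintro a b ⟨i, l, rfl⟩ ⟨j, l', rfl⟩
    obtain ⟨k, hik, hjk⟩ := href i j
    obtain ⟨l1, h1, -, -⟩ := pro_lift (hlev i) (hlev k) hik l
    obtain ⟨l2, h2, -, -⟩ := pro_lift (hlev j) (hlev k) hjk l'
    exact ⟨k, l1 ++ l2, by rw [pro_op_append, h1, h2]⟩
  have hmul : ∀ a b : H →L[ℂ] H,
      (∃ i, ∃ l : List ((Fin (d i) → ℂ) × Γ), a = proOp (e i) u l) →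
      (∃ i, ∃ l : List ((Fin (d i) → ℂ) × Γ), b = proOp (e i) u l) →
      ∃ i, ∃ l : List ((Fin (d i) → ℂ) × Γ), a * b = proOp (e i) u l := by
    rintro a b ⟨i, l, rfl⟩ ⟨j, l', rfl⟩
    obtain ⟨k, hik, hjk⟩ := href i j
    obtain ⟨l1, h1, -, -⟩ := pro_lift (hlev i) (hlev k) hik l
    obtain ⟨l2, h2, -, -⟩ := pro_lift (hlev j) (hlev k) hjk l'
    exact ⟨k, proMul (σ k) l1 l2, by rw [pro_op_mul hrep (hlev k), h1, h2]⟩
  refine ⟨{ carrier := {b | ∃ i, ∃ l : List ((Fin (d i) → ℂ) × Γ), b = proOp (e i) u l}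
            mul_mem' := fun {a b} ha hb => hmul a b ha hb
            one_mem' := ⟨i₀, _, (taskProS2_one hrep (hlev i₀)).symm⟩
            add_mem' := fun {a b} ha hb => hadd a b ha hb
            zero_mem' := ⟨i₀, [], rfl⟩
            algebraMap_mem' := fun c => ⟨i₀, proSmul c [((fun _ => (1 : ℂ)), (1 : Γ))], by
              rw [pro_op_smul, taskProS2_one hrep (hlev i₀), Algebra.algebraMap_eq_smul_one]⟩
            star_mem' := fun {a} ha => by
              obtain ⟨i, l, rfl⟩ := ha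
              exact ⟨i, proStar (σ i) l, (pro_op_star hrep (hlev i) l).symm⟩ }, ?_, ?_, ?_⟩
  · rintro b ⟨i, l, rfl⟩
    exact pro_op_mem hAM hrep (hlev i) l
  · intro i l
    exact ⟨i, l, rfl⟩
  · intro b hb
    exact hb

end Vale.Agent.Lib.P078
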