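import Vale.Agent.Lib.P078.ProDefs
import Vale.Agent.Lib.P078.Approx
import Vale.Agent.Lib.P078.HF.A3a
import Vale.Agent.Lib.P078.HF.A3b

namespace Vale.Agent.Lib.P078

open scoped InnerProductSpace Matrix.Norms.L2Operator
open ContinuousLinearMap Filter Topology

variable {H : Type*} [NormedAddCommGroup H] [InnerProductSpace ℂ H] [CompleteSpace H]

/-! ### Z1 : the level projection of a high power -/

theorem pro_level_projection (M : VonNeumannAlgebra H) (Ω : H) {y : H →L[ℂ] H} (hyM : y ∈ M)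
    (hy : IsSelfAdjoint y) {t : ℝ} (ht : 0 < t) (k : ℕ) :
    ∃ q ∈ M, IsStarProjection q ∧ ‖q * y * q‖ ≤ t ∧
      t ^ (2 * 2 ^ k) * ‖(1 - q) Ω‖ ^ 2 ≤ (⟪Ω, (y ^ (2 * 2 ^ k)) Ω⟫_ℂ).re := by
  obtain ⟨L, hL⟩ : ∃ L : ℕ, L = 2 ^ k := ⟨_, rfl⟩
  have hLne : L ≠ 0 := by rw [hL]; positivity
  have hyLM : y ^ L ∈ M := pow_mem hyM L
  have hyLsa : IsSelfAdjoint (y ^ L) := hy.pow L
  obtain ⟨g, hgM, hgp, hgcomm, hgnorm, hgv⟩ :=
    exists_level_projection_abs M hyLM hyLsa (pow_pos ht L)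
  have hyg : y * g = g * y := hgcomm y ((pow_succ' y L).symm.trans (pow_succ y L))
  obtain ⟨q, hq⟩ : ∃ q : H →L[ℂ] H, q = 1 - g := ⟨_, rfl⟩
  have hqp : IsStarProjection q := by rw [hq]; exact hgp.one_sub
  have hqM : q ∈ M := by rw [hq]; exact sub_mem (one_mem M) hgM
  have hqy : q * y = y * q := by rw [hq, mul_sub, sub_mul, mul_one, one_mul, hyg]
  have hqq : q * q = q := hqp.isIdempotentElem.eq
  have hqyq : q * y * q = q * y := by rw [mul_assoc, ← hqy, ← mul_assoc, hqq]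
  have hcomm : Commute q y := hqy
  have hqL : q ^ L = q := hqp.isIdempotentElem.pow_eq hLne
  have hqyL : q * y ^ L = y ^ L * q := (hcomm.pow_right L).eq
  have hpow : (q * y * q) ^ L = q * y ^ L * q := by
    rw [hqyq, hcomm.mul_pow, hqL, mul_assoc, ← hqyL, ← mul_assoc, hqq]
  have hsa : IsSelfAdjoint (q * y * q) := by
    have h1 : star (q * y * q) = q * y * q := by
      rw [star_mul, star_mul, hqp.isSelfAdjoint.star_eq, hy.star_eq, mul_assoc]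
    exact h1
  have hnorm : ‖q * y * q‖ ^ L ≤ t ^ L := by
    have h1 : ‖(q * y * q) ^ 2 ^ k‖ = ‖q * y * q‖ ^ 2 ^ k := hsa.norm_pow_two_pow k
    rw [hL, ← h1, ← hL, hpow, hq]
    exact hgnorm
  have hqnorm : ‖q * y * q‖ ≤ t :=
    le_of_pow_le_pow_left₀ hLne ht.le hnorm
  refine ⟨q, hqM, hqp, hqnorm, ?_⟩
  have h1q : (1 : H →L[ℂ] H) - q = g := by rw [hq]; abel
  have hgΩ : t ^ L * ‖g Ω‖ ≤ ‖(y ^ L) Ω‖ := hgv Ω
  have hinner : (⟪Ω, (y ^ (2 * 2 ^ k)) Ω⟫_ℂ).re = ‖(y ^ L) Ω‖ ^ 2 := by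
    have h2 : y ^ (2 * 2 ^ k) = y ^ L * y ^ L := by rw [← hL, two_mul, pow_add]
    have h3 : star (y ^ L) = y ^ L := hyLsa.star_eq
    have h5 : (y ^ L * y ^ L) Ω = (y ^ L) ((y ^ L) Ω) := rfl
    rw [h2, h5]
    nth_rewrite 1 [← h3]
    rw [ContinuousLinearMap.star_eq_adjoint, ContinuousLinearMap.adjoint_inner_right]
    exact inner_self_eq_norm_sq (𝕜 := ℂ) _
  rw [hinner, h1q, ← hL]
  have h4 : t ^ (2 * L) * ‖g Ω‖ ^ 2 = (t ^ L * ‖g Ω‖) ^ 2 := by ring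
  rw [h4]
  exact pow_le_pow_left₀ (by positivity) hgΩ 2

end Vale.Agent.Lib.P078
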