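import Vale.Agent.Lib.P078.ProDefs
import Vale.Agent.Lib.P078.Approx
import Vale.Agent.Lib.P078.HF.A3a
import Vale.Agent.Lib.P078.HF.A3b
import Vale.Agent.Lib.P078.Pro.R4
import Vale.Agent.Lib.P078.Pro.F5
import Vale.Agent.Lib.P078.Pro.F6
import Vale.Agent.Lib.P078.Pro.Z1

namespace Vale.Agent.Lib.P078

open scoped InnerProductSpace Matrix.Norms.L2Operator
open ContinuousLinearMap Filter Topology

variable {H : Type*} [NormedAddCommGroup H] [InnerProductSpace ℂ H] [CompleteSpace H]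

/-! ### Z2 : paving at one level, measured at Ω -/

/-- The real part of a complex number divided by a natural number. -/
lemma taskProZ2_re_inv_mul (d : ℕ) (z : ℂ) : (((d : ℂ))⁻¹ * z).re = z.re / d := by
  have h : ((d : ℂ))⁻¹ = (((d : ℝ)⁻¹ : ℝ) : ℂ) := by
    rw [Complex.ofReal_inv, Complex.ofReal_natCast]
  rw [h, Complex.re_ofReal_mul, div_eq_inv_mul]

omit [CompleteSpace H] in
/-- The vector state of a unit vector is bounded by the norm. -/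
lemma taskProZ2_norm_inner_le {Ω : H} (hΩ1 : ‖Ω‖ = 1) (z : H →L[ℂ] H) :
    ‖⟪Ω, z Ω⟫_ℂ‖ ≤ ‖z‖ := by
  have h1 : ‖⟪Ω, z Ω⟫_ℂ‖ ≤ ‖Ω‖ * ‖z Ω‖ := norm_inner_le_norm _ _
  have h2 : ‖z Ω‖ ≤ ‖z‖ * ‖Ω‖ := z.le_opNorm Ω
  rw [hΩ1, one_mul] at h1
  rw [hΩ1, mul_one] at h2
  exact h1.trans h2

omit [CompleteSpace H] in
/-- The norm of a power of an operator (also on the zero space). -/
lemma taskProZ2_norm_pow_le (x : H →L[ℂ] H) (n : ℕ) : ‖x ^ n‖ ≤ ‖x‖ ^ n := by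
  rcases Nat.eq_zero_or_pos n with hn | hn
  · rw [hn, pow_zero, pow_zero]
    exact ContinuousLinearMap.norm_id_le
  · exact norm_pow_le' x hn

/-- The arithmetic of the core estimate. -/
lemma taskProZ2_arith {trT trY τ1 τ2 E P1 P2 c2m Q dd rr δ U1 U2 W2 : ℝ} (hdd : 0 < dd)
    (hrr : 0 ≤ rr) (hc2m : 0 < c2m) (hδ : 0 ≤ δ) (hP1 : 0 ≤ P1) (hP12 : P1 ≤ P2) (hQ : 0 ≤ Q)
    (hY : trY ≤ dd * E + 2 * rr * (trT / c2m) * P1)
    (h1 : trT / dd ≤ τ1 + 2 * δ * U1) (hτ1 : τ1 + 2 * δ * U1 ≤ Q)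
    (h2 : τ2 ≤ trY / dd + 2 * δ * U2) (hU2 : U2 ≤ W2) :
    τ2 ≤ E + 2 * rr * (Q / c2m) * P2 + 2 * δ * W2 := by
  have hA : trT / dd ≤ Q := h1.trans hτ1
  have hB : trY / dd ≤ E + 2 * rr * (trT / dd / c2m) * P1 := by
    rw [div_le_iff₀ hdd]
    have e : (E + 2 * rr * (trT / dd / c2m) * P1) * dd
        = dd * E + 2 * rr * (trT / c2m) * P1 := by
      field_simp
    rw [e]
    exact hY
  have hC : 2 * rr * (trT / dd / c2m) * P1 ≤ 2 * rr * (Q / c2m) * P1 := by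
    have h3 : trT / dd / c2m ≤ Q / c2m := div_le_div_of_nonneg_right hA hc2m.le
    exact mul_le_mul_of_nonneg_right
      (mul_le_mul_of_nonneg_left h3 (mul_nonneg zero_le_two hrr)) hP1
  have hD : 2 * rr * (Q / c2m) * P1 ≤ 2 * rr * (Q / c2m) * P2 :=
    mul_le_mul_of_nonneg_left hP12
      (mul_nonneg (mul_nonneg zero_le_two hrr) (div_nonneg hQ hc2m.le))
  have hE : 2 * δ * U2 ≤ 2 * δ * W2 :=
    mul_le_mul_of_nonneg_left hU2 (mul_nonneg zero_le_two hδ)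
  linarith

theorem pro_level_paving {Γ : Type} [Group Γ] {A M : VonNeumannAlgebra H} {Ω : H}
    {u : Γ → H →L[ℂ] H} {d : ℕ} {e : Fin d → H →L[ℂ] H} {σ : Γ → Fin d → Fin d}
    (hAM : A ≤ M) (hΩ : IsTraceVector M Ω) (hrep : IsProRep M u)
    (hlev : IsProLevel A Ω u e σ) {ε : ℝ} {r : ℕ} (hmp : MatrixPavable ε r)
    (l : List ((Fin d → ℂ) × Γ)) (hsa : IsSelfAdjoint (proOp e u l))
    (hher : (proMat σ l).IsHermitian) {c ν S t δ : ℝ} (hc : 0 < c) (ht : 0 < t) (hδ : 0 ≤ δ)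
    (hν : ‖proOp e u l‖ ≤ ν) (hS : proSize l ≤ S) (m k : ℕ)
    (hfix1 : ∀ γ ∈ proWords (l.map Prod.snd) (2 * m), γ = 1 ∨ (proFix σ γ : ℝ) ≤ δ * d)
    (hfix2 : ∀ γ ∈ proWords (l.map Prod.snd ++ [1]) (2 * 2 ^ k),
      γ = 1 ∨ (proFix σ γ : ℝ) ≤ δ * d) :
    ∃ (p : Fin r → H →L[ℂ] H) (a q : H →L[ℂ] H), IsPartitionIn A p ∧ a ∈ A ∧
      IsSelfAdjoint a ∧ ‖a‖ ≤ c ∧ q ∈ M ∧ IsStarProjection q ∧
      ‖q * (pinching p (proOp e u l) - a) * q‖ ≤ t ∧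
      t ^ (2 * 2 ^ k) * ‖(1 - q) Ω‖ ^ 2 ≤
        (ε * c) ^ (2 * 2 ^ k) +
          2 * r * ((ν ^ (2 * m) + 2 * δ * S ^ (2 * m)) / c ^ (2 * m)) *
            (r * S + c) ^ (2 * 2 ^ k) +
          2 * δ * (S + c) ^ (2 * 2 ^ k) := by
  have hΩ1 : ‖Ω‖ = 1 := hΩ.1
  have hd : 0 < d := pro_d_pos hlev hΩ1
  have hdR : (0 : ℝ) < (d : ℝ) := Nat.cast_pos.mpr hd
  have hσ1 : ∀ j, σ 1 j = j := pro_sigma_one hrep hlev
  have hσm : ∀ γ β j, σ (γ * β) j = σ γ (σ β j) := pro_sigma_mul hrep hlev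
  obtain ⟨T, hT⟩ : ∃ T : Matrix (Fin d) (Fin d) ℂ, T = proMat σ l := ⟨_, rfl⟩
  rw [← hT] at hher
  obtain ⟨κ, a, ha, hY⟩ := pro_matrix_paving hmp T hher hc m (2 ^ k)
  obtain ⟨lp, hlp⟩ : ∃ lp : List ((Fin d → ℂ) × Γ), lp = proPaved σ κ a l := ⟨_, rfl⟩
  have hmatp : proMat σ lp = pavedMatrix T κ a := by
    rw [hlp, hT]
    exact pro_mat_paved hσ1 hσm κ a l
  have hpart : IsPartitionIn A (proBlock e κ) := pro_block_partition hlev κ
  obtain ⟨haop_sa, haop_norm⟩ := pro_diag_real hlev a hc.le ha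
  have haopA : proDiag e (fun j => (a j : ℂ)) ∈ A := pro_diag_mem hlev _
  have hyeq : proOp e u lp
      = pinching (proBlock e κ) (proOp e u l) - proDiag e (fun j => (a j : ℂ)) := by
    rw [hlp]
    exact pro_op_paved hrep hlev κ a l
  have hyM : proOp e u lp ∈ M := pro_op_mem hAM hrep hlev lp
  have hysa : IsSelfAdjoint (proOp e u lp) := by
    rw [hyeq]
    exact (isSelfAdjoint_pinching _ (fun i => (hpart.1 i).2.isSelfAdjoint) hsa).sub haop_sa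
  obtain ⟨q, hqM, hqp, hqy, hqΩ⟩ := pro_level_projection M Ω hyM hysa ht k
  refine ⟨proBlock e κ, proDiag e (fun j => (a j : ℂ)), q, hpart, haopA, haop_sa, haop_norm,
    hqM, hqp, ?_, ?_⟩
  · rw [← hyeq]
    exact hqy
  · -- comparison of the moments
    have hm1 := pro_moment_compare hAM hΩ hrep hlev l (2 * m) hδ hfix1
    rw [← hT] at hm1
    have hfix2' : ∀ γ ∈ proWords (lp.map Prod.snd) (2 * 2 ^ k),
        γ = 1 ∨ (proFix σ γ : ℝ) ≤ δ * d := by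
      rw [hlp, pro_snd_paved σ κ a l]
      exact hfix2
    have hm2 := pro_moment_compare hAM hΩ hrep hlev lp (2 * 2 ^ k) hδ hfix2'
    rw [hmatp] at hm2
    -- sizes
    have hsz0 : 0 ≤ proSize l := pro_size_nonneg l
    have hS0 : 0 ≤ S := hsz0.trans hS
    have hszp0 : 0 ≤ proSize lp := pro_size_nonneg lp
    have hszp : proSize lp ≤ S + c := by
      rw [hlp]
      exact (pro_size_paved_le σ κ a hc.le ha l).trans (by linarith)
    have hTn : ‖T‖ ≤ S := by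
      rw [hT]
      exact (pro_mat_norm_le hσ1 hσm l).trans hS
    have hν0 : 0 ≤ ν := (norm_nonneg _).trans hν
    -- the first moment inequality
    have h1 : (Matrix.trace (T ^ (2 * m))).re / d
        ≤ (⟪Ω, (proOp e u l ^ (2 * m)) Ω⟫_ℂ).re + 2 * δ * proSize l ^ (2 * m) := by
      have h3 := (Complex.abs_re_le_norm _).trans hm1
      rw [Complex.sub_re, taskProZ2_re_inv_mul] at h3
      have h4 := neg_abs_le ((⟪Ω, (proOp e u l ^ (2 * m)) Ω⟫_ℂ).re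
        - (Matrix.trace (T ^ (2 * m))).re / d)
      linarith
    have hτ1 : (⟪Ω, (proOp e u l ^ (2 * m)) Ω⟫_ℂ).re + 2 * δ * proSize l ^ (2 * m)
        ≤ ν ^ (2 * m) + 2 * δ * S ^ (2 * m) := by
      have h3 : (⟪Ω, (proOp e u l ^ (2 * m)) Ω⟫_ℂ).re ≤ ν ^ (2 * m) :=
        (Complex.re_le_norm _).trans ((taskProZ2_norm_inner_le hΩ1 _).trans
          ((taskProZ2_norm_pow_le _ _).trans (pow_le_pow_left₀ (norm_nonneg _) hν _)))
      have h4 : proSize l ^ (2 * m) ≤ S ^ (2 * m) := pow_le_pow_left₀ hsz0 hS _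
      have h5 : 2 * δ * proSize l ^ (2 * m) ≤ 2 * δ * S ^ (2 * m) :=
        mul_le_mul_of_nonneg_left h4 (mul_nonneg zero_le_two hδ)
      linarith
    -- the second moment inequality
    have h2 : (⟪Ω, (proOp e u lp ^ (2 * 2 ^ k)) Ω⟫_ℂ).re
        ≤ (Matrix.trace (pavedMatrix T κ a ^ (2 * 2 ^ k))).re / d
          + 2 * δ * proSize lp ^ (2 * 2 ^ k) := by
      have h3 := (Complex.abs_re_le_norm _).trans hm2
      rw [Complex.sub_re, taskProZ2_re_inv_mul] at h3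
      have h4 := le_abs_self ((⟪Ω, (proOp e u lp ^ (2 * 2 ^ k)) Ω⟫_ℂ).re
        - (Matrix.trace (pavedMatrix T κ a ^ (2 * 2 ^ k))).re / d)
      linarith
    have hU2 : proSize lp ^ (2 * 2 ^ k) ≤ (S + c) ^ (2 * 2 ^ k) :=
      pow_le_pow_left₀ hszp0 hszp _
    have hr0 : (0 : ℝ) ≤ (r : ℝ) := Nat.cast_nonneg r
    have hP1 : 0 ≤ ((r : ℝ) * ‖T‖ + c) ^ (2 * 2 ^ k) :=
      pow_nonneg (add_nonneg (mul_nonneg hr0 (norm_nonneg _)) hc.le) _
    have hP12 : ((r : ℝ) * ‖T‖ + c) ^ (2 * 2 ^ k) ≤ ((r : ℝ) * S + c) ^ (2 * 2 ^ k) :=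
      pow_le_pow_left₀ (add_nonneg (mul_nonneg hr0 (norm_nonneg _)) hc.le)
        (by linarith [mul_le_mul_of_nonneg_left hTn hr0]) _
    have hQ : 0 ≤ ν ^ (2 * m) + 2 * δ * S ^ (2 * m) :=
      add_nonneg (pow_nonneg hν0 _) (mul_nonneg (mul_nonneg zero_le_two hδ) (pow_nonneg hS0 _))
    exact hqΩ.trans (taskProZ2_arith hdR hr0 (pow_pos hc (2 * m)) hδ hP1 hP12 hQ hY h1 hτ1
      h2 hU2)

end Vale.Agent.Lib.P078
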