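import Vale.Agent.Lib.P078.ProDefs
import Vale.Agent.Lib.P078.Approx
import Vale.Agent.Lib.P078.HF.A3a
import Vale.Agent.Lib.P078.HF.A3b

namespace Vale.Agent.Lib.P078

open scoped InnerProductSpace Matrix.Norms.L2Operator
open ContinuousLinearMap Filter Topology

variable {H : Type*} [NormedAddCommGroup H] [InnerProductSpace ℂ H] [CompleteSpace H]

/-! ### Z3 : the choice of the constants -/

theorem taskProZ3_frac_le (B Q : ℝ) (hB : 0 ≤ B) (hQ : 0 ≤ Q) : B / (Q + 1) * Q ≤ B := by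
  have hQ1 : 0 < Q + 1 := by linarith
  rw [div_mul_eq_mul_div, div_le_iff₀ hQ1]
  nlinarith

theorem pro_constants {ε ε₁ c ν S η : ℝ} (r : ℕ) (hε : 0 ≤ ε) (hεε₁ : ε < ε₁) (hν : 0 ≤ ν)
    (hνc : ν < c) (hS : 0 ≤ S) (hη : 0 < η) :
    ∃ (k m : ℕ) (δ : ℝ), 0 < δ ∧
      (ε * c) ^ (2 * 2 ^ k) +
          2 * r * ((ν ^ (2 * m) + 2 * δ * S ^ (2 * m)) / c ^ (2 * m)) *
            (r * S + c) ^ (2 * 2 ^ k) +
          2 * δ * (S + c) ^ (2 * 2 ^ k) ≤ (ε₁ * c) ^ (2 * 2 ^ k) * η ^ 2 := by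
  have hc : 0 < c := lt_of_le_of_lt hν hνc
  have hε₁ : 0 < ε₁ := lt_of_le_of_lt hε hεε₁
  have hη2 : 0 < η ^ 2 / 3 := by positivity
  -- the exponent `L = 2 * 2 ^ k`
  have hx0 : 0 ≤ ε / ε₁ := div_nonneg hε hε₁.le
  have hx1 : ε / ε₁ < 1 := (div_lt_one hε₁).2 hεε₁
  obtain ⟨n1, hn1⟩ := exists_pow_lt_of_lt_one hη2 hx1
  have hle : n1 ≤ 2 * 2 ^ n1 := by
    have h := Nat.lt_two_pow_self (n := n1)
    omega
  have hk : (ε / ε₁) ^ (2 * 2 ^ n1) ≤ η ^ 2 / 3 :=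
    (pow_le_pow_of_le_one hx0 hx1.le hle).trans hn1.le
  obtain ⟨L, hL⟩ : ∃ L : ℕ, L = 2 * 2 ^ n1 := ⟨_, rfl⟩
  rw [← hL] at hk
  obtain ⟨B, hBdef⟩ : ∃ B : ℝ, B = (ε₁ * c) ^ L * (η ^ 2 / 3) := ⟨_, rfl⟩
  have hB : 0 < B := by
    rw [hBdef]
    positivity
  have h1 : (ε * c) ^ L ≤ B := by
    have e : ε * c = (ε / ε₁) * (ε₁ * c) := by
      field_simp
    rw [e, mul_pow, hBdef, mul_comm ((ε₁ * c) ^ L)]
    exact mul_le_mul_of_nonneg_right hk (by positivity)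
  -- the exponent `m`
  obtain ⟨K, hK⟩ : ∃ K : ℝ, K = 2 * r * (r * S + c) ^ L := ⟨_, rfl⟩
  have hK0 : 0 ≤ K := by
    rw [hK]
    positivity
  have hy0 : 0 ≤ ν / c := div_nonneg hν hc.le
  have hy1 : ν / c < 1 := (div_lt_one hc).2 hνc
  have hBK : 0 < B / (K + 1) := div_pos hB (by linarith)
  obtain ⟨n2, hn2⟩ := exists_pow_lt_of_lt_one hBK hy1
  have hm : (ν / c) ^ (2 * n2) ≤ B / (K + 1) :=
    (pow_le_pow_of_le_one hy0 hy1.le (by omega)).trans hn2.le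
  have h2 : K * (ν / c) ^ (2 * n2) ≤ B := by
    have h3 : K * (ν / c) ^ (2 * n2) ≤ K * (B / (K + 1)) := mul_le_mul_of_nonneg_left hm hK0
    have h4 := taskProZ3_frac_le B K hB.le hK0
    linarith
  -- the number `δ`
  obtain ⟨Q, hQ⟩ : ∃ Q : ℝ, Q = 4 * r * (S ^ (2 * n2) / c ^ (2 * n2)) * (r * S + c) ^ L
      + 2 * (S + c) ^ L := ⟨_, rfl⟩
  have hQ0 : 0 ≤ Q := by
    rw [hQ]
    positivity
  have hδ : 0 < B / (Q + 1) := div_pos hB (by linarith)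
  refine ⟨n1, n2, B / (Q + 1), hδ, ?_⟩
  rw [← hL]
  have h3 := taskProZ3_frac_le B Q hB.le hQ0
  have e2 : ν ^ (2 * n2) / c ^ (2 * n2) = (ν / c) ^ (2 * n2) := (div_pow ν c _).symm
  have key : (ε * c) ^ L +
      2 * r * ((ν ^ (2 * n2) + 2 * (B / (Q + 1)) * S ^ (2 * n2)) / c ^ (2 * n2)) *
        (r * S + c) ^ L + 2 * (B / (Q + 1)) * (S + c) ^ L
      = (ε * c) ^ L + K * (ν / c) ^ (2 * n2) + B / (Q + 1) * Q := by
    rw [hK, hQ, ← e2]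
    ring
  rw [key]
  have e3 : (ε₁ * c) ^ L * η ^ 2 = 3 * B := by
    rw [hBdef]
    ring
  rw [e3]
  linarith

end Vale.Agent.Lib.P078
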