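import Vale.Agent.Lib.P078.ProDefs
import Vale.Agent.Lib.P078.Approx
import Vale.Agent.Lib.P078.HF.A3a
import Vale.Agent.Lib.P078.HF.A3b
import Vale.Agent.Lib.P078.Pro.L1
import Vale.Agent.Lib.P078.Pro.L3
import Vale.Agent.Lib.P078.Pro.S1
import Vale.Agent.Lib.P078.Pro.Z2
import Vale.Agent.Lib.P078.Pro.Z3

namespace Vale.Agent.Lib.P078

open scoped InnerProductSpace Matrix.Norms.L2Operator
open ContinuousLinearMap Filter Topology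

variable {H : Type*} [NormedAddCommGroup H] [InnerProductSpace ℂ H] [CompleteSpace H]

/-! ### Z4 : pavings of formal sums, measured at Ω -/

theorem pro_omega_paving {Γ : Type} [Group Γ] {A M : VonNeumannAlgebra H} {Ω : H}
    {u : Γ → H →L[ℂ] H} {I : Type} {d : I → ℕ} {e : (i : I) → Fin (d i) → H →L[ℂ] H}
    {σ : (i : I) → Γ → Fin (d i) → Fin (d i)} (hAM : A ≤ M) (hΩ : IsTraceVector M Ω)
    (hsys : IsProSystem Γ A M Ω u d e σ) {ε ε₁ : ℝ} {r : ℕ} (hmp : MatrixPavable ε r)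
    (hεε₁ : ε < ε₁) (i₀ : I) (l₀ : List ((Fin (d i₀) → ℂ) × Γ))
    (hsa : IsSelfAdjoint (proOp (e i₀) u l₀)) {c η : ℝ} (hc : ‖proOp (e i₀) u l₀‖ < c)
    (hη : 0 < η) :
    ∃ (p : Fin r → H →L[ℂ] H) (a q : H →L[ℂ] H), IsPartitionIn A p ∧ a ∈ A ∧
      IsSelfAdjoint a ∧ ‖a‖ ≤ c ∧ q ∈ M ∧ IsStarProjection q ∧ ‖(1 - q) Ω‖ ≤ η ∧
      ‖q * (pinching p (proOp (e i₀) u l₀) - a) * q‖ ≤ ε₁ * c := by
  have hε : 0 ≤ ε := (matrixPavable_nonneg hmp).1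
  have hc0 : 0 < c := lt_of_le_of_lt (norm_nonneg _) hc
  have hε₁ : 0 < ε₁ := lt_of_le_of_lt hε hεε₁
  have ht : 0 < ε₁ * c := mul_pos hε₁ hc0
  obtain ⟨k, m, δ, hδ, hconst⟩ :=
    pro_constants r hε hεε₁ (norm_nonneg (proOp (e i₀) u l₀)) hc (pro_size_nonneg l₀) hη
  obtain ⟨g₀, hg₀⟩ : ∃ g₀ : List Γ,
      g₀ = l₀.map Prod.snd ++ (l₀.map Prod.snd).map (fun γ => γ⁻¹) := ⟨_, rfl⟩
  obtain ⟨j, href, hfix⟩ := pro_exists_level hΩ.1 hsys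
    (proWords g₀ (2 * m) ++ proWords (g₀ ++ [1]) (2 * 2 ^ k)) hδ i₀
  have hrep : IsProRep M u := hsys.2.1
  have hlev0 : IsProLevel A Ω u (e i₀) (σ i₀) := hsys.2.2.1 i₀
  have hlevj : IsProLevel A Ω u (e j) (σ j) := hsys.2.2.1 j
  obtain ⟨l1, hop1, hsnd1, hsize1⟩ := pro_lift hlev0 hlevj href l₀
  obtain ⟨l2, hop2, hher2, hsnd2, hsize2⟩ := pro_symm hrep hlevj l1
  have hstar : star (proOp (e i₀) u l₀) = proOp (e i₀) u l₀ := hsa.star_eq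
  have hop : proOp (e j) u l2 = proOp (e i₀) u l₀ := by
    rw [hop2, hop1, hstar, ← two_smul ℂ (proOp (e i₀) u l₀), smul_smul]
    norm_num
  have hsnd : l2.map Prod.snd = g₀ := by
    rw [hsnd2, hsnd1, hg₀]
  have hsa2 : IsSelfAdjoint (proOp (e j) u l2) := by
    rw [hop]
    exact hsa
  have hν2 : ‖proOp (e j) u l2‖ ≤ ‖proOp (e i₀) u l₀‖ := by
    rw [hop]
  have hS2 : proSize l2 ≤ proSize l₀ := le_trans hsize2 hsize1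
  have hfix1 : ∀ γ ∈ proWords (l2.map Prod.snd) (2 * m),
      γ = 1 ∨ (proFix (σ j) γ : ℝ) ≤ δ * d j := by
    intro γ hγ
    rw [hsnd] at hγ
    exact hfix γ (List.mem_append_left _ hγ)
  have hfix2 : ∀ γ ∈ proWords (l2.map Prod.snd ++ [1]) (2 * 2 ^ k),
      γ = 1 ∨ (proFix (σ j) γ : ℝ) ≤ δ * d j := by
    intro γ hγ
    rw [hsnd] at hγ
    exact hfix γ (List.mem_append_right _ hγ)
  obtain ⟨p, a, q, hp, haA, hasa, hac, hqM, hq, hpin, hmeas⟩ :=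
    pro_level_paving hAM hΩ hrep hlevj hmp l2 hsa2 hher2 hc0 ht hδ.le hν2 hS2 m k hfix1 hfix2
  refine ⟨p, a, q, hp, haA, hasa, hac, hqM, hq, ?_, ?_⟩
  · have hpow : 0 < (ε₁ * c) ^ (2 * 2 ^ k) := pow_pos ht _
    have h1 : (ε₁ * c) ^ (2 * 2 ^ k) * ‖(1 - q) Ω‖ ^ 2 ≤ (ε₁ * c) ^ (2 * 2 ^ k) * η ^ 2 :=
      le_trans hmeas hconst
    have h2 : ‖(1 - q) Ω‖ ^ 2 ≤ η ^ 2 := le_of_mul_le_mul_left h1 hpow
    exact abs_le_of_sq_le_sq' h2 hη.le |>.2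
  · rw [hop] at hpin
    exact hpin

end Vale.Agent.Lib.P078
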