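import Vale.Agent.Lib.P078.ProDefs
import Vale.Agent.Lib.P078.Approx
import Vale.Agent.Lib.P078.HF.A3a
import Vale.Agent.Lib.P078.HF.A3b
import Vale.Agent.Lib.P078.Pro.K
import Vale.Agent.Lib.P078.Pro.G
import Vale.Agent.Lib.P078.Pro.S2
import Vale.Agent.Lib.P078.Pro.Z4

namespace Vale.Agent.Lib.P078

open scoped InnerProductSpace Matrix.Norms.L2Operator
open ContinuousLinearMap Filter Topology

variable {H : Type*} [NormedAddCommGroup H] [InnerProductSpace ℂ H] [CompleteSpace H]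

/-! ### Z5 : so-paving of crossed products by free profinite actions -/

theorem pro_soPavable {Γ : Type} [Group Γ] (A M : VonNeumannAlgebra H) (Ω : H) (hAM : A ≤ M)
    (hΩ : IsTraceVector M Ω) (hsep : IsSeparating M Ω) (hpro : IsProfiniteOver Γ A M Ω)
    {ε ε' : ℝ} {r : ℕ} (hεε' : ε < ε') (hmp : MatrixPavable ε r) (x : H →L[ℂ] H)
    (hxM : x ∈ M) (hx : IsSelfAdjoint x) : SoPavable A M x ε' r := by
  classical
  obtain ⟨u, I, d, e, σ, hsys, hdense⟩ := hpro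
  obtain ⟨hε, ⟨i₀⟩⟩ := matrixPavable_nonneg hmp
  by_cases hx0 : x = 0
  · subst hx0
    intro F δ hδ
    refine ⟨_, 0, 1, isPartitionIn_of_coloring A (fun _ : Unit => (1 : H →L[ℂ] H))
      (fun _ => one_mem A) (fun _ => IsStarProjection.one _)
      (fun j k h => absurd (Subsingleton.elim j k) h) (by simp) (fun _ => i₀), zero_mem A,
      IsSelfAdjoint.zero _, le_refl _, one_mem M, IsStarProjection.one _, ?_, ?_⟩
    · intro ξ _
      simpa using hδ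
    · simp [pinching]
  obtain ⟨B, hBM, hBop, hBrep⟩ := pro_exists_algebra hAM hsys
  obtain ⟨ε1, hε1⟩ : ∃ ε1 : ℝ, ε1 = (ε + ε') / 2 := ⟨_, rfl⟩
  have hεε1 : ε < ε1 := by rw [hε1]; linarith
  have hε1ε' : ε1 < ε' := by rw [hε1]; linarith
  have hε10 : 0 ≤ ε1 := hε.trans hεε1.le
  have hcen : IsCentralizing A M Ω := isCentralizing_of_isTraceVector A M hAM hΩ
  have hdenseB : ∀ y ∈ M, ∀ η : ℝ, 0 < η → ∃ b ∈ B, ‖(y - b) Ω‖ ≤ η := by
    intro y hy η hη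
    obtain ⟨i, l, hl⟩ := hdense y hy η hη
    exact ⟨_, hBop i l, hl⟩
  refine pro_soPavable_of_omega_pavings hε10 hε1ε' A M hAM hcen hsep x hxM hx hx0 ?_
  intro η hη
  obtain ⟨b, hbB, hbsa, hbnorm, hbη⟩ := pro_kaplansky M hΩ B hBM hdenseB hxM hx hx0 hη
  obtain ⟨i, l, hbl⟩ := hBrep b hbB
  rw [hbl] at hbsa hbnorm hbη
  obtain ⟨p, a, q, hp, haA, hasa, hanorm, hqM, hq, hqΩ, hpave⟩ :=
    pro_omega_paving hAM hΩ hsys hmp hεε1 i l hbsa hbnorm hη
  exact ⟨_, p, a, q, hBM _ (hBop i l), hbsa, hbnorm.le, hbη, hp, haA, hasa, hanorm, hqM, hq,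
    hqΩ, hpave⟩

theorem pro_number_le {Γ : Type} [Group Γ] (A M : VonNeumannAlgebra H) (Ω : H) (hAM : A ≤ M)
    (hΩ : IsTraceVector M Ω) (hsep : IsSeparating M Ω) (hpro : IsProfiniteOver Γ A M Ω)
    {ε ε' : ℝ} (hεε' : ε < ε') : soPavingNumber A M ε' ≤ matrixPavingNumber ε := by
  unfold soPavingNumber matrixPavingNumber
  refine le_iInf (fun r => le_iInf (fun hr => ?_))
  exact iInf₂_le r ⟨hr.1, fun x hxM hx =>
    pro_soPavable A M Ω hAM hΩ hsep hpro hεε' hr.2 x hxM hx⟩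

end Vale.Agent.Lib.P078
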